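import Vale.Agent.P173.BUComb

/-! The product Borsuk-Ulam theorem. -/

namespace Vale.Agent.P173

/-- Product of `m` spheres for the sum norm. -/
def Sph (m d : ℕ) : Set (Fin m → Fin (d + 1) → ℝ) := {y | ∀ i, ∑ a, |y i a| = 1}

namespace BUT

open Finsupp

section chains

variable {X : Type*}

theorem self_add (z : Ch X) : z + z = 0 := by
  rw [← two_smul (ZMod 2), show (2 : ZMod 2) = 0 from rfl, zero_smul]

theorem map_supp {S : Set (List X)} (L : Ch X →ₗ[ZMod 2] Ch X) (W : Submodule (ZMod 2) (Ch X))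
    (h : ∀ l ∈ S, L (single l 1) ∈ W) {z : Ch X} (hz : z ∈ supported (ZMod 2) (ZMod 2) S) :
    L z ∈ W := by
  rw [supported_eq_span_single] at hz
  refine (Submodule.span_le (p := W.comap L)).2 ?_ hz
  rintro _ ⟨l, hl, rfl⟩
  exact h l hl

theorem cone_single (x : X) (l : List X) : cone x (single l 1) = single (x :: l) 1 :=
  mapDomain_single

theorem push_single (f : X → X) (l : List X) : push f (single l 1) = single (l.map f) 1 :=
  mapDomain_single

theorem bd_single (l : List X) : bd (single l 1) = bdL l := by simp [bd]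

theorem push_push (f g : X → X) (z : Ch X) : push f (push g z) = push (f ∘ g) z := by
  show mapDomain _ (mapDomain _ z) = mapDomain _ z
  rw [← mapDomain_comp, List.map_comp_map]

theorem push_id (z : Ch X) : push id z = z := by
  show mapDomain _ z = z
  rw [List.map_id_fun, mapDomain_id]

/-- Prism over a list. -/
noncomputable def prL (f g : X → X) : List X → Ch X
  | [] => 0
  | x :: l => single (f x :: g x :: l.map g) 1 + cone (f x) (prL f g l)

/-- Prism operator. -/
noncomputable def pr (f g : X → X) : Ch X →ₗ[ZMod 2] Ch X := linearCombination _ (prL f g)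

theorem pr_single (f g : X → X) (l : List X) : pr f g (single l 1) = prL f g l := by simp [pr]

theorem pr_cone (f g : X → X) (x : X) (z : Ch X) :
    pr f g (cone x z) = cone (f x) (cone (g x) (push g z)) + cone (f x) (pr f g z) := by
  have : pr f g ∘ₗ cone x = cone (f x) ∘ₗ cone (g x) ∘ₗ push g + cone (f x) ∘ₗ pr f g :=
    lhom_ext' fun l => LinearMap.ext_ring (by
      simp only [LinearMap.comp_apply, lsingle_apply, LinearMap.add_apply, cone_single,
        push_single, pr_single, prL])
  exact LinearMap.congr_fun this z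

theorem bd_prL (f g : X → X) (l : List X) :
    bd (prL f g l) = pr f g (bdL l) + push f (single l 1) + push g (single l 1) := by
  induction l with
  | nil => simp [prL, bdL, push_single, self_add]
  | cons x l ih =>
    have h := bd_push g (single l 1)
    rw [push_single, bd_single, bd_single] at h
    simp only [prL, bdL, map_add, bd_single, bd_cone, ih, pr_cone, pr_single, h, push_single,
      cone_single, List.map_cons]
    have := self_add (single (f x :: l.map g) (1 : ZMod 2))
    linear_combination (norm := abel) this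

theorem bd_pr (f g : X → X) (z : Ch X) :
    bd (pr f g z) = pr f g (bd z) + push f z + push g z := by
  have : bd ∘ₗ pr f g = pr f g ∘ₗ bd + push f + push g :=
    lhom_ext' fun l => LinearMap.ext_ring (by
      simp only [LinearMap.comp_apply, lsingle_apply, LinearMap.add_apply, pr_single, bd_single,
        bd_prL])
  exact LinearMap.congr_fun this z

theorem prL_supp (f g : X → X) (l : List X) : prL f g l ∈
    supported (ZMod 2) (ZMod 2) {l' | ∀ y ∈ l', ∃ x ∈ l, y = f x ∨ y = g x} := by
  induction l with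
  | nil => exact zero_mem _
  | cons x l ih =>
    refine add_mem (single_mem_supported _ _ fun y hy => ?_) (map_supp _ _ (fun l' h => ?_) ih)
    · simp only [List.mem_cons, List.mem_map] at hy
      rcases hy with rfl | rfl | ⟨a, ha, rfl⟩
      · exact ⟨x, List.mem_cons_self, Or.inl rfl⟩
      · exact ⟨x, List.mem_cons_self, Or.inr rfl⟩
      · exact ⟨a, List.mem_cons_of_mem _ ha, Or.inr rfl⟩
    · rw [cone_single]
      refine single_mem_supported _ _ fun y hy => ?_
      rcases List.mem_cons.1 hy with rfl | hy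
      · exact ⟨x, List.mem_cons_self, Or.inl rfl⟩
      · obtain ⟨a, ha, h'⟩ := h y hy
        exact ⟨a, List.mem_cons_of_mem _ ha, h'⟩

variable [PseudoMetricSpace X]

/-- Small chains in a set. -/
def Small (ε : ℝ) (H : Set X) : Submodule (ZMod 2) (Ch X) :=
  supported (ZMod 2) (ZMod 2) {l | ∀ x ∈ l, x ∈ H ∧ ∀ y ∈ l, dist x y < ε}

theorem small_mono {ε ε' : ℝ} (h : ε ≤ ε') (H : Set X) : Small ε H ≤ Small ε' H :=
  supported_mono fun _ hl x hx => ⟨(hl x hx).1, fun y hy => ((hl x hx).2 y hy).trans_le h⟩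

theorem small_push {ε : ℝ} {H H' : Set X} {f : X → X} (h : ∀ x ∈ H, f x ∈ H')
    (h' : ∀ x ∈ H, ∀ y ∈ H, dist (f x) (f y) ≤ dist x y) {z : Ch X} (hz : z ∈ Small ε H) :
    push f z ∈ Small ε H' := by
  refine map_supp _ _ (fun l hl => ?_) hz
  rw [push_single]
  refine single_mem_supported _ _ fun y hy => ?_
  obtain ⟨x, hx, rfl⟩ := List.mem_map.1 hy
  refine ⟨h x (hl x hx).1, fun y hy => ?_⟩
  obtain ⟨x', hx', rfl⟩ := List.mem_map.1 hy
  exact (h' x (hl x hx).1 x' (hl x' hx').1).trans_lt ((hl x hx).2 x' hx')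

theorem fill {ε : ℝ} (hε : 0 < ε) {H : Set X} {p : X} (hp : p ∈ H) (N : ℕ) (f : ℕ → X → X)
    (h0 : f 0 = id) (hN : ∀ x ∈ H, f N x = p) (h1 : ∀ s ≤ N, ∀ x ∈ H, f s x ∈ H)
    (h2 : ∀ s ≤ N, ∀ x ∈ H, ∀ y ∈ H, dist (f s x) (f s y) ≤ dist x y)
    (h3 : ∀ s < N, ∀ x ∈ H, dist (f s x) (f (s + 1) x) ≤ ε) {z : Ch X} (hz : z ∈ Small ε H)
    (hb : bd z = 0) : ∃ w ∈ Small (2 * ε) H, bd w = z := by
  have key : ∀ s ≤ N, ∃ w ∈ Small (2 * ε) H, bd w = z + push (f s) z := by
    intro s
    induction s with
    | zero => exact fun _ => ⟨0, zero_mem _, by rw [h0, push_id, self_add, map_zero]⟩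
    | succ s ih =>
      intro hs
      obtain ⟨w, hw, hw'⟩ := ih (by omega)
      refine ⟨w + pr (f s) (f (s + 1)) z, add_mem hw (map_supp _ _ (fun l hl => ?_) hz), ?_⟩
      · rw [pr_single]
        refine supported_mono (fun l' hl' y hy => ?_) (prL_supp _ _ l)
        obtain ⟨x, hx, h⟩ := hl' y hy
        have a := hl x hx
        refine ⟨by rcases h with rfl | rfl <;> exact h1 _ (by omega) x a.1, fun y' hy' => ?_⟩
        obtain ⟨x', hx', h'⟩ := hl' y' hy'
        have b := (hl x' hx').1
        have c1 := (h2 s (by omega) x a.1 x' b).trans_lt (a.2 x' hx')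
        have c2 := (h2 (s + 1) hs x a.1 x' b).trans_lt (a.2 x' hx')
        have c3 := h3 s hs x a.1
        rcases h with rfl | rfl <;> rcases h' with rfl | rfl
        · linarith
        · linarith [dist_triangle (f s x) (f (s + 1) x) (f (s + 1) x')]
        · linarith [dist_triangle_left (f (s + 1) x) (f s x') (f s x)]
        · linarith
      · rw [map_add, hw', bd_pr, hb, map_zero, zero_add, add_assoc, ← add_assoc (push _ z),
          self_add, zero_add]
  obtain ⟨w, hw, hw'⟩ := key N le_rfl
  refine ⟨w + cone p (push (f N) z), add_mem hw (map_supp (cone p ∘ₗ push (f N)) _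
    (fun l hl => ?_) hz), ?_⟩
  · rw [LinearMap.comp_apply, push_single, cone_single]
    have : ∀ y ∈ p :: l.map (f N), y = p := by
      intro y hy
      rcases List.mem_cons.1 hy with h | h
      · exact h
      · obtain ⟨x, hx, rfl⟩ := List.mem_map.1 h
        exact hN x (hl x hx).1
    refine single_mem_supported _ _ fun y hy => ⟨this y hy ▸ hp, fun y' hy' => ?_⟩
    rw [this y hy, this y' hy', dist_self]
    linarith
  · rw [map_add, hw', bd_cone, bd_push, hb, map_zero, map_zero, add_zero, add_assoc, self_add,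
      add_zero]

end chains

theorem cycle {X ι : Type*} [Fintype ι] [DecidableEq ι] (T : ι → X → X)
    (h1 : ∀ i, T i ∘ T i = id) (h2 : ∀ i j, T i ∘ T j = T j ∘ T i) (h : (ι → ℤ) → Ch X)
    (n : ι → ℤ) (hn : ∀ i, bd (h (n - Pi.single i 1)) =
      (∑ j, (h (n - Pi.single i 1 - Pi.single j 1) +
        push (T j) (h (n - Pi.single i 1 - Pi.single j 1)))) +
      if n - Pi.single i 1 = 0 then single [] 1 else 0) :
    bd ((∑ i, (h (n - Pi.single i 1) + push (T i) (h (n - Pi.single i 1)))) +
      if n = 0 then single [] 1 else 0) = 0 := by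
  have e1 : ∀ (P : Prop) [Decidable P], bd (if P then single [] 1 else 0 : Ch X) = 0 := by
    intro P _
    split_ifs
    · exact bd_single _
    · exact map_zero _
  have e2 : ∀ (P : Prop) [Decidable P] i, push (T i) (if P then single [] 1 else 0 : Ch X) =
      if P then single [] 1 else 0 := by
    intro P _ i
    split_ifs
    · exact push_single _ _
    · exact map_zero _
  rw [map_add, e1, add_zero, map_sum]
  simp only [map_add, bd_push, hn, e2, map_sum, add_add_add_comm _ (ite _ _ _), self_add,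
    add_zero, ← Finset.sum_add_distrib, push_push]
  rw [← Fintype.sum_prod_type']
  refine Finset.sum_involution (fun a _ => a.swap) (fun a _ => ?_) (fun a _ h h' => h ?_)
    (fun _ _ => Finset.mem_univ _) fun _ _ => rfl
  · rw [Prod.fst_swap, Prod.snd_swap, sub_right_comm n (Pi.single a.2 1), h2 a.2 a.1,
      add_add_add_comm _ (push (T a.1) _), self_add]
  · rw [show a.2 = a.1 from congrArg Prod.fst h', h1, push_id, add_comm (push _ _), self_add]

variable {m d : ℕ}

theorem norm_le {y : Fin m → Fin (d + 1) → ℝ} (hy : y ∈ Sph m d) : ‖y‖ ≤ 1 :=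
  (pi_norm_le_iff_of_nonneg zero_le_one).2 fun i => (pi_norm_le_iff_of_nonneg zero_le_one).2
    fun a => (Finset.single_le_sum (f := fun a => |y i a|) (fun _ _ => abs_nonneg _)
      (Finset.mem_univ a)).trans (hy i).le

theorem isCompact_sph : IsCompact (Sph m d) := by
  refine Metric.isCompact_of_isClosed_isBounded ?_
    (Metric.isBounded_closedBall.subset fun y hy => mem_closedBall_zero_iff.2 (norm_le hy))
  simp only [Sph, Set.ofPred_forall]
  exact isClosed_iInter fun i => isClosed_eq (by fun_prop) continuous_const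

/-- The antipodal map of one factor. -/
def flp (i : Fin m) (y : Sph m d) : Sph m d :=
  ⟨Function.update y.1 i (-y.1 i), fun j => by
    by_cases h : j = i
    · subst h
      simpa using y.2 j
    · simpa [h] using y.2 j⟩

theorem flp_val (i : Fin m) (y : Sph m d) (j : Fin m) :
    (flp i y).1 j = if j = i then -y.1 j else y.1 j := by
  by_cases h : j = i <;> simp [flp, h]

theorem flp_flp (i : Fin m) : flp (d := d) i ∘ flp i = id :=
  funext fun x => Subtype.ext (funext fun j => by
    simp only [Function.comp_apply, flp_val, id]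
    split_ifs <;> simp)

theorem flp_comm (i j : Fin m) : flp (d := d) i ∘ flp j = flp j ∘ flp i :=
  funext fun x => Subtype.ext (funext fun k => by
    simp only [Function.comp_apply, flp_val]
    split_ifs <;> simp)

theorem flp_dist (i : Fin m) (x y : Sph m d) : dist (flp i x) (flp i y) ≤ dist x y := by
  refine (dist_pi_le_iff dist_nonneg).2 fun j => le_trans ?_ (dist_le_pi_dist x.1 y.1 j)
  rw [flp_val, flp_val]
  split_ifs <;> simp

/-- Products of closed hemispheres. -/
def Hem (n : Fin m → ℤ) : Set (Sph m d) :=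
  {y | ∀ i (a : Fin (d + 1)), (n i < a.val → y.1 i a = 0) ∧ (n i = a.val → 0 ≤ y.1 i a)}

theorem hem_fill {n : Fin m → ℤ} (h0 : ∀ i, 0 ≤ n i) (hd : ∀ i, n i ≤ d) {ε : ℝ} (hε : 0 < ε)
    {z : Ch (Sph m d)} (hz : z ∈ Small ε (Hem n)) (hb : bd z = 0) :
    ∃ w ∈ Small (2 * ε) (Hem n), bd w = z := by
  classical
  let q : Fin m → Fin (d + 1) → ℝ := fun i a => if n i = a.val then 1 else 0
  have hq : ∀ i, ∑ a, q i a = 1 := by
    intro i
    rw [Finset.sum_eq_single ⟨(n i).toNat, by have := hd i; have := h0 i; omega⟩]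
    · exact if_pos (Int.toNat_of_nonneg (h0 i)).symm
    · exact fun b _ hb => if_neg fun h => hb (Fin.ext (by simp [h]))
    · simp
  have hq' : q ∈ Sph m d := fun i => (Finset.sum_congr rfl fun a _ =>
    abs_of_nonneg (by simp only [q]; positivity)).trans (hq i)
  have hS : ∀ t : ℝ, 0 ≤ t → t ≤ 1 → ∀ x ∈ Hem n, (1 - t) • x.1 + t • q ∈ Sph m d := by
    intro t t0 t1 x hx i
    have : ∀ a, |((1 - t) • x.1 + t • q) i a| = (1 - t) * |x.1 i a| + t * q i a := by
      intro a
      simp only [Pi.add_apply, Pi.smul_apply, smul_eq_mul, q]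
      split_ifs with h
      · have := (hx i a).2 h
        rw [abs_of_nonneg this, abs_of_nonneg (by nlinarith)]
      · rw [mul_zero, add_zero, add_zero, abs_mul, abs_of_nonneg (sub_nonneg.2 t1)]
    simp only [this, Finset.sum_add_distrib, ← Finset.mul_sum, hq i, x.2 i]
    ring
  obtain ⟨N, hN⟩ := exists_nat_gt (2 / ε)
  have hN0 : (0 : ℝ) < N := lt_trans (by positivity) hN
  let f : ℕ → Sph m d → Sph m d := fun s x =>
    if h : (1 - s / N : ℝ) • x.1 + (s / N : ℝ) • q ∈ Sph m d then ⟨_, h⟩ else x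
  have t1 : ∀ s ≤ N, (s / N : ℝ) ≤ 1 := fun s hs => (div_le_one hN0).2 (Nat.cast_le.2 hs)
  have hf : ∀ s ≤ N, ∀ x ∈ Hem n, (f s x).1 = (1 - s / N : ℝ) • x.1 + (s / N : ℝ) • q :=
    fun s hs x hx => by simp only [f, dif_pos (hS _ (by positivity) (t1 s hs) x hx)]
  refine fill hε (H := Hem n) (p := ⟨q, hq'⟩) (fun i a => ⟨fun h => if_neg h.ne, fun h => ?_⟩) N f
    (funext fun x => by simp [f]) (fun x hx => Subtype.ext ?_) (fun s hs x hx i a => ?_)
    (fun s hs x hx y hy => ?_) (fun s hs x hx => ?_) hz hb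
  · simp [q, h]
  · rw [hf N le_rfl x hx, div_self hN0.ne']
    simp
  · rw [hf s hs x hx]
    simp only [Pi.add_apply, Pi.smul_apply, smul_eq_mul, q]
    refine ⟨fun h => by rw [(hx i a).1 h, if_neg h.ne]; simp, fun h => ?_⟩
    have := mul_nonneg (sub_nonneg.2 (t1 s hs)) ((hx i a).2 h)
    positivity
  · rw [Subtype.dist_eq, hf s hs x hx, hf s hs y hy, dist_add_right, dist_smul₀,
      Real.norm_of_nonneg (sub_nonneg.2 (t1 s hs))]
    exact mul_le_of_le_one_left dist_nonneg (sub_le_self _ (by positivity))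
  · have e : (1 - s / N : ℝ) • x.1 + (s / N : ℝ) • q -
        ((1 - (s + 1 : ℕ) / N : ℝ) • x.1 + ((s + 1 : ℕ) / N : ℝ) • q) = (1 / N : ℝ) • (x.1 - q) := by
      push_cast
      module
    rw [Subtype.dist_eq, hf s hs.le x hx, hf (s + 1) hs x hx, dist_eq_norm, e, norm_smul,
      Real.norm_of_nonneg (by positivity), one_div_mul_eq_div, div_le_iff₀ hN0]
    rw [div_lt_iff₀ hε] at hN
    linarith [norm_sub_le x.1 q, norm_le x.2, norm_le hq']

theorem exists_chains (r : ℕ) : ∀ ε : ℝ, 0 < ε → ∃ h : (Fin m → ℤ) → Ch (Sph m d),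
    (∀ n i, n i < 0 → h n = 0) ∧ (∀ n, h n ∈ Small ε (Hem n)) ∧
    ∀ n : Fin m → ℤ, (∀ i, n i ≤ d) → ∑ i, n i < r → bd (h n) =
      (∑ i, (h (n - Pi.single i 1) + push (flp i) (h (n - Pi.single i 1)))) +
        if n = 0 then single [] 1 else 0 := by
  induction r with
  | zero =>
    refine fun ε _ => ⟨0, fun _ _ _ => rfl, fun _ => zero_mem _, fun n _ h => ?_⟩
    rw [if_neg (by rintro rfl; simp at h)]
    simp
  | succ r ih =>
    intro ε hε
    obtain ⟨h, a, b, c⟩ := ih (ε / 2) (by positivity)
    have hs : ∀ (n : Fin m → ℤ) i, ∑ j, (n - Pi.single i 1 : Fin m → ℤ) j = ∑ j, n j - 1 := by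
      intro n i
      simp [Finset.sum_sub_distrib]
    have hle : ∀ (n : Fin m → ℤ) i j, (n - Pi.single i 1 : Fin m → ℤ) j ≤ n j := fun n i j =>
      sub_le_self _ (by rw [Pi.single_apply]; positivity)
    have key : ∀ n : Fin m → ℤ, ∃ w ∈ Small ε (Hem n), (∀ i, n i < 0 → w = 0) ∧
        (∑ i, n i < r → w = h n) ∧ ((∀ i, n i ≤ d) → ∑ i, n i < r + 1 → bd w =
          (∑ i, (h (n - Pi.single i 1) + push (flp i) (h (n - Pi.single i 1)))) +
            if n = 0 then single [] 1 else 0) := by
      intro n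
      by_cases h1 : ∑ i, n i < r
      · exact ⟨h n, small_mono (by linarith) _ (b n), a n, fun _ => rfl, fun h2 _ => c n h2 h1⟩
      by_cases h2 : ∃ i, n i < 0
      · obtain ⟨i, hi⟩ := h2
        refine ⟨0, zero_mem _, fun _ _ => rfl, fun h => absurd h h1, fun _ _ => ?_⟩
        rw [if_neg (by rintro rfl; simp at hi)]
        simp [fun j => a _ i ((hle n j i).trans_lt hi)]
      by_cases h3 : (∀ i, n i ≤ d) ∧ ∑ i, n i < r + 1
      swap
      · exact ⟨0, zero_mem _, fun _ _ => rfl, fun h => absurd h h1, fun h h' => absurd ⟨h, h'⟩ h3⟩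
      push Not at h2
      have hH : ∀ i, ∀ x ∈ Hem (d := d) (n - Pi.single i 1), x ∈ Hem n ∧ flp i x ∈ Hem n := by
        intro i x hx
        have h4 : ∀ a : Fin (d + 1), n i ≤ a.val → x.1 i a = 0 := fun a h =>
          (hx i a).1 (by simpa using h)
        constructor <;> intro j a <;> by_cases hj : j = i
        · subst hj
          exact ⟨fun h => h4 a h.le, fun h => (h4 a h.le).ge⟩
        · simpa [hj] using hx j a
        · subst hj
          rw [flp_val, if_pos rfl]
          exact ⟨fun h => by simp [h4 a h.le], fun h => by simp [h4 a h.le]⟩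
        · simpa [hj, flp_val] using hx j a
      obtain ⟨w, hw, hw'⟩ := hem_fill h2 h3.1 (half_pos hε) (add_mem (sum_mem fun i _ =>
        add_mem (push_id (h _) ▸ small_push (fun x hx => (hH i x hx).1) (fun _ _ _ _ => le_rfl)
          (b _)) (small_push (fun x hx => (hH i x hx).2) (fun x _ y _ => flp_dist i x y) (b _)))
        (show (if n = 0 then single [] 1 else 0) ∈ _ by
          split_ifs
          · exact single_mem_supported _ _ (by simp)
          · exact zero_mem _))
        (cycle flp flp_flp flp_comm h n fun i =>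
          c _ (fun j => (hle n i j).trans (h3.1 j)) (by rw [hs]; linarith [h3.2]))
      exact ⟨w, small_mono (by linarith) _ hw, fun i hi => absurd hi (not_lt.2 (h2 i)),
        fun h => absurd h h1, fun _ _ => hw'⟩
    choose w h1 h2 h3 h4 using key
    refine ⟨w, h2, h1, fun n hn hr => ?_⟩
    push_cast at hr
    rw [h4 n hn hr]
    simp only [fun i => h3 (n - Pi.single i 1) (by rw [hs]; linarith)]

end BUT

open BUT in
theorem bu (m d : ℕ) (Φ : (Fin m → Fin (d + 1) → ℝ) → Fin m → Fin d → ℝ)
    (hc : ContinuousOn Φ (Sph m d))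
    (hodd : ∀ y ∈ Sph m d, ∀ i j, Φ (Function.update y i (-y i)) j =
      if j = i then -Φ y j else Φ y j) : ∃ y ∈ Sph m d, Φ y = 0 := by
  by_contra hcon
  push Not at hcon
  have hne : (fun _ => Pi.single 0 1) ∈ Sph m d := fun i => by simp [Fin.sum_univ_succ]
  rcases isEmpty_or_nonempty (Fin m × Fin d) with he | he
  · exact hcon _ hne (funext fun i => funext fun a => he.elim (i, a))
  obtain ⟨y₀, hy₀, hmin⟩ := isCompact_sph.exists_isMinOn ⟨_, hne⟩ hc.norm
  obtain ⟨ε, hε, hu⟩ := Metric.uniformContinuousOn_iff.1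
    (isCompact_sph.uniformContinuousOn_of_continuous hc) _ (norm_pos_iff.2 (hcon _ hy₀))
  choose A hA using fun v : Fin m × Fin d → ℝ => Finite.exists_max v
  let co : Sph m d → Fin m × Fin d := fun y => A fun k => |Φ y k.1 k.2|
  have hco : ∀ y : Sph m d, ‖Φ y₀‖ ≤ |Φ y (co y).1 (co y).2| := fun y =>
    (hmin y.2).trans ((pi_norm_le_iff_of_nonneg (abs_nonneg _)).2 fun i =>
      (pi_norm_le_iff_of_nonneg (abs_nonneg _)).2 fun a => hA (fun k => |Φ y k.1 k.2|) (i, a))
  have hT : ∀ i y, co (flp i y) = co y := fun i y => congrArg A (funext fun k => by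
    rw [show Φ (flp i y) k.1 = _ from hodd y y.2 i k.1]
    split_ifs <;> simp)
  have hd : ∀ i, ((Finset.univ.filter fun c : Fin m × Fin d => c.1 = i).card : ℤ) = d := by
    intro i
    rw [show Finset.univ.filter (fun c : Fin m × Fin d => c.1 = i) = {i} ×ˢ Finset.univ from
      Finset.ext fun c => by simp only [Finset.mem_filter, Finset.mem_product,
        Finset.mem_singleton, Finset.mem_univ, true_and, and_true]]
    simp
  obtain ⟨h, -, b, c⟩ := exists_chains (m := m) (d := d) (m * d + 1) ε hε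
  refine bu_comb flp Prod.fst co (fun y => decide (0 < Φ y (co y).1 (co y).2)) hT
    (fun i y => ?_) Finset.univ h (fun n l hl => ⟨by simp, fun x hx y hy hxy => ?_⟩)
    fun n hn => c n (fun i => (hn i).trans ?_) ?_
  · have h0 : Φ y (co y).1 (co y).2 ≠ 0 :=
      abs_pos.1 ((norm_pos_iff.2 (hcon _ hy₀)).trans_le (hco y))
    rw [hT, show Φ (flp i y) (co y).1 = _ from hodd y y.2 i _]
    split_ifs
    · rcases h0.lt_or_gt with h | h <;> simp [h, h.not_gt]
    · rfl
  · have h1 := ((dist_le_pi_dist _ _ (co x).2).trans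
      (dist_le_pi_dist (Φ x) (Φ y) (co x).1)).trans_lt (hu x x.2 y y.2 ((b n hl x hx).2 y hy))
    have h2 := hco x
    have h3 := hco y
    rw [Real.dist_eq, abs_lt] at h1
    rw [← hxy] at h3 ⊢
    rw [decide_eq_decide]
    constructor <;> intro h <;> by_contra h' <;> push Not at h'
    · rw [abs_of_pos h] at h2
      linarith
    · rw [abs_of_pos h] at h3
      linarith
  · exact (hd i).le
  · exact (Finset.sum_le_card_nsmul _ _ (d : ℤ) fun i _ => (hn i).trans (hd i).le).trans_lt
      (by simp)

end Vale.Agent.P173
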