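import Mathlib

/-! Combinatorial core of the product Borsuk-Ulam theorem: chains are mod 2 combinations of
lists of points. -/

namespace Vale.Agent.P173

/-- Chains. -/
abbrev Ch (X : Type*) := List X →₀ ZMod 2

/-- Cone over a chain. -/
noncomputable def cone {X : Type*} (x : X) : Ch X →ₗ[ZMod 2] Ch X :=
  Finsupp.lmapDomain _ _ (List.cons x)

/-- Boundary of a list (augmented). -/
noncomputable def bdL {X : Type*} : List X → Ch X
  | [] => 0
  | x :: l => Finsupp.single l 1 + cone x (bdL l)

/-- Boundary operator. -/
noncomputable def bd {X : Type*} : Ch X →ₗ[ZMod 2] Ch X := Finsupp.linearCombination _ bdL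

/-- Push forward of chains. -/
noncomputable def push {X Y : Type*} (f : X → Y) : Ch X →ₗ[ZMod 2] Ch Y :=
  Finsupp.lmapDomain _ _ (List.map f)

theorem buc_two {X : Type*} (z : Ch X) : z + z = 0 := by
  rw [← two_smul (ZMod 2), show (2 : ZMod 2) = 0 from rfl, zero_smul]

theorem buc_ext {X M : Type*} [AddCommGroup M] [Module (ZMod 2) M] {f g : Ch X →ₗ[ZMod 2] M}
    (h : ∀ l, f (Finsupp.single l 1) = g (Finsupp.single l 1)) (z : Ch X) : f z = g z :=
  LinearMap.congr_fun (Finsupp.lhom_ext' fun l => LinearMap.ext_ring (h l)) z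

theorem buc_cone {X : Type*} (x : X) (l : List X) :
    cone x (Finsupp.single l 1) = Finsupp.single (x :: l) 1 := Finsupp.mapDomain_single

theorem buc_push {X Y : Type*} (f : X → Y) (l : List X) (r : ZMod 2) :
    push f (Finsupp.single l r) = Finsupp.single (l.map f) r := Finsupp.mapDomain_single

theorem buc_bd {X : Type*} (l : List X) : bd (Finsupp.single l 1) = bdL l := by
  rw [bd, Finsupp.linearCombination_single, one_smul]

theorem buc_push_cone {X Y : Type*} (f : X → Y) (x : X) (z : Ch X) :
    push f (cone x z) = cone (f x) (push f z) :=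
  buc_ext (f := push f ∘ₗ cone x) (g := cone (f x) ∘ₗ push f) (fun l => by
    simp only [LinearMap.comp_apply, buc_cone, buc_push, List.map_cons]) z

theorem bd_cone {X : Type*} (x : X) (z : Ch X) : bd (cone x z) = z + cone x (bd z) :=
  buc_ext (f := bd ∘ₗ cone x) (g := LinearMap.id + cone x ∘ₗ bd) (fun l => by
    simp only [LinearMap.comp_apply, LinearMap.add_apply, LinearMap.id_apply, buc_cone, buc_bd,
      bdL]) z

theorem bd_bd {X : Type*} (z : Ch X) : bd (bd z) = 0 := by
  refine buc_ext (f := bd ∘ₗ bd) (g := 0) (fun l => ?_) z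
  rw [LinearMap.comp_apply, buc_bd, LinearMap.zero_apply]
  induction l with
  | nil => exact map_zero _
  | cons x l ih => rw [bdL, map_add, bd_cone, ih, map_zero, add_zero, buc_bd, buc_two]

theorem bd_push {X Y : Type*} (f : X → Y) (z : Ch X) : bd (push f z) = push f (bd z) := by
  refine buc_ext (f := bd ∘ₗ push f) (g := push f ∘ₗ bd) (fun l => ?_) z
  rw [LinearMap.comp_apply, LinearMap.comp_apply, buc_push, buc_bd, buc_bd]
  induction l with
  | nil => exact (map_zero _).symm
  | cons x l ih => rw [List.map_cons, bdL, bdL, map_add, buc_push, buc_push_cone, ih]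

section

variable {X : Type*} (p : X → Bool) (sg : X → Bool)

/-- The part of a list outside `p`, if the signs inside `p` are `w`. -/
noncomputable def bucG (w : List Bool) (l : List X) : Ch X :=
  if (l.filter p).map sg = w then Finsupp.single (l.filter fun x => !p x) 1 else 0

/-- Linear extension of `bucG`. -/
noncomputable def bucL (w : List Bool) : Ch X →ₗ[ZMod 2] Ch X :=
  Finsupp.linearCombination _ (bucG p sg w)

theorem bucL_single (w : List Bool) (l : List X) :
    bucL p sg w (Finsupp.single l 1) = bucG p sg w l := by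
  rw [bucL, Finsupp.linearCombination_single, one_smul]

variable {p}

theorem bucG_out {x : X} (hx : p x = false) (w : List Bool) (l : List X) :
    bucG p sg w (x :: l) = cone x (bucG p sg w l) := by
  simp only [bucG, List.filter_cons, hx, Bool.false_eq_true, if_false, Bool.not_false, if_true]
  split_ifs
  · rw [buc_cone]
  · rw [map_zero]

theorem bucG_in_nil {x : X} (hx : p x = true) (l : List X) : bucG p sg [] (x :: l) = 0 := by
  simp [bucG, hx]

theorem bucG_in {x : X} (hx : p x = true) (s : Bool) (w : List Bool) (l : List X) :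
    bucG p sg (s :: w) (x :: l) = if sg x = s then bucG p sg w l else 0 := by
  by_cases h : sg x = s <;> simp [bucG, hx, h]

theorem bucL_out {x : X} (hx : p x = false) (w : List Bool) (z : Ch X) :
    bucL p sg w (cone x z) = cone x (bucL p sg w z) :=
  buc_ext (f := bucL p sg w ∘ₗ cone x) (g := cone x ∘ₗ bucL p sg w) (fun l => by
    simp only [LinearMap.comp_apply, buc_cone, bucL_single, bucG_out sg hx]) z

theorem bucL_in_nil {x : X} (hx : p x = true) (z : Ch X) : bucL p sg [] (cone x z) = 0 :=
  buc_ext (f := bucL p sg [] ∘ₗ cone x) (g := 0) (fun l => by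
    simp only [LinearMap.comp_apply, buc_cone, bucL_single, bucG_in_nil sg hx,
      LinearMap.zero_apply]) z

theorem bucL_in {x : X} (hx : p x = true) (s : Bool) (w : List Bool) (z : Ch X) :
    bucL p sg (s :: w) (cone x z) = if sg x = s then bucL p sg w z else 0 := by
  split_ifs with h
  · exact buc_ext (f := bucL p sg (s :: w) ∘ₗ cone x) (g := bucL p sg w) (fun l => by
      simp only [LinearMap.comp_apply, buc_cone, bucL_single, bucG_in sg hx, if_pos h]) z
  · exact buc_ext (f := bucL p sg (s :: w) ∘ₗ cone x) (g := 0) (fun l => by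
      simp only [LinearMap.comp_apply, buc_cone, bucL_single, bucG_in sg hx, if_neg h,
        LinearMap.zero_apply]) z

variable (p)

theorem bucG_bd_nil (l : List X) : bucL p sg [] (bdL l) =
    bd (bucG p sg [] l) + bucG p sg [true] l + bucG p sg [false] l := by
  induction l with
  | nil => simp [bucG, bdL, buc_bd]
  | cons x l ih =>
    rw [bdL, map_add, bucL_single]
    cases hx : p x
    · rw [bucL_out sg hx, ih, bucG_out sg hx, bucG_out sg hx, bucG_out sg hx, bd_cone, map_add,
        map_add]
      abel
    · rw [bucL_in_nil sg hx, bucG_in_nil sg hx, bucG_in sg hx, bucG_in sg hx]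
      cases sg x <;> simp

theorem bucG_bd_one (s : Bool) (l : List X) : bucL p sg [s] (bdL l) =
    bd (bucG p sg [s] l) + bucG p sg [s, !s] l + bucG p sg [!s, s] l := by
  induction l with
  | nil => simp [bucG, bdL]
  | cons x l ih =>
    rw [bdL, map_add, bucL_single]
    cases hx : p x
    · rw [bucL_out sg hx, ih, bucG_out sg hx, bucG_out sg hx, bucG_out sg hx, bd_cone, map_add,
        map_add]
      abel
    · rw [bucL_in sg hx, bucG_in sg hx, bucG_in sg hx, bucG_in sg hx, bucG_bd_nil]
      have h1 := buc_two (bucG p sg [true] l)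
      have h2 := buc_two (bucG p sg [false] l)
      cases s <;> cases sg x <;> simp
      · linear_combination (norm := abel) h2
      · linear_combination (norm := abel) h1

theorem bucL_bd_nil (z : Ch X) : bucL p sg [] (bd z) =
    bd (bucL p sg [] z) + bucL p sg [true] z + bucL p sg [false] z :=
  buc_ext (f := bucL p sg [] ∘ₗ bd)
    (g := bd ∘ₗ bucL p sg [] + bucL p sg [true] + bucL p sg [false]) (fun l => by
      simp only [LinearMap.comp_apply, LinearMap.add_apply, buc_bd, bucL_single, bucG_bd_nil]) z

theorem bucL_two (s : Bool) (z : Ch X)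
    (hz : ∀ l ∈ z.support, ∀ x ∈ l, ∀ y ∈ l, p x = true → p y = true → sg x = sg y) :
    bucL p sg [s, !s] z = 0 := by
  rw [bucL, Finsupp.linearCombination_apply]
  refine Finset.sum_eq_zero fun l hl => ?_
  simp only [bucG]
  rw [if_neg, smul_zero]
  intro h
  obtain ⟨x, hx, e1⟩ := List.mem_map.1 (h ▸ (by simp : s ∈ [s, !s]) : s ∈ (l.filter p).map sg)
  obtain ⟨y, hy, e2⟩ := List.mem_map.1 (h ▸ (by simp : (!s) ∈ [s, !s]) : (!s) ∈ (l.filter p).map sg)
  rw [List.mem_filter] at hx hy
  have := hz l hl x hx.1 y hy.1 hx.2 hy.2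
  rw [e1, e2] at this
  simp at this

theorem bucL_bd_one (s : Bool) (z : Ch X)
    (hz : ∀ l ∈ z.support, ∀ x ∈ l, ∀ y ∈ l, p x = true → p y = true → sg x = sg y) :
    bucL p sg [s] (bd z) = bd (bucL p sg [s] z) := by
  have h := buc_ext (f := bucL p sg [s] ∘ₗ bd)
    (g := bd ∘ₗ bucL p sg [s] + bucL p sg [s, !s] + bucL p sg [!s, s]) (fun l => by
      simp only [LinearMap.comp_apply, LinearMap.add_apply, buc_bd, bucL_single, bucG_bd_one]) z
  have h2 := bucL_two p sg (!s) z hz
  rw [Bool.not_not] at h2
  simpa only [LinearMap.comp_apply, LinearMap.add_apply, bucL_two p sg s z hz, h2, add_zero]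
    using h

theorem bucL_push {T : X → X} {φ : Bool → Bool} (hφ : Function.Involutive φ)
    (h1 : ∀ x, p (T x) = p x) (h2 : ∀ x, p x = true → sg (T x) = φ (sg x)) (w : List Bool)
    (z : Ch X) : bucL p sg w (push T z) = push T (bucL p sg (w.map φ) z) := by
  refine buc_ext (f := bucL p sg w ∘ₗ push T) (g := push T ∘ₗ bucL p sg (w.map φ)) (fun l => ?_) z
  rw [LinearMap.comp_apply, LinearMap.comp_apply, buc_push, bucL_single, bucL_single]
  induction l generalizing w with
  | nil => cases w <;> simp [bucG, buc_push]
  | cons x l ih =>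
    rw [List.map_cons]
    cases hx : p x
    · rw [bucG_out sg hx, bucG_out sg ((h1 x).trans hx), buc_push_cone, ih]
    · cases w with
      | nil => rw [List.map_nil, bucG_in_nil sg hx, bucG_in_nil sg ((h1 x).trans hx), map_zero]
      | cons s w =>
        rw [List.map_cons, bucG_in sg hx, bucG_in sg ((h1 x).trans hx), ih, h2 x hx]
        by_cases h : sg x = φ s
        · rw [if_pos h, if_pos (by rw [h, hφ])]
        · rw [if_neg h, if_neg fun e => h (by rw [← e, hφ]), map_zero]

theorem bucL_supp (w : List Bool) (z : Ch X) :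
    ∀ l' ∈ (bucL p sg w z).support, ∃ l ∈ z.support, l' = l.filter fun x => !p x := by
  change bucL p sg w z ∈ Finsupp.supported (ZMod 2) (ZMod 2)
    {l' | ∃ l ∈ z.support, l' = l.filter fun x => !p x}
  rw [bucL, Finsupp.linearCombination_apply]
  refine Submodule.sum_mem _ fun l hl => Submodule.smul_mem _ _ ?_
  rw [bucG]
  split_ifs
  · exact Finsupp.single_mem_supported _ _ ⟨l, hl, rfl⟩
  · exact zero_mem _

end

theorem bu_comb {X ι κ : Type*} [Fintype ι] [DecidableEq ι] [DecidableEq κ]
    (T : ι → X → X) (j : κ → ι) (co : X → κ) (sg : X → Bool)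
    (hco : ∀ i x, co (T i x) = co x)
    (hsg : ∀ i x, sg (T i x) = if j (co x) = i then !sg x else sg x)
    (C : Finset κ) (a : (ι → ℤ) → Ch X)
    (hsupp : ∀ n, ∀ l ∈ (a n).support,
      (∀ x ∈ l, co x ∈ C) ∧ ∀ x ∈ l, ∀ y ∈ l, co x = co y → sg x = sg y)
    (hrel : ∀ n : ι → ℤ, (∀ i, n i ≤ ((C.filter fun c => j c = i).card : ℤ)) →
      bd (a n) = (∑ i, (a (n - Pi.single i 1) + push (T i) (a (n - Pi.single i 1)))) +
        if n = 0 then Finsupp.single [] 1 else 0) : False := by
  classical
  induction C using Finset.induction_on generalizing a with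
  | empty =>
    have h1 : ∀ n, a n = Finsupp.single [] (a n []) := fun n =>
      Finsupp.support_subset_singleton.1 fun l hl => Finset.mem_singleton.2
        (List.eq_nil_iff_forall_not_mem.2 fun x hx => by simpa using (hsupp n l hl).1 x hx)
    have h2 := hrel 0 (by simp)
    rw [Finset.sum_eq_zero fun i _ => by rw [h1 (0 - _), buc_push, List.map_nil, buc_two], h1 0,
      bd, Finsupp.linearCombination_single, bdL, smul_zero, if_pos rfl, zero_add] at h2
    exact one_ne_zero (Finsupp.single_eq_zero.1 h2.symm)
  | insert c C hc ih =>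
    let p : X → Bool := fun x => decide (co x = c)
    let φ : ι → Bool → Bool := fun i s => if j c = i then !s else s
    have hφ : ∀ i, Function.Involutive (φ i) := fun i s => by
      simp only [φ]
      split_ifs <;> simp
    have hT : ∀ i w z, bucL p sg w (push (T i) z) = push (T i) (bucL p sg (w.map (φ i)) z) :=
      fun i => bucL_push p sg (hφ i) (fun x => by simp only [p, hco]) fun x hx => by
        rw [hsg, of_decide_eq_true hx]
    have hs : ∀ w n, ∀ l ∈ (bucL p sg w (a n)).support,
        (∀ x ∈ l, co x ∈ C) ∧ ∀ x ∈ l, ∀ y ∈ l, co x = co y → sg x = sg y := fun w n l' hl' => by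
      obtain ⟨l, hl, rfl⟩ := bucL_supp p sg w _ l' hl'
      refine ⟨fun x hx => ?_, fun x hx y hy =>
        (hsupp n l hl).2 x (List.mem_filter.1 hx).1 y (List.mem_filter.1 hy).1⟩
      rw [List.mem_filter] at hx
      exact (Finset.mem_insert.1 ((hsupp n l hl).1 x hx.1)).resolve_left (by simpa [p] using hx.2)
    refine ih (fun n => bucL p sg [] (a n) +
      bucL p sg [decide (Even (n (j c)))] (a (n + Pi.single (j c) 1))) (fun n l hl => ?_)
      fun n hn => ?_
    · rcases Finset.mem_union.1 (Finsupp.support_add hl) with h | h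
      exacts [hs _ _ l h, hs _ _ l h]
    have hcard : ∀ i, ((((insert c C).filter fun c => j c = i).card : ℕ) : ℤ) =
        ((C.filter fun c => j c = i).card : ℤ) + (Pi.single (j c) (1 : ℤ) : ι → ℤ) i := fun i => by
      rw [Finset.filter_insert, Pi.single_apply]
      by_cases h : j c = i
      · rw [if_pos h, if_pos h.symm, Finset.card_insert_of_notMem (by simp [hc])]
        simp
      · rw [if_neg h, if_neg (Ne.symm h), add_zero]
    have h1 := congrArg (bucL p sg []) (hrel n fun i => by
      have : (0 : ℤ) ≤ (Pi.single (j c) (1 : ℤ) : ι → ℤ) i := by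
        rw [Pi.single_apply]
        split_ifs <;> simp
      have := hn i
      rw [hcard]
      omega)
    have h2 := congrArg (bucL p sg [decide (Even (n (j c)))]) (hrel (n + Pi.single (j c) 1)
      fun i => by rw [hcard]; exact add_le_add_left (hn i) _)
    have e1 : bucL p sg [] (if n = 0 then Finsupp.single [] 1 else 0) =
        if n = 0 then Finsupp.single [] 1 else 0 := by
      split_ifs
      · rw [bucL_single]
        simp [bucG]
      · exact map_zero _
    have e2 : ∀ s, bucL p sg [s] (if n + Pi.single (j c) 1 = 0 then Finsupp.single [] 1 else 0) =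
        0 := fun s => by
      split_ifs
      · rw [bucL_single]
        simp [bucG]
      · exact map_zero _
    have e3 : ∀ i, decide (Even ((n - Pi.single i 1 : ι → ℤ) (j c))) =
        φ i (decide (Even (n (j c)))) := fun i => by
      simp only [φ, Pi.sub_apply, Pi.single_apply]
      split_ifs
      · simp only [Int.even_sub_one, decide_not]
      · rw [sub_zero]
    rw [bucL_bd_nil, map_add, e1, map_sum] at h1
    rw [bucL_bd_one p sg _ _ fun l hl x hx y hy h h' => (hsupp _ l hl).2 x hx y hy
      ((of_decide_eq_true h).trans (of_decide_eq_true h').symm), map_add, e2, map_sum] at h2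
    simp only [map_add, hT, List.map_nil, List.map_cons, add_sub_right_comm, e3,
      Finset.sum_add_distrib] at h1 h2 ⊢
    generalize decide (Even (n (j c))) = s at h2 ⊢
    have h3 : ∑ i, bucL p sg [s] (a (n - Pi.single i 1 + Pi.single (j c) 1)) +
        ∑ i, bucL p sg [φ i s] (a (n - Pi.single i 1 + Pi.single (j c) 1)) =
        bucL p sg [true] (a n) + bucL p sg [false] (a n) := by
      rw [← Finset.sum_add_distrib, Finset.sum_eq_single (j c) (fun i _ hi => by
        simp only [φ, if_neg (Ne.symm hi), buc_two]) (by simp), sub_add_cancel]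
      cases s <;> simp [φ, add_comm]
    linear_combination (norm := abel) h1 + h2 + h3 -
      buc_two (∑ i, bucL p sg [φ i s] (a (n - Pi.single i 1 + Pi.single (j c) 1)))

end Vale.Agent.P173
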