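import Vale.Agent.P173.SDefs

/-! Combinatorics of the right-angled building. -/

namespace Vale.Agent.P173

section aux

variable {V : Type} (G : SimpleGraph V) {A : V → Type} [∀ v, AddCommGroup (A v)]

theorem bld_wprod_mem {H : Subgroup (GP G A)} {l : List (Σ v, A v)}
    (h : ∀ x ∈ l, gen G x.1 x.2 ∈ H) : wprod G l ∈ H := by
  refine H.list_prod_mem fun y hy => ?_
  obtain ⟨x, hx, rfl⟩ := List.mem_map.1 hy
  exact h x hx

theorem bld_par_ind {τ : Set V} {P : GP G A → Prop} (h0 : P 1)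
    (h1 : ∀ v ∈ τ, ∀ a, P (gen G v a)) (h2 : ∀ g h, g ∈ Par G A τ → P g → P h → P (g * h))
    {g : GP G A} (hg : g ∈ Par G A τ) : P g := by
  induction hg using Subgroup.closure_induction'' with
  | mem x hx => obtain ⟨v, hv, a, rfl⟩ := hx; exact h1 v hv a
  | inv_mem x hx => obtain ⟨v, hv, a, rfl⟩ := hx; rw [← gen_neg]; exact h1 v hv _
  | one => exact h0
  | mul x y hx _ h3 h4 => exact h2 x y hx h3 h4

theorem bld_sub_ind {B : ∀ v, AddSubgroup (A v)} {P : GP G A → Prop} (h0 : P 1)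
    (h1 : ∀ v, ∀ a ∈ B v, P (gen G v a)) (h2 : ∀ g h, P g → P h → P (g * h))
    {g : GP G A} (hg : g ∈ Sub G B) : P g := by
  induction hg using Subgroup.closure_induction'' with
  | mem x hx => obtain ⟨v, a, ha, rfl⟩ := hx; exact h1 v a ha
  | inv_mem x hx => obtain ⟨v, a, ha, rfl⟩ := hx; rw [← gen_neg]; exact h1 v _ (neg_mem ha)
  | one => exact h0
  | mul x y _ _ h3 h4 => exact h2 x y h3 h4

theorem bld_comm_St {v : V} {g : GP G A} (hg : g ∈ St G A v) (b : A v) :
    Commute g (gen G v b) := by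
  refine bld_par_ind G (P := fun g => Commute g (gen G v b)) (Commute.one_left _) ?_
    (fun _ _ _ => Commute.mul_left) hg
  rintro u (rfl | h) a
  · rw [Commute, SemiconjBy, ← gen_add, ← gen_add, add_comm]
  · exact gen_comm G h.symm a b

theorem bld_le_St {τ : Finset V} (hτ : Clq G τ) {v : V} (hv : v ∈ τ) :
    Par G A (τ : Set V) ≤ St G A v :=
  Par_mono G fun u hu => (eq_or_ne u v).imp_right fun h => hτ hv hu h.symm

theorem bld_comm_Par {τ : Finset V} (hτ : Clq G τ) {g h : GP G A} (hg : g ∈ Par G A (τ : Set V))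
    (hh : h ∈ Par G A (τ : Set V)) : Commute g h :=
  bld_par_ind G (P := fun h => Commute g h) (Commute.one_right _)
    (fun _ hv a => bld_comm_St G (bld_le_St G hτ hv hg) a) (fun _ _ _ => Commute.mul_right) hh

theorem bld_wall_mul (c : GP G A) {v : V} {h : GP G A} (hh : h ∈ St G A v) :
    wall G (c * h) v = wall G c v :=
  congrArg (Sigma.mk v) (QuotientGroup.mk_mul_of_mem c hh)

theorem bld_wall_eq {c c' : GP G A} {v : V} (h : wall G c v = wall G c' v) :
    c⁻¹ * c' ∈ St G A v :=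
  QuotientGroup.eq.1 (sigma_mk_injective (β := fun v => GP G A ⧸ St G A v) h)

theorem bld_app_wall (f : ∀ w : Wall G A, A w.1) (c : GP G A) {v : V} {h : GP G A}
    (hh : h ∈ St G A v) : f (wall G (c * h) v) = f (wall G c v) :=
  congrArg (β := A v) (fun q : GP G A ⧸ St G A v => f ⟨v, q⟩) (QuotientGroup.mk_mul_of_mem c hh)

theorem bld_St_cancel {v : V} {b : A v} {g : GP G A} (h : gen G v b * g ∈ St G A v) :
    g ∈ St G A v :=
  (Subgroup.mul_mem_cancel_left _
    (gen_mem_Par G (τ := {u | u = v ∨ G.Adj v u}) (Or.inl rfl) b)).1 h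

theorem bld_NN_Sub {B : ∀ v, AddSubgroup (A v)} {g : GP G A} (hg : g ∈ Sub G B) :
    ∀ c w, NN G c g w ∈ B w.1 := by
  refine bld_sub_ind G (P := fun g => ∀ c w, NN G c g w ∈ B w.1) (fun c w => ?_)
    (fun v a ha c w => ?_) (fun g h h1 h2 c w => ?_) hg
  · rw [NN_one]; exact zero_mem _
  · rw [NN_gen]
    by_cases h : w = ⟨v, c⟩
    · subst h; rwa [sgl_self]
    · rw [sgl_ne G v c a h]; exact zero_mem _
  · rw [NN_mul]; exact add_mem (h1 c w) (h2 _ w)

theorem bld_NN_snoc (g : GP G A) (v : V) (a : A v) :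
    NN G 1 (g * gen G v a) = NN G 1 g + sgl G v g a := by rw [NN_mul, NN_gen, one_mul]

theorem bld_split (l : List (Σ v, A v)) {w : Wall G A} (h : NN G 1 (wprod G l) w ≠ 0) :
    ∃ l₁ x l₂, l = l₁ ++ x :: l₂ ∧ w = wall G (wprod G l₁) x.1 := by
  induction l using List.reverseRecOn with
  | nil => simp at h
  | append_singleton l x ih =>
    by_cases h1 : w = wall G (wprod G l) x.1
    · exact ⟨l, x, [], rfl, h1⟩
    · rw [wprod_append, wprod_cons, wprod_nil, mul_one, bld_NN_snoc, Pi.add_apply,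
        sgl_ne G _ _ _ h1, add_zero] at h
      obtain ⟨l₁, y, l₂, rfl, h2⟩ := ih h
      exact ⟨l₁, y, l₂ ++ [x], by simp, h2⟩

theorem bld_finite (g : GP G A) : {w | NN G 1 g w ≠ 0}.Finite := by
  obtain ⟨l, rfl⟩ := exists_wprod G g
  induction l using List.reverseRecOn with
  | nil => simp
  | append_singleton l x ih =>
    refine (ih.insert (wall G (wprod G l) x.1)).subset fun w hw => ?_
    refine or_iff_not_imp_left.2 fun h1 => ?_
    rwa [Set.mem_ofPred_eq, wprod_append, wprod_cons, wprod_nil, mul_one, bld_NN_snoc,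
      Pi.add_apply, sgl_ne G _ _ _ h1, add_zero] at hw

/-- Words of minimal length. -/
def BldMin (l : List (Σ v, A v)) : Prop := ∀ l', wprod G l' = wprod G l → l.length ≤ l'.length

theorem bld_exists_min (g : GP G A) : ∃ l, wprod G l = g ∧ BldMin G l := by
  classical
  have h : ∃ n, ∃ l : List (Σ v, A v), wprod G l = g ∧ l.length = n :=
    (exists_wprod G g).elim fun l hl => ⟨_, l, hl, rfl⟩
  obtain ⟨l, h1, h2⟩ := Nat.find_spec h
  exact ⟨l, h1, fun l' h3 => h2 ▸ Nat.find_min' h ⟨l', h3.trans h1, rfl⟩⟩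

theorem bld_min_snoc {l : List (Σ v, A v)} {v : V} {a : A v} (h : BldMin G (l ++ [⟨v, a⟩])) :
    BldMin G l ∧ a ≠ 0 ∧ nv G (wprod G l) v = 0 := by
  refine ⟨fun l' h1 => ?_, fun h1 => ?_, by_contra fun h1 => ?_⟩
  · have h2 := h (l' ++ [⟨v, a⟩]) (by simp [h1])
    simp only [List.length_append] at h2
    omega
  · simpa using h l (by simp [h1])
  · obtain ⟨l₁, ⟨u, b⟩, l₂, rfl, h2⟩ := bld_split G l h1
    obtain rfl : v = u := congrArg Sigma.fst h2
    have h3 := bld_wall_eq G h2.symm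
    rw [wprod_append, inv_mul_cancel_left, wprod_cons] at h3
    have h4 := h (l₁ ++ l₂ ++ [⟨v, b + a⟩]) (by
      simp only [wprod_append, wprod_cons, wprod_nil, mul_one, gen_add, mul_assoc]
      rw [← mul_assoc (wprod G l₂), (bld_comm_St G (bld_St_cancel G h3) b).eq, mul_assoc])
    simp at h4

theorem bld_min_spec {l : List (Σ v, A v)} (h : BldMin G l) : len G (wprod G l) = l.length ∧
    ∀ x ∈ l, x.2 ≠ 0 ∧ ∃ q, NN G 1 (wprod G l) ⟨x.1, q⟩ = x.2 := by
  induction l using List.reverseRecOn with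
  | nil => simp [len]
  | append_singleton l x ih =>
    obtain ⟨v, a⟩ := x
    obtain ⟨h1, h2, h3⟩ := bld_min_snoc G h
    obtain ⟨h4, h5⟩ := ih h1
    have h6 : NN G 1 (wprod G l * gen G v a) (wall G (wprod G l) v) = a := by
      rw [bld_NN_snoc, Pi.add_apply, sgl_self, show NN G 1 _ _ = 0 from h3, zero_add]
    have h7 : ∀ w, w ≠ wall G (wprod G l) v →
        NN G 1 (wprod G l * gen G v a) w = NN G 1 (wprod G l) w := fun w hw => by
      rw [bld_NN_snoc, Pi.add_apply, sgl_ne G _ _ _ hw, add_zero]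
    rw [wprod_append, wprod_cons, wprod_nil, mul_one]
    refine ⟨?_, fun y hy => ?_⟩
    · have h8 : {w | NN G 1 (wprod G l * gen G v a) w ≠ 0} =
          insert (wall G (wprod G l) v) {w | NN G 1 (wprod G l) w ≠ 0} := by
        ext w
        by_cases hw : w = wall G (wprod G l) v
        · subst hw; simpa [h6] using h2
        · simp [hw, h7 w hw]
      have h9 : wall G (wprod G l) v ∉ {w | NN G 1 (wprod G l) w ≠ 0} := fun h => h h3
      rw [len, h8, Set.ncard_insert_of_notMem h9 (bld_finite G _), List.length_append, ← h4]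
      rfl
    · rcases List.mem_append.1 hy with hy | hy
      · obtain ⟨h8, q, h9⟩ := h5 y hy
        refine ⟨h8, q, (h7 _ fun h10 => h8 ?_).trans h9⟩
        rw [← h9]
        have h11 : ∀ w, w = wall G (wprod G l) v → NN G 1 (wprod G l) w = 0 := fun w hw => by
          subst hw; exact h3
        exact h11 _ h10
      · obtain rfl := List.mem_singleton.1 hy
        exact ⟨h2, _, h6⟩

theorem bld_len_le (l : List (Σ v, A v)) : len G (wprod G l) ≤ l.length := by
  obtain ⟨l', h1, h2⟩ := bld_exists_min G (wprod G l)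
  rw [← h1, (bld_min_spec G h2).1]
  exact h2 l h1.symm

theorem bld_retract (T : Set V) : ∃ R : GP G A →* GP G A, (∀ g ∈ Par G A T, R g = g) ∧
    (∀ u ∉ T, ∀ a, R (gen G u a) = 1) ∧
    ∀ l, ∃ l', wprod G l' = R (wprod G l) ∧ l'.length ≤ l.length := by
  classical
  let R : GP G A →* GP G A := lift G (fun w a => if w ∈ T then gen G w a else 1)
    (fun v a b => by split_ifs <;> simp [gen_add])
    (fun u v a b h => by split_ifs <;> simp [gen_comm G h])
  have h1 : ∀ u ∈ T, ∀ a, R (gen G u a) = gen G u a := fun u hu a => by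
    rw [lift_gen, if_pos hu]
  have h2 : ∀ u ∉ T, ∀ a, R (gen G u a) = 1 := fun u hu a => by rw [lift_gen, if_neg hu]
  refine ⟨R, fun g hg => bld_par_ind G (P := fun g => R g = g) (map_one R) h1
    (fun g h _ h3 h4 => by rw [map_mul, h3, h4]) hg, h2, fun l => ?_⟩
  induction l with
  | nil => exact ⟨[], (map_one R).symm, le_rfl⟩
  | cons x l ih =>
    obtain ⟨l', h3, h4⟩ := ih
    by_cases hx : x.1 ∈ T
    · exact ⟨x :: l', by rw [wprod_cons, wprod_cons, map_mul, h1 _ hx, h3], by simpa using h4⟩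
    · exact ⟨l', by rw [wprod_cons, map_mul, h2 _ hx, h3, one_mul], h4.trans (by simp)⟩

variable [DecidableEq V]

theorem bld_NN_Par {τ : Finset V} (hτ : Clq G τ) {h : GP G A} (hh : h ∈ Par G A (τ : Set V)) :
    ∀ c, (∀ v ∈ τ, NN G c h (wall G c v) = crd G h v) ∧
      ∀ w, (∀ v ∈ τ, w ≠ wall G c v) → NN G c h w = 0 := by
  refine bld_par_ind G (P := fun h => ∀ c, (∀ v ∈ τ, NN G c h (wall G c v) = crd G h v) ∧
      ∀ w, (∀ v ∈ τ, w ≠ wall G c v) → NN G c h w = 0) (fun c => by simp)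
    (fun u hu a c => ⟨fun v _ => ?_, fun w hw => ?_⟩)
    (fun g h hg h1 h2 c => ⟨fun v hv => ?_, fun w hw => ?_⟩) hh
  · rw [NN_gen, crd_gen]
    rcases eq_or_ne v u with rfl | h
    · rw [sgl_self, Pi.single_eq_same]
    · rw [sgl_ne G _ _ _ fun h1 => h (congrArg Sigma.fst h1), Pi.single_eq_of_ne h]
  · rw [NN_gen, sgl_ne G _ _ _ (hw u hu)]
  · rw [NN_mul, crd_mul, Pi.add_apply, Pi.add_apply, (h1 c).1 v hv, ← (h2 (c * g)).1 v hv,
      bld_app_wall G (NN G (c * g) h) c (bld_le_St G hτ hv hg)]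
  · rw [NN_mul, Pi.add_apply, (h1 c).2 w hw, (h2 (c * g)).2 w fun v hv => by
      rw [bld_wall_mul G c (bld_le_St G hτ hv hg)]; exact hw v hv, add_zero]

theorem bld_NN_wall {τ : Finset V} (hτ : Clq G τ) {h : GP G A} (hh : h ∈ Par G A (τ : Set V))
    (c : GP G A) {v : V} (hv : v ∈ τ) : NN G 1 (c * h) (wall G c v) = nv G c v + crd G h v := by
  rw [NN_mul, Pi.add_apply, one_mul, (bld_NN_Par G hτ hh c).1 v hv, nv]

theorem bld_nv_mul {τ : Finset V} (hτ : Clq G τ) {h : GP G A} (hh : h ∈ Par G A (τ : Set V))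
    (c : GP G A) {v : V} (hv : v ∈ τ) : nv G (c * h) v = nv G c v + crd G h v := by
  rw [← bld_NN_wall G hτ hh c hv, nv, bld_app_wall G (NN G 1 (c * h)) c (bld_le_St G hτ hv hh)]

theorem bld_len_lt {τ : Finset V} (hτ : Clq G τ) {h : GP G A} (hh : h ∈ Par G A (τ : Set V))
    {c : GP G A} (h0 : ∀ v ∈ τ, nv G c v + crd G h v = 0) {u : V} (hu : u ∈ τ)
    (h1 : nv G c u ≠ 0) : len G (c * h) < len G c := by
  refine Set.ncard_lt_ncard ⟨fun w hw => ?_, fun h2 => ?_⟩ (bld_finite G c)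
  · have h2 : ∀ v ∈ τ, w ≠ wall G c v := by
      rintro v hv rfl
      exact hw ((bld_NN_wall G hτ hh c hv).trans (h0 v hv))
    rwa [Set.mem_ofPred_eq, NN_mul, Pi.add_apply, one_mul, (bld_NN_Par G hτ hh c).2 w h2,
      add_zero] at hw
  · exact h2 (a := wall G c u) h1 ((bld_NN_wall G hτ hh c hu).trans (h0 u hu))

theorem bld_crd_list (x : ∀ v, A v) {L : List V} (hL : L.Nodup) (v : V) :
    crd G (wprod G (L.map fun v => ⟨v, x v⟩)) v = if v ∈ L then x v else 0 := by
  induction L with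
  | nil => simp
  | cons u L ih =>
    obtain ⟨h1, h2⟩ := List.nodup_cons.1 hL
    rw [List.map_cons, wprod_cons, crd_mul, crd_gen, Pi.add_apply, ih h2]
    rcases eq_or_ne v u with rfl | h
    · simp [h1]
    · simp [h]

theorem bld_single_list (v : V) (a : A v) {L : List V} (hL : L.Nodup) :
    wprod G (L.map fun u => ⟨u, Pi.single (M := A) v a u⟩) = if v ∈ L then gen G v a else 1 := by
  induction L with
  | nil => simp
  | cons u L ih =>
    obtain ⟨h1, h2⟩ := List.nodup_cons.1 hL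
    rw [List.map_cons, wprod_cons, ih h2]
    rcases eq_or_ne u v with rfl | h
    · simp [h1]
    · simp [h, h.symm]

omit [DecidableEq V] in
theorem bld_gen_mem {τ : Set V} {x : ∀ v, A v} (h : ∀ v, v ∉ τ → x v = 0) (v : V) :
    gen G v (x v) ∈ Par G A τ := by
  by_cases hv : v ∈ τ
  · exact gen_mem_Par G hv _
  · rw [h v hv, gen_zero]; exact one_mem _

omit [DecidableEq V] in
theorem bld_add_list {τ : Finset V} (hτ : Clq G τ) {x y : ∀ v, A v}
    (hx : ∀ v, v ∉ (τ : Set V) → x v = 0) (hy : ∀ v, v ∉ (τ : Set V) → y v = 0) (L : List V) :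
    wprod G (L.map fun v => ⟨v, (x + y) v⟩) =
      wprod G (L.map fun v => ⟨v, x v⟩) * wprod G (L.map fun v => ⟨v, y v⟩) := by
  induction L with
  | nil => simp
  | cons u L ih =>
    have h1 := bld_comm_Par G hτ (bld_gen_mem G hy u)
      (bld_wprod_mem G (l := L.map fun v => ⟨v, x v⟩) fun z hz => by
        obtain ⟨v, _, rfl⟩ := List.mem_map.1 hz
        exact bld_gen_mem G hx v)
    simp only [List.map_cons, wprod_cons, ih]
    rw [Pi.add_apply, gen_add, mul_assoc, ← mul_assoc (gen G u (y u)), h1.eq]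
    simp only [mul_assoc]

end aux

variable {V : Type} [Fintype V] [DecidableEq V] (G : SimpleGraph V) {A : V → Type}
  [∀ v, AddCommGroup (A v)]

theorem bld_mem_desc {g : GP G A} {v : V} : v ∈ Desc G g ↔ nv G g v ≠ 0 := by simp [Desc]

@[simp] theorem crd_sec (x : ∀ v, A v) : crd G (sec G x) = x := by
  funext v
  rw [sec, bld_crd_list G x (Finset.nodup_toList _), if_pos (by simp)]

theorem sec_mem_Sub {B : ∀ v, AddSubgroup (A v)} {x : ∀ v, A v} (h : ∀ v, x v ∈ B v) :
    sec G x ∈ Sub G B := by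
  refine bld_wprod_mem G fun z hz => ?_
  obtain ⟨v, _, rfl⟩ := List.mem_map.1 hz
  exact gen_mem_Sub G (h v)

theorem sec_mem_Par {τ : Set V} {x : ∀ v, A v} (h : ∀ v, v ∉ τ → x v = 0) :
    sec G x ∈ Par G A τ := by
  refine bld_wprod_mem G fun z hz => ?_
  obtain ⟨v, _, rfl⟩ := List.mem_map.1 hz
  exact bld_gen_mem G h v

theorem crd_of_mem_Par {τ : Set V} {g : GP G A} (h : g ∈ Par G A τ) {v : V} (hv : v ∉ τ) :
    crd G g v = 0 := by
  refine bld_par_ind G (P := fun g => crd G g v = 0) (by simp) (fun u hu a => ?_)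
    (fun g h _ h1 h2 => by simp [h1, h2]) h
  rw [crd_gen, Pi.single_eq_of_ne fun h1 : v = u => hv (h1 ▸ hu)]

theorem crd_of_mem_Sub {B : ∀ v, AddSubgroup (A v)} {g : GP G A} (h : g ∈ Sub G B) (v : V) :
    crd G g v ∈ B v := by
  refine bld_sub_ind G (P := fun g => crd G g v ∈ B v) (by simp) (fun u a ha => ?_)
    (fun g h h1 h2 => by rw [crd_mul]; exact add_mem h1 h2) h
  rw [crd_gen]
  rcases eq_or_ne v u with rfl | h1
  · rwa [Pi.single_eq_same]
  · rw [Pi.single_eq_of_ne h1]; exact zero_mem _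

theorem eq_sec_of_mem_Par {τ : Finset V} (hτ : Clq G τ) {g : GP G A}
    (h : g ∈ Par G A (τ : Set V)) : g = sec G (crd G g) := by
  refine (bld_par_ind G (P := fun g => g ∈ Par G A (τ : Set V) ∧ g = sec G (crd G g))
    ⟨one_mem _, ?_⟩ (fun v hv a => ⟨gen_mem_Par G hv a, ?_⟩)
    (fun g h _ h1 h2 => ⟨mul_mem h1.1 h2.1, ?_⟩) h).2
  · refine (Subgroup.mem_bot.1 (bld_wprod_mem G fun z hz => ?_)).symm
    obtain ⟨v, _, rfl⟩ := List.mem_map.1 hz
    simp
  · rw [crd_gen, sec, bld_single_list G v a (Finset.nodup_toList _), if_pos (by simp)]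
  · rw [crd_mul, sec, bld_add_list G hτ (fun _ => crd_of_mem_Par G h1.1)
      fun _ => crd_of_mem_Par G h2.1]
    exact congrArg₂ _ h1.2 h2.2

theorem eq_one_of_mem_Par {τ : Finset V} (hτ : Clq G τ) {g : GP G A}
    (h : g ∈ Par G A (τ : Set V)) (h0 : crd G g = 0) : g = 1 := by
  rw [eq_sec_of_mem_Par G hτ h, eq_sec_of_mem_Par G hτ (one_mem _), h0, crd_one]

theorem desc_one : Desc G (1 : GP G A) = ∅ := by
  simp [Desc, nv]

theorem clq_desc (g : GP G A) : Clq G (Desc G g) := by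
  intro v hv u hu hvu
  by_contra hadj
  have h1 := (bld_mem_desc G).1 hu
  have h2 := bld_len_lt G (τ := {u}) (by simp [Clq]) (gen_mem_Par G (by simp) (-nv G g u))
    (c := g) (by simp) (Finset.mem_singleton_self u) h1
  obtain ⟨l, h3, h4⟩ := bld_exists_min G (g * gen G u (-nv G g u))
  have h5 : NN G 1 (wprod G l) (wall G g v) ≠ 0 := by
    rw [h3, bld_NN_snoc, Pi.add_apply, sgl_ne G _ _ _ fun h => hvu (congrArg Sigma.fst h),
      add_zero]
    exact (bld_mem_desc G).1 hv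
  obtain ⟨l₁, ⟨v', b⟩, l₂, rfl, h6⟩ := bld_split G l h5
  obtain rfl : v = v' := congrArg Sigma.fst h6
  have h7 : g = wprod G l₁ * (gen G v b * (wprod G l₂ * gen G u (nv G g u))) := by
    rw [gen_neg, ← mul_inv_eq_iff_eq_mul, inv_inv] at h3
    simpa [mul_assoc] using h3.symm
  have h8 := bld_wall_eq G h6.symm
  rw [show (wprod G l₁)⁻¹ * g = _ from inv_mul_eq_iff_eq_mul.2 h7] at h8
  obtain ⟨R, h9, h10, h11⟩ := bld_retract G (A := A) {u | u = v ∨ G.Adj v u}
  obtain ⟨l', h12, h13⟩ := h11 l₂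
  have h14 := h9 _ (bld_St_cancel G h8)
  rw [map_mul, h10 u (fun h => h.elim (fun h => hvu h.symm) hadj), mul_one, ← h12] at h14
  have h15 := bld_len_le G (l₁ ++ ⟨v, b⟩ :: l')
  rw [wprod_append, wprod_cons, h14, ← h7] at h15
  rw [← h3, (bld_min_spec G h4).1] at h2
  simp only [List.length_append, List.length_cons] at h2 h15
  omega

theorem eq_one_of_desc {g : GP G A} (h : Desc G g = ∅) : g = 1 := by
  obtain ⟨l, rfl, h1⟩ := bld_exists_min G g
  induction l using List.reverseRecOn with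
  | nil => rfl
  | append_singleton l x _ =>
    obtain ⟨v, a⟩ := x
    obtain ⟨_, h2, h3⟩ := bld_min_snoc G h1
    refine absurd ((bld_mem_desc G).2 ?_) (h ▸ Finset.notMem_empty v)
    rw [wprod_append, wprod_cons, wprod_nil, mul_one, bld_nv_mul G (τ := {v}) (by simp [Clq])
      (gen_mem_Par G (by simp) a) _ (Finset.mem_singleton_self v), h3]
    simpa using h2

theorem bld_first_mem (c : GP G A) (τ : Finset V) :
    sec G (fun v => if v ∈ τ then -nv G c v else 0) ∈ Par G A (τ : Set V) :=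
  sec_mem_Par G fun _ hv => if_neg hv

theorem first_mem (c : GP G A) (τ : Finset V) : c⁻¹ * first G c τ ∈ Par G A (τ : Set V) := by
  rw [first, inv_mul_cancel_left]
  exact bld_first_mem G c τ

theorem first_disjoint (c : GP G A) {τ : Finset V} (hτ : Clq G τ) :
    Disjoint τ (Desc G (first G c τ)) := by
  refine Finset.disjoint_left.2 fun v hv h => (bld_mem_desc G).1 h ?_
  rw [first, bld_nv_mul G hτ (bld_first_mem G c τ) c hv, crd_sec, if_pos hv,
    add_neg_cancel]

theorem first_eq {c c' : GP G A} {τ : Finset V} (hτ : Clq G τ)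
    (h : c⁻¹ * c' ∈ Par G A (τ : Set V)) (hd : Disjoint τ (Desc G c')) : first G c τ = c' := by
  have h1 : (fun v => if v ∈ τ then -nv G c v else 0) = crd G (c⁻¹ * c') := by
    funext v
    split_ifs with hv
    · have h2 := bld_nv_mul G hτ h c hv
      rw [mul_inv_cancel_left, not_not.1 fun h3 =>
        Finset.disjoint_left.1 hd hv ((bld_mem_desc G).2 h3)] at h2
      exact neg_eq_of_add_eq_zero_right h2.symm
    · exact (crd_of_mem_Par G h hv).symm
  rw [first, h1, ← eq_sec_of_mem_Par G hτ h, mul_inv_cancel_left]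

theorem len_first_lt {c : GP G A} {τ : Finset V} (hτ : Clq G τ) (hd : ¬ Disjoint τ (Desc G c)) :
    len G (first G c τ) < len G c := by
  obtain ⟨u, hu, h⟩ := Finset.not_disjoint_iff.1 hd
  exact bld_len_lt G hτ (bld_first_mem G c τ)
    (fun v hv => by rw [crd_sec, if_pos hv, add_neg_cancel]) hu ((bld_mem_desc G).1 h)

theorem word_spec (g : GP G A) : wprod G (word G A g) = g ∧
    ∀ B : ∀ v, AddSubgroup (A v), g ∈ Sub G B → ∀ x ∈ word G A g, x.2 ∈ B x.1 := by
  have h : ∃ l, wprod G l = g ∧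
      ∀ B : ∀ v, AddSubgroup (A v), g ∈ Sub G B → ∀ x ∈ l, x.2 ∈ B x.1 := by
    obtain ⟨l, rfl, h1⟩ := bld_exists_min G g
    refine ⟨l, rfl, fun B hB x hx => ?_⟩
    obtain ⟨_, q, hq⟩ := (bld_min_spec G h1).2 x hx
    exact hq ▸ bld_NN_Sub G hB 1 ⟨x.1, q⟩
  rw [word, dif_pos h]
  exact h.choose_spec

end Vale.Agent.P173
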