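import Mathlib

/-! Abstract bounds for the projective dimension of the trivial module. -/

open CategoryTheory

namespace Vale.Agent.P173

section Perm

variable {K : Type} [Group K]

/-- The permutation representation on finitely supported functions. -/
noncomputable def cdabs_rep (K C : Type) [Group K] [MulAction K C] :
    Representation ℤ K (C →₀ ℤ) where
  toFun g := Finsupp.lmapDomain ℤ ℤ (g • ·)
  map_one' := by ext; simp
  map_mul' x y := by ext; simp [mul_smul]

/-- The permutation module. -/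
abbrev cdabs_M (K C : Type) [Group K] [MulAction K C] : Type := (cdabs_rep K C).asModule

/-- The basis vectors of the permutation module. -/
noncomputable def cdabs_e (K : Type) {C : Type} [Group K] [MulAction K C] (x : C) :
    cdabs_M K C := (cdabs_rep K C).asModuleEquiv.symm (Finsupp.single x 1)

variable {C : Type} [MulAction K C]

theorem cdabs_smul_e (g : K) (x : C) :
    MonoidAlgebra.single g (1 : ℤ) • cdabs_e K x = cdabs_e K (g • x) := by
  apply (cdabs_rep K C).asModuleEquiv.injective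
  rw [Representation.asModuleEquiv_map_smul, cdabs_e, cdabs_e, LinearEquiv.apply_symm_apply,
    LinearEquiv.apply_symm_apply, Representation.asAlgebraHom_single_one]
  exact Finsupp.mapDomain_single

theorem cdabs_ind {p : cdabs_M K C → Prop} (h0 : p 0) (h1 : ∀ x y, p x → p y → p (x + y))
    (h2 : ∀ (x : C) (n : ℤ), p (n • cdabs_e K x)) (z : cdabs_M K C) : p z := by
  obtain ⟨z, rfl⟩ := (cdabs_rep K C).asModuleEquiv.symm.surjective z
  induction z using Finsupp.induction_linear with
  | zero => rwa [map_zero]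
  | add x y hx hy => rw [map_add]; exact h1 _ _ hx hy
  | single x n =>
    have : (cdabs_rep K C).asModuleEquiv.symm (Finsupp.single x n) = n • cdabs_e K x := by
      rw [cdabs_e, ← map_zsmul]; simp
    rw [this]; exact h2 x n

/-- The additive map with given values on the basis vectors. -/
noncomputable def cdabs_add (K : Type) {C : Type} [Group K] [MulAction K C] {N : Type}
    [AddCommGroup N] (φ : C → N) : cdabs_M K C →+ N :=
  (Finsupp.linearCombination ℤ φ).toAddMonoidHom.comp
    (cdabs_rep K C).asModuleEquiv.toLinearMap.toAddMonoidHom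

theorem cdabs_add_e {N : Type} [AddCommGroup N] (φ : C → N) (x : C) :
    cdabs_add K φ (cdabs_e K x) = φ x := by
  simp [cdabs_add, cdabs_e]

theorem cdabs_add_ext {N : Type} [AddCommGroup N] {f f' : cdabs_M K C →+ N}
    (h : ∀ x, f (cdabs_e K x) = f' (cdabs_e K x)) (z : cdabs_M K C) : f z = f' z := by
  refine cdabs_ind (p := fun z => f z = f' z) (by simp) (fun x y hx hy => ?_) (fun x n => ?_) z
  · rw [map_add, map_add, hx, hy]
  · rw [map_zsmul, map_zsmul, h]

theorem cdabs_hom {N : Type} [AddCommGroup N] [Module (MonoidAlgebra ℤ K) N] (φ : C → N)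
    (hφ : ∀ (g : K) x, φ (g • x) = MonoidAlgebra.single g (1 : ℤ) • φ x) :
    ∃ f : cdabs_M K C →ₗ[MonoidAlgebra ℤ K] N, ∀ x, f (cdabs_e K x) = φ x := by
  have key : ∀ (r : MonoidAlgebra ℤ K) (z : cdabs_M K C),
      cdabs_add K φ (r • z) = r • cdabs_add K φ z := by
    intro r z
    induction r using MonoidAlgebra.induction_linear with
    | zero => simp
    | add x y hx hy => rw [add_smul, add_smul, map_add, hx, hy]
    | single g n =>
      have e : MonoidAlgebra.single g n = n • MonoidAlgebra.single g (1 : ℤ) := by simp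
      have h : cdabs_add K φ (MonoidAlgebra.single g (1 : ℤ) • z) =
          MonoidAlgebra.single g (1 : ℤ) • cdabs_add K φ z := by
        refine cdabs_add_ext (f := (cdabs_add K φ).comp (DistribSMul.toAddMonoidHom _
          (MonoidAlgebra.single g (1 : ℤ))))
          (f' := (DistribSMul.toAddMonoidHom _
          (MonoidAlgebra.single g (1 : ℤ))).comp (cdabs_add K φ)) (fun x => ?_) z
        simp only [AddMonoidHom.comp_apply, DistribSMul.toAddMonoidHom_apply]
        rw [cdabs_smul_e, cdabs_add_e, cdabs_add_e, hφ]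
      rw [e, smul_assoc, smul_assoc, map_zsmul, h]
  exact ⟨{ toFun := cdabs_add K φ, map_add' := map_add _, map_smul' := key }, cdabs_add_e φ⟩

theorem cdabs_proj (hf : ∀ (g : K) (x : C), g • x = x → g = 1) :
    Module.Projective (MonoidAlgebra ℤ K) (cdabs_M K C) := by
  refine Module.Projective.of_lifting_property'' fun f hs => ?_
  let r : C → C := fun x => (Quotient.mk (MulAction.orbitRel K C) x).out
  have hr : ∀ x, ∃ k : K, k • r x = x := fun x => by
    have : (MulAction.orbitRel K C).r x (r x) :=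
      Quotient.exact (Quotient.out_eq (Quotient.mk (MulAction.orbitRel K C) x)).symm
    exact this
  have hr' : ∀ (g : K) x, r (g • x) = r x := fun g x => by
    have : Quotient.mk (MulAction.orbitRel K C) (g • x) = Quotient.mk _ x :=
      Quotient.sound ⟨g, rfl⟩
    simp only [r, this]
  choose k hk using hr
  have hk' : ∀ (g : K) x, k (g • x) = g * k x := fun g x => by
    have h1 := hk (g • x)
    rw [hr'] at h1
    have h2 : ((g * k x)⁻¹ * k (g • x)) • r x = r x := by
      rw [mul_smul, h1, inv_smul_eq_iff, mul_smul, hk]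
    have h3 := hf _ _ h2
    rw [inv_mul_eq_one] at h3
    exact h3.symm
  choose u hu using hs
  obtain ⟨h, hh⟩ := cdabs_hom (K := K)
    (fun x : C => MonoidAlgebra.single (k x) (1 : ℤ) • u (cdabs_e K (r x))) (fun g x => by
      rw [hk', hr', smul_smul, MonoidAlgebra.single_mul_single, one_mul])
  refine ⟨h, LinearMap.ext fun z => ?_⟩
  refine cdabs_add_ext (f := (f.comp h).toAddMonoidHom) (f' := AddMonoidHom.id _) (fun x => ?_) z
  simp only [LinearMap.toAddMonoidHom_coe, LinearMap.comp_apply, AddMonoidHom.id_apply]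
  rw [hh, map_smul, hu, cdabs_smul_e, hk]

end Perm

theorem cdabs_step {R M N : Type} [Ring R] [AddCommGroup M] [Module R M] [AddCommGroup N]
    [Module R N] [Module.Projective R M] (f : M →ₗ[R] N) (hf : Function.Surjective f) (n : ℕ) :
    HasProjectiveDimensionLT (ModuleCat.of R N) (n + 2) ↔
      HasProjectiveDimensionLT (ModuleCat.of R (LinearMap.ker f)) (n + 1) :=
  (LinearMap.shortExact_shortComplexKer hf).hasProjectiveDimensionLT_X₃_iff n
    ((IsProjective.iff_projective M).1 inferInstance)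

theorem cdabs_two {R M₀ M₁ M₂ N : Type} [Ring R] [AddCommGroup M₀] [Module R M₀]
    [AddCommGroup M₁] [Module R M₁] [AddCommGroup M₂] [Module R M₂] [AddCommGroup N]
    [Module R N] [Module.Projective R M₀] [Module.Projective R M₁] [Module.Projective R M₂]
    (d₀ : M₀ →ₗ[R] N) (d₁ : M₁ →ₗ[R] M₀) (d₂ : M₂ →ₗ[R] M₁) (h₀ : Function.Surjective d₀)
    (h₁ : ∀ z, d₀ z = 0 ↔ z ∈ LinearMap.range d₁) (h₂ : ∀ z, d₁ z = 0 ↔ z ∈ LinearMap.range d₂)
    (h₃ : Function.Injective d₂) : HasProjectiveDimensionLE (ModuleCat.of R N) 2 := by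
  refine (cdabs_step d₀ h₀ 1).2 ?_
  let d₁' : M₁ →ₗ[R] LinearMap.ker d₀ :=
    d₁.codRestrict _ fun z => (h₁ _).2 (LinearMap.mem_range_self _ _)
  have s₁ : Function.Surjective d₁' := fun z => by
    obtain ⟨y, hy⟩ := (h₁ z.1).1 z.2
    exact ⟨y, Subtype.ext hy⟩
  refine (cdabs_step d₁' s₁ 0).2 ?_
  let d₂' : M₂ →ₗ[R] LinearMap.ker d₁' :=
    d₂.codRestrict _ fun z => Subtype.ext ((h₂ _).2 (LinearMap.mem_range_self _ _))
  have b₂ : Function.Bijective d₂' := by
    refine ⟨fun x y h => h₃ (congrArg Subtype.val h), fun z => ?_⟩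
    obtain ⟨y, hy⟩ := (h₂ z.1).1 (congrArg Subtype.val z.2)
    exact ⟨y, Subtype.ext hy⟩
  have : Module.Projective R (LinearMap.ker d₁') :=
    Module.Projective.of_equiv' (LinearEquiv.ofBijective d₂' b₂)
  exact projective_iff_hasProjectiveDimensionLT_one.1 ((IsProjective.iff_projective _).1 this)

theorem cdabs_triv {K : Type} [Group K] (g : K) (x : (Representation.trivial ℤ K ℤ).asModule) :
    MonoidAlgebra.single g (1 : ℤ) • x = x := by
  apply (Representation.trivial ℤ K ℤ).asModuleEquiv.injective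
  rw [Representation.asModuleEquiv_map_smul]
  simp

theorem pd_le_two {K C₀ C₁ C₂ : Type} [Group K] [MulAction K C₀] [MulAction K C₁]
    [MulAction K C₂] [Nonempty C₀]
    (f₀ : ∀ (g : K) (x : C₀), g • x = x → g = 1) (f₁ : ∀ (g : K) (x : C₁), g • x = x → g = 1)
    (f₂ : ∀ (g : K) (x : C₂), g • x = x → g = 1)
    (s t : C₁ → C₀) (a b c : C₂ → C₁)
    (hs : ∀ (g : K) e, s (g • e) = g • s e) (ht : ∀ (g : K) e, t (g • e) = g • t e)
    (ha : ∀ (g : K) f, a (g • f) = g • a f) (hb : ∀ (g : K) f, b (g • f) = g • b f)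
    (hc : ∀ (g : K) f, c (g • f) = g • c f)
    (h₁ : ∀ f, s (a f) = s (c f)) (h₂ : ∀ f, t (a f) = s (b f)) (h₃ : ∀ f, t (b f) = t (c f))
    (conn : ∀ {α : Type} (β : C₀ → α), (∀ e, β (s e) = β (t e)) → ∀ x y, β x = β y)
    (ex₁ : ∀ (A : Type) [AddCommGroup A] (φ : C₁ → A), (∀ f, φ (a f) + φ (b f) = φ (c f)) →
      ∃ β : C₀ → A, ∀ e, φ e = β (t e) - β (s e))
    (ex₂ : ∀ z : C₂ →₀ ℤ, z ≠ 0 → ∃ ψ : C₁ → ℤ,
      (z.sum fun f n => n * (ψ (a f) + ψ (b f) - ψ (c f))) ≠ 0) :
    HasProjectiveDimensionLE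
      (ModuleCat.of (MonoidAlgebra ℤ K) (Representation.trivial ℤ K ℤ).asModule) 2 := by
  have p₀ := cdabs_proj f₀
  have p₁ := cdabs_proj f₁
  have p₂ := cdabs_proj f₂
  obtain ⟨x₀⟩ := ‹Nonempty C₀›
  set T := Representation.trivial ℤ K ℤ with hT
  obtain ⟨d₀, e₀⟩ := cdabs_hom (K := K) (fun _ : C₀ => T.asModuleEquiv.symm 1)
    (fun g _ => (cdabs_triv g _).symm)
  obtain ⟨d₁, e₁⟩ := cdabs_hom (K := K) (fun e : C₁ => cdabs_e K (t e) - cdabs_e K (s e))
    (fun g e => by rw [smul_sub, cdabs_smul_e, cdabs_smul_e, hs, ht])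
  obtain ⟨d₂, e₂⟩ := cdabs_hom (K := K)
    (fun f : C₂ => cdabs_e K (a f) + cdabs_e K (b f) - cdabs_e K (c f))
    (fun g e => by rw [smul_sub, smul_add, cdabs_smul_e, cdabs_smul_e, cdabs_smul_e, ha, hb, hc])
  refine cdabs_two d₀ d₁ d₂ (fun y => ⟨T.asModuleEquiv y • cdabs_e K x₀, ?_⟩)
    (fun z => ⟨fun hz => ?_, ?_⟩) (fun z => ⟨fun hz => ?_, ?_⟩) ?_
  · rw [map_zsmul, e₀, ← map_zsmul]
    simp
  · have h := conn (fun x => (LinearMap.range d₁).mkQ (cdabs_e K x)) (fun e => by
      rw [eq_comm, ← sub_eq_zero, ← map_sub, ← e₁, Submodule.mkQ_apply,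
        Submodule.Quotient.mk_eq_zero]
      exact LinearMap.mem_range_self _ _)
    have h' := cdabs_add_ext (f := (LinearMap.range d₁).mkQ.toAddMonoidHom)
      (f' := ((zmultiplesHom _ ((LinearMap.range d₁).mkQ (cdabs_e K x₀))).comp
        T.asModuleEquiv.toLinearMap.toAddMonoidHom).comp d₀.toAddMonoidHom) (fun x => by
        simp only [LinearMap.toAddMonoidHom_coe, AddMonoidHom.comp_apply, e₀,
          LinearEquiv.coe_coe, LinearEquiv.apply_symm_apply, zmultiplesHom_apply, one_smul]
        exact h x x₀) z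
    simp only [LinearMap.toAddMonoidHom_coe, AddMonoidHom.comp_apply, hz, map_zero] at h'
    rwa [Submodule.mkQ_apply, Submodule.Quotient.mk_eq_zero] at h'
  · rintro ⟨y, rfl⟩
    refine cdabs_add_ext (f := (d₀.comp d₁).toAddMonoidHom) (f' := 0) (fun x => ?_) y
    simp only [LinearMap.toAddMonoidHom_coe, LinearMap.comp_apply, e₁, map_sub, e₀, sub_self,
      AddMonoidHom.zero_apply]
  · obtain ⟨β, hβ⟩ := ex₁ _ (fun e => (LinearMap.range d₂).mkQ (cdabs_e K e)) (fun f => by
      rw [← sub_eq_zero, ← map_add, ← map_sub, ← e₂, Submodule.mkQ_apply,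
        Submodule.Quotient.mk_eq_zero]
      exact LinearMap.mem_range_self _ _)
    have h' := cdabs_add_ext (f := (LinearMap.range d₂).mkQ.toAddMonoidHom)
      (f' := (cdabs_add K β).comp d₁.toAddMonoidHom) (fun x => by
        simp only [LinearMap.toAddMonoidHom_coe, AddMonoidHom.comp_apply, e₁, map_sub,
          cdabs_add_e]
        exact hβ x) z
    simp only [LinearMap.toAddMonoidHom_coe, AddMonoidHom.comp_apply, hz, map_zero] at h'
    rwa [Submodule.mkQ_apply, Submodule.Quotient.mk_eq_zero] at h'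
  · rintro ⟨y, rfl⟩
    refine cdabs_add_ext (f := (d₁.comp d₂).toAddMonoidHom) (f' := 0) (fun x => ?_) y
    simp only [LinearMap.toAddMonoidHom_coe, LinearMap.comp_apply, e₂, map_sub, map_add, e₁,
      AddMonoidHom.zero_apply, h₁, h₂, h₃]
    abel
  · refine (injective_iff_map_eq_zero d₂).2 fun z hz => ?_
    by_contra hne
    obtain ⟨ψ, hψ⟩ := ex₂ ((cdabs_rep K C₂).asModuleEquiv z) (by simpa using hne)
    have h' := cdabs_add_ext (f := cdabs_add K fun f => ψ (a f) + ψ (b f) - ψ (c f))
      (f' := (cdabs_add K ψ).comp d₂.toAddMonoidHom) (fun x => by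
        simp only [LinearMap.toAddMonoidHom_coe, AddMonoidHom.comp_apply, e₂, map_sub, map_add,
          cdabs_add_e]) z
    simp only [LinearMap.toAddMonoidHom_coe, AddMonoidHom.comp_apply, hz, map_zero] at h'
    exact hψ h'

theorem cdabs_fix {X : Type} (T : X → X) (hT : Function.Injective T)
    (hn : ∀ (n : ℕ) x, T^[n] x = x → n = 0) (z : X →₀ ℤ) (hz : Finsupp.mapDomain T z = z) :
    z = 0 := by
  ext x
  by_contra hx
  have h1 : ∀ y, z (T y) = z y := fun y => by
    conv_lhs => rw [← hz]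
    exact Finsupp.mapDomain_apply hT _ _
  have h2 : ∀ n : ℕ, z (T^[n] x) = z x := fun n => by
    induction n with
    | zero => rfl
    | succ n ih => rw [Function.iterate_succ_apply', h1, ih]
  have h3 : ∀ m n : ℕ, m ≤ n → T^[m] x = T^[n] x → m = n := fun m n hmn e => by
    obtain ⟨k, rfl⟩ := Nat.exists_eq_add_of_le hmn
    rw [Function.iterate_add_apply] at e
    rw [hn k x (hT.iterate m e).symm, add_zero]
  have h4 : Function.Injective fun n : ℕ => T^[n] x := fun m n e => by
    rcases le_total m n with h | h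
    · exact h3 m n h e
    · exact (h3 n m h e.symm).symm
  exact Set.infinite_of_injective_forall_mem h4 (s := (z.support : Set X))
    (fun n => by simpa [h2] using hx) z.support.finite_toSet

theorem cdabs_map {K X : Type} [Group K] (g : K) (p : K → X) (T : X → X)
    (h : ∀ k, p (g * k) = T (p k)) (y : MonoidAlgebra ℤ K) :
    Finsupp.mapDomain p (MonoidAlgebra.single g 1 * y).coeff =
      Finsupp.mapDomain T (Finsupp.mapDomain p y.coeff) := by
  induction y using MonoidAlgebra.induction_linear with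
  | zero => simp
  | add x y hx hy => simp only [mul_add, MonoidAlgebra.coeff_add, Finsupp.mapDomain_add, hx, hy]
  | single k n => simp [MonoidAlgebra.single_mul_single, h]

theorem cdabs_div {K : Type} [Group K] (a b : K) (hab : Commute a b)
    (h : ∀ m n : ℤ, a ^ m = b ^ n → m = 0 ∧ n = 0) (α β : MonoidAlgebra ℤ K)
    (e : (MonoidAlgebra.single a 1 - 1) * β = (MonoidAlgebra.single b 1 - 1) * α) :
    ∃ γ, α = (MonoidAlgebra.single a 1 - 1) * γ := by
  let S : Setoid K := QuotientGroup.rightRel (Subgroup.zpowers a)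
  have hS : ∀ x y : K, Quotient.mk S x = Quotient.mk S y ↔ ∃ m : ℤ, a ^ m * x = y := fun x y => by
    rw [Quotient.eq]
    refine QuotientGroup.rightRel_apply.trans ?_
    rw [Subgroup.mem_zpowers_iff]
    exact exists_congr fun m => eq_mul_inv_iff_mul_eq
  have hc : ∀ (m : ℤ) (n : ℕ) (x : K), a ^ m * (b ^ n * x) = b ^ n * (a ^ m * x) := fun m n x => by
    rw [← mul_assoc, ← mul_assoc, ((hab.zpow_left m).pow_right n).eq]
  let T : Quotient S → Quotient S := Quotient.lift (fun x => Quotient.mk S (b * x)) fun x y hxy => by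
    obtain ⟨m, rfl⟩ := (hS x y).1 (Quotient.sound hxy)
    exact (hS _ _).2 ⟨m, by simpa using hc m 1 x⟩
  have hT : ∀ (n : ℕ) x, T^[n] (Quotient.mk S x) = Quotient.mk S (b ^ n * x) := fun n x => by
    induction n with
    | zero => simp
    | succ n ih => rw [Function.iterate_succ_apply', ih, pow_succ', mul_assoc]; rfl
  have h0 : Finsupp.mapDomain (Quotient.mk S) α.coeff = 0 := by
    refine cdabs_fix T (fun x y => ?_) (fun n x => ?_) _ ?_
    · induction x using Quotient.inductionOn with | h x => ?_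
      induction y using Quotient.inductionOn with | h y => ?_
      intro hxy
      obtain ⟨m, hm⟩ := (hS (b * x) (b * y)).1 hxy
      have := hc m 1 x
      rw [pow_one, hm] at this
      exact (hS _ _).2 ⟨m, (mul_left_cancel this).symm⟩
    · induction x using Quotient.inductionOn with | h x => ?_
      rw [hT, eq_comm, hS]
      rintro ⟨m, hm⟩
      have := (h m n (by rw [zpow_natCast]; exact mul_right_cancel hm)).2
      exact_mod_cast this
    · have e1 := cdabs_map b (Quotient.mk S) T (fun _ => rfl) α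
      have e2 := cdabs_map a (Quotient.mk S) id
        (fun k => ((hS _ _).2 ⟨1, by rw [zpow_one]⟩).symm) β
      have e3 := congrArg (fun y => Finsupp.mapDomain (Quotient.mk S) (MonoidAlgebra.coeff y)) e
      simp only [sub_mul, one_mul, MonoidAlgebra.coeff_sub, Finsupp.mapDomain_sub, e1, e2,
        Finsupp.mapDomain_id, sub_self] at e3
      exact (sub_eq_zero.1 e3.symm)
  have h1 : ∀ m : ℤ, ∃ γ : MonoidAlgebra ℤ K,
      MonoidAlgebra.single (a ^ m) 1 - 1 = (MonoidAlgebra.single a 1 - 1) * γ := fun m => by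
    induction m using Int.induction_on with
    | zero => exact ⟨0, by simp [MonoidAlgebra.one_def]⟩
    | succ m ih =>
      obtain ⟨γ, hγ⟩ := ih
      refine ⟨γ + MonoidAlgebra.single (a ^ (m : ℤ)) 1, ?_⟩
      rw [mul_add, ← hγ, sub_mul, one_mul, MonoidAlgebra.single_mul_single, one_mul, add_comm (m : ℤ),
        zpow_add, zpow_one]
      abel
    | pred m ih =>
      obtain ⟨γ, hγ⟩ := ih
      refine ⟨γ - MonoidAlgebra.single (a ^ (-(m : ℤ) - 1)) 1, ?_⟩
      rw [mul_sub, ← hγ, sub_mul, one_mul, MonoidAlgebra.single_mul_single, one_mul,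
        ← zpow_one_add, add_sub_cancel]
      abel
  have h2 : ∀ y : MonoidAlgebra ℤ K, ∃ γ, y - MonoidAlgebra.ofCoeff (Finsupp.mapDomain Quotient.out
      (Finsupp.mapDomain (Quotient.mk S) y.coeff)) = (MonoidAlgebra.single a 1 - 1) * γ := by
    intro y
    induction y using MonoidAlgebra.induction_linear with
    | zero => exact ⟨0, by simp⟩
    | add x y hx hy =>
      obtain ⟨γ, hγ⟩ := hx
      obtain ⟨γ', hγ'⟩ := hy
      refine ⟨γ + γ', ?_⟩
      rw [mul_add, ← hγ, ← hγ', MonoidAlgebra.coeff_add, Finsupp.mapDomain_add,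
        Finsupp.mapDomain_add, MonoidAlgebra.ofCoeff_add]
      abel
    | single k n =>
      obtain ⟨m, hm⟩ := (hS _ _).1 (Quotient.out_eq (Quotient.mk S k))
      obtain ⟨γ, hγ⟩ := h1 m
      refine ⟨γ * MonoidAlgebra.single (Quotient.mk S k).out n, ?_⟩
      rw [← mul_assoc, ← hγ, sub_mul, one_mul, MonoidAlgebra.single_mul_single, one_mul, hm]
      simp
  obtain ⟨γ, hγ⟩ := h2 α
  exact ⟨γ, by simpa [h0] using hγ⟩

theorem not_pd_le_one {K : Type} [Group K] (a b : K) (hab : Commute a b)
    (h : ∀ m n : ℤ, a ^ m = b ^ n → m = 0 ∧ n = 0) :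
    ¬ HasProjectiveDimensionLE
      (ModuleCat.of (MonoidAlgebra ℤ K) (Representation.trivial ℤ K ℤ).asModule) 1 := by
  intro hp
  set T := Representation.trivial ℤ K ℤ with hT
  let d : MonoidAlgebra ℤ K →ₗ[MonoidAlgebra ℤ K] T.asModule :=
    LinearMap.toSpanSingleton _ _ (T.asModuleEquiv.symm 1)
  have hd1 : d 1 = T.asModuleEquiv.symm 1 := LinearMap.toSpanSingleton_apply_one _ _ _
  have hd : Function.Surjective d := fun y => ⟨T.asModuleEquiv y • 1, by
    rw [map_zsmul, hd1, ← map_zsmul]
    simp⟩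
  have hI : Module.Projective (MonoidAlgebra ℤ K) (LinearMap.ker d) :=
    (IsProjective.iff_projective _).2
      (projective_iff_hasProjectiveDimensionLT_one.2 ((cdabs_step d hd 0).1 hp))
  obtain ⟨s, hs⟩ := Module.projective_def.1 hI
  have hm : ∀ g : K, MonoidAlgebra.single g (1 : ℤ) - 1 ∈ LinearMap.ker d := fun g => by
    rw [LinearMap.mem_ker, map_sub, hd1, sub_eq_zero]
    exact cdabs_triv g _
  let A : LinearMap.ker d := ⟨_, hm a⟩
  let B : LinearMap.ker d := ⟨_, hm b⟩
  have e : (MonoidAlgebra.single a (1 : ℤ) - 1) • B = (MonoidAlgebra.single b (1 : ℤ) - 1) • A := by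
    refine Subtype.ext ?_
    simp only [A, B, Submodule.coe_smul, smul_eq_mul, sub_mul, mul_sub, one_mul, mul_one,
      MonoidAlgebra.single_mul_single, hab.eq]
    abel
  have e1 : ∀ x, ∃ γ, s A x = (MonoidAlgebra.single a 1 - 1) * γ := fun x => by
    refine cdabs_div a b hab h _ (s B x) ?_
    have := congrArg (fun y => s y x) e
    simpa only [map_smul, Finsupp.smul_apply, smul_eq_mul] using this
  choose γ hγ using e1
  let ι : LinearMap.ker d := ∑ x ∈ (s A).support, γ x • x
  have e2 : A = (MonoidAlgebra.single a (1 : ℤ) - 1) • ι := by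
    conv_lhs => rw [← hs A]
    rw [Finsupp.linearCombination_apply, Finsupp.sum, Finset.smul_sum]
    refine Finset.sum_congr rfl fun x _ => ?_
    rw [hγ, mul_smul, id]
  have e3 : MonoidAlgebra.single a (1 : ℤ) * (1 - ι.1) = 1 - ι.1 := by
    have := congrArg Subtype.val e2
    simp only [A, Submodule.coe_smul, smul_eq_mul, sub_mul, one_mul] at this
    rw [mul_sub, mul_one, sub_eq_sub_iff_sub_eq_sub]
    exact this
  have e4 : (1 - ι.1).coeff = 0 := by
    refine cdabs_fix (fun k => a * k) (mul_right_injective a) (fun n x hx => ?_) _ ?_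
    · rw [mul_left_iterate, mul_eq_right] at hx
      have := (h n 0 (by rw [zpow_natCast, zpow_zero]; exact hx)).1
      exact_mod_cast this
    · have := cdabs_map a id (fun k => a * k) (fun _ => rfl) (1 - ι.1)
      rw [e3, Finsupp.mapDomain_id] at this
      exact this.symm
  rw [MonoidAlgebra.coeff_eq_zero, sub_eq_zero] at e4
  have e5 : d 1 = 0 := by rw [e4]; exact ι.2
  rw [hd1] at e5
  simp at e5

end Vale.Agent.P173
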