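import Vale.Agent.P173.Defs

/-! The poset of cliques meeting a given clique is contractible. -/

namespace Vale.Agent.P173

variable {V : Type} [DecidableEq V] {G : SimpleGraph V}

theorem zig_inter {τ σ : Finset V} (h : ¬ Disjoint τ σ) : ¬ Disjoint (τ ∩ σ) σ := by
  obtain ⟨x, h1, h2⟩ := Finset.not_disjoint_iff.mp h
  exact Finset.not_disjoint_iff.mpr ⟨x, Finset.mem_inter.mpr ⟨h1, h2⟩, h2⟩

omit [DecidableEq V] in
theorem zig_mono {τ τ' σ : Finset V} (h : ¬ Disjoint τ σ) (hs : τ ⊆ τ') : ¬ Disjoint τ' σ := by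
  obtain ⟨x, h1, h2⟩ := Finset.not_disjoint_iff.mp h
  exact Finset.not_disjoint_iff.mpr ⟨x, hs h1, h2⟩

omit [DecidableEq V] in
theorem zig_ne {τ σ : Finset V} (h : ¬ Disjoint τ σ) : τ.Nonempty := by
  obtain ⟨x, h1, -⟩ := Finset.not_disjoint_iff.mp h
  exact ⟨x, h1⟩

theorem zig_conn {α : Type*} {σ : Finset V} (hσ : Clq G σ) (β : Finset V → α)
    (h : ∀ τ τ', ¬ Disjoint τ σ → τ ⊂ τ' → Clq G τ' → β τ = β τ') :
    ∀ τ, ¬ Disjoint τ σ → Clq G τ → β τ = β σ := by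
  have h' : ∀ τ τ', ¬ Disjoint τ σ → τ ⊆ τ' → Clq G τ' → β τ = β τ' := by
    intro τ τ' h1 h2 h3
    rcases h2.eq_or_ssubset with rfl | h2
    · rfl
    · exact h τ τ' h1 h2 h3
  intro τ h1 h2
  rw [← h' _ τ (zig_inter h1) Finset.inter_subset_left h2,
    h' _ σ (zig_inter h1) Finset.inter_subset_right hσ]

/-- The extension of `φ` to the diagonal. -/
def zigExt {H : Type*} [Group H] (φ : Finset V → Finset V → H) (a b : Finset V) : H :=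
  if a = b then 1 else φ a b

theorem zigExt_self {H : Type*} [Group H] (φ : Finset V → Finset V → H) (a : Finset V) :
    zigExt φ a a = 1 := if_pos rfl

theorem zigExt_ne {H : Type*} [Group H] (φ : Finset V → Finset V → H) {a b : Finset V}
    (h : a ⊂ b) : zigExt φ a b = φ a b := if_neg h.ne

theorem zigExt_mul {H : Type*} [Group H] (φ : Finset V → Finset V → H) {a b c : Finset V}
    (hφ : Tri G a b c → φ a b * φ b c = φ a c) (h1 : a ⊆ b) (h2 : b ⊆ c) (hc : Clq G c) :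
    zigExt φ a b * zigExt φ b c = zigExt φ a c := by
  rcases h1.eq_or_ssubset with rfl | h1
  · rw [zigExt_self, one_mul]
  rcases h2.eq_or_ssubset with rfl | h2
  · rw [zigExt_self, mul_one]
  rw [zigExt_ne φ h1, zigExt_ne φ h2, zigExt_ne φ (h1.trans h2), hφ ⟨h1, h2, hc⟩]

theorem zig {H : Type*} [Group H] {σ : Finset V} (hσ : Clq G σ) (φ : Finset V → Finset V → H)
    (hφ : ∀ τ₀ τ₁ τ₂, ¬ Disjoint τ₀ σ → Tri G τ₀ τ₁ τ₂ → φ τ₀ τ₁ * φ τ₁ τ₂ = φ τ₀ τ₂) :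
    ∃ u : Finset V → H, ∀ τ τ', ¬ Disjoint τ σ → τ ⊂ τ' → Clq G τ' → φ τ τ' = (u τ)⁻¹ * u τ' := by
  refine ⟨fun t => (zigExt φ (t ∩ σ) σ)⁻¹ * zigExt φ (t ∩ σ) t, fun τ τ' h1 h2 h3 => ?_⟩
  have hs : τ ∩ σ ⊆ τ' ∩ σ := Finset.inter_subset_inter_right h2.subset
  have e1 := zigExt_mul φ (hφ _ _ _ (zig_inter h1)) hs Finset.inter_subset_right hσ
  have e2 := zigExt_mul φ (hφ _ _ _ (zig_inter h1)) hs Finset.inter_subset_left h3
  have e3 := zigExt_mul φ (hφ _ _ _ (zig_inter h1)) Finset.inter_subset_left h2.subset h3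
  rw [zigExt_ne φ h2, ← e2] at e3
  simp only
  rw [← e1, eq_inv_mul_of_mul_eq e3]
  group

/-- If `u` is compatible with `φ` on the pairs `τ ∩ σ ⊂ τ` and `τ ⊂ σ`, it is a potential. -/
theorem zig_pot {H : Type*} [Group H] {σ : Finset V} (hσ : Clq G σ) (φ : Finset V → Finset V → H)
    (hφ : ∀ τ₀ τ₁ τ₂, ¬ Disjoint τ₀ σ → Tri G τ₀ τ₁ τ₂ → φ τ₀ τ₁ * φ τ₁ τ₂ = φ τ₀ τ₂)
    (u : Finset V → H)
    (h2 : ∀ τ, ¬ Disjoint τ σ → τ ∩ σ ⊂ τ → Clq G τ → u (τ ∩ σ) * φ (τ ∩ σ) τ = u τ)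
    (h3 : ∀ τ, τ.Nonempty → τ ⊂ σ → u τ * φ τ σ = u σ) :
    ∀ τ τ', ¬ Disjoint τ σ → τ ⊂ τ' → Clq G τ' → u τ * φ τ τ' = u τ' := by
  have h2' : ∀ τ, ¬ Disjoint τ σ → Clq G τ → u (τ ∩ σ) * zigExt φ (τ ∩ σ) τ = u τ := by
    intro τ h hc
    rcases (Finset.inter_subset_left (s₁ := τ) (s₂ := σ)).eq_or_ssubset with e | e
    · rw [e, zigExt_self, mul_one]
    · rw [zigExt_ne φ e, h2 τ h e hc]
  have h3' : ∀ τ, τ.Nonempty → τ ⊆ σ → u τ * zigExt φ τ σ = u σ := by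
    intro τ h hs
    rcases hs.eq_or_ssubset with e | e
    · rw [e, zigExt_self, mul_one]
    · rw [zigExt_ne φ e, h3 τ h e]
  intro τ τ' h1 hs hc
  have hs' : τ ∩ σ ⊆ τ' ∩ σ := Finset.inter_subset_inter_right hs.subset
  have h1' := zig_mono h1 hs.subset
  have e1 := zigExt_mul φ (hφ _ _ _ (zig_inter h1)) hs' Finset.inter_subset_right hσ
  have e2 := zigExt_mul φ (hφ _ _ _ (zig_inter h1)) hs' Finset.inter_subset_left hc
  have e3 := zigExt_mul φ (hφ _ _ _ (zig_inter h1)) Finset.inter_subset_left hs.subset hc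
  have e4 : u (τ ∩ σ) * zigExt φ (τ ∩ σ) (τ' ∩ σ) = u (τ' ∩ σ) := by
    apply mul_right_cancel (b := zigExt φ (τ' ∩ σ) σ)
    rw [mul_assoc, e1, h3' _ (zig_ne (zig_inter h1)) Finset.inter_subset_right,
      h3' _ (zig_ne (zig_inter h1')) Finset.inter_subset_right]
  rw [← h2' τ h1 (hc.mono hs.subset), ← h2' τ' h1' hc, ← zigExt_ne φ hs, mul_assoc, e3, ← e2,
    ← mul_assoc, e4]

theorem rel_h2 (hG : Good G) {σ : Finset V} (hσ : Clq G σ) {σ₀ σ₁ σ₂ : Finset V}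
    (h0 : σ₀.Nonempty) (ht : Tri G σ₀ σ₁ σ₂) (hd : Disjoint σ₀ σ) :
    ∃ ψ : Finset V → Finset V → ℤ,
      (∀ τ τ', ¬ Disjoint τ σ → τ ⊂ τ' → Clq G τ' → ψ τ τ' = 0) ∧
      ∀ τ₀ τ₁ τ₂, τ₀.Nonempty → Tri G τ₀ τ₁ τ₂ →
        ψ τ₀ τ₁ + ψ τ₁ τ₂ - ψ τ₀ τ₂ = if τ₀ = σ₀ ∧ τ₁ = σ₁ ∧ τ₂ = σ₂ then 1 else 0 := by
  obtain ⟨ψ, hψ⟩ := hG.h2 σ₀ σ₁ σ₂ h0 ht
  obtain ⟨u, hu⟩ := zig hσ (fun a b => Multiplicative.ofAdd (ψ a b)) (fun a b c h1 h2 => by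
    have := hψ a b c (zig_ne h1) h2
    rw [if_neg (by rintro ⟨rfl, -⟩; exact h1 hd)] at this
    rw [← ofAdd_add]
    congr 1
    linarith)
  refine ⟨fun a b => ψ a b - ((u b).toAdd - (u a).toAdd), fun a b h1 h2 h3 => ?_,
    fun a b c h1 h2 => ?_⟩
  · have := congrArg Multiplicative.toAdd (hu a b h1 h2 h3)
    simp only [toAdd_ofAdd, toAdd_mul, toAdd_inv] at this
    simp only
    linarith
  · rw [← hψ a b c h1 h2]
    ring

end Vale.Agent.P173
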