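import Vale.Agent.P173.Build
import Vale.Agent.P173.Zig
import Vale.Agent.P173.CdAbs

/-! The cartesian subgroup has cohomological dimension two. -/

open CategoryTheory
open scoped commutatorElement

namespace Vale.Agent.P173

variable {V : Type} [Fintype V] [DecidableEq V] {G : SimpleGraph V} {A : V → Type}
  [∀ v, AddCommGroup (A v)]

namespace CdUp

variable (G A) in
/-- Faces (or flags of faces) indexed by `I`, with smallest type `bt i`. -/
def Fc {I : Type} (bt : I → Finset V) : Type := Σ i : I, GP G A ⧸ Par G A (bt i : Set V)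

section

variable {I J : Type} {bt : I → Finset V} {bt' : J → Finset V}

instance : MulAction (KK G A) (Fc G A bt) :=
  inferInstanceAs (MulAction (KK G A) (Σ i : I, GP G A ⧸ Par G A (bt i : Set V)))

variable (bt) in
/-- The face of index `i` of the chamber `c`. -/
def fc (i : I) (c : GP G A) : Fc G A bt := ⟨i, (c : GP G A ⧸ Par G A (bt i : Set V))⟩

/-- Maps between faces. -/
def mp (f : I → J) (h : ∀ i, bt i ⊆ bt' (f i)) (x : Fc G A bt) : Fc G A bt' :=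
  ⟨f x.1, Subgroup.quotientMapOfLE (Par_mono G (Finset.coe_subset.2 (h x.1))) x.2⟩

omit [Fintype V] [DecidableEq V] in
theorem ex_fc (x : Fc G A bt) : ∃ i c, x = fc bt i c := by
  obtain ⟨i, q⟩ := x
  obtain ⟨c, rfl⟩ := QuotientGroup.mk_surjective q
  exact ⟨i, c, rfl⟩

omit [Fintype V] [DecidableEq V] in
theorem mp_fc (f : I → J) (h : ∀ i, bt i ⊆ bt' (f i)) (i : I) (c : GP G A) :
    mp f h (fc bt i c) = fc bt' (f i) c :=
  congrArg (Sigma.mk (f i)) (Subgroup.quotientMapOfLE_apply_mk _ c)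

omit [Fintype V] in
theorem smul_fc (g : KK G A) (i : I) (c : GP G A) : g • fc bt i c = fc bt i ((g : GP G A) * c) :=
  congrArg (Sigma.mk i) (MulAction.Quotient.smul_mk _ (g : GP G A) c)

omit [Fintype V] in
theorem mp_smul (f : I → J) (h : ∀ i, bt i ⊆ bt' (f i)) (g : KK G A) (x : Fc G A bt) :
    mp f h (g • x) = g • mp f h x := by
  obtain ⟨i, c, rfl⟩ := ex_fc x
  rw [smul_fc, mp_fc, mp_fc, smul_fc]

omit [Fintype V] [DecidableEq V] in
theorem fc_mul (i : I) (c : GP G A) {h : GP G A} (hh : h ∈ Par G A (bt i : Set V)) :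
    fc bt i (c * h) = fc bt i c :=
  congrArg (Sigma.mk i) (QuotientGroup.mk_mul_of_mem c hh)

omit [Fintype V] [DecidableEq V] in
theorem out_fc (i : I) (c : GP G A) :
    ∃ h ∈ Par G A (bt i : Set V), (fc bt i c).2.out = c * h := by
  obtain ⟨h, e⟩ := QuotientGroup.mk_out_eq_mul (Par G A (bt i : Set V)) c
  exact ⟨h, h.2, e⟩

theorem free (hb : ∀ i, Clq G (bt i)) (g : KK G A) (x : Fc G A bt) (h : g • x = x) : g = 1 := by
  obtain ⟨i, c, rfl⟩ := ex_fc x
  have h1 : ((g * c : GP G A) : GP G A ⧸ Par G A (bt i : Set V)) = c :=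
    eq_of_heq (Sigma.mk.inj h).2
  have h2 := eq_one_of_mem_Par G (hb i) (QuotientGroup.eq.1 h1.symm) (by
    rw [crd_mul, crd_mul, crd_inv, (mem_KK G).1 g.2, zero_add, neg_add_cancel])
  rw [inv_mul_eq_one, right_eq_mul] at h2
  exact Subtype.ext h2

/-- The first chamber of a face. -/
noncomputable def fst (x : Fc G A bt) : GP G A := first G x.2.out (bt x.1)

theorem fst_fc {i : I} (hb : Clq G (bt i)) (c : GP G A) : fst (fc bt i c) = first G c (bt i) := by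
  obtain ⟨h, hh, e⟩ := out_fc (bt := bt) i c
  refine first_eq G hb ?_ (first_disjoint G c hb)
  rw [e, mul_inv_rev, mul_assoc]
  exact Subgroup.mul_mem _ (Subgroup.inv_mem _ hh) (first_mem G c _)

theorem ex_fc' (hb : ∀ i, Clq G (bt i)) (x : Fc G A bt) :
    x = fc bt x.1 (fst x) ∧ Disjoint (bt x.1) (Desc G (fst x)) := by
  refine ⟨?_, first_disjoint G _ (hb _)⟩
  obtain ⟨i, c, rfl⟩ := ex_fc x
  rw [fst_fc (hb i), ← mul_inv_cancel_left c (first G c (bt i))]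
  exact (fc_mul i c (first_mem G c _)).symm

end

variable (G) in
abbrev I0 : Type := {τ : Finset V // τ.Nonempty ∧ Clq G τ}
variable (G) in
abbrev I1 : Type := {p : Finset V × Finset V // Pr G p.1 p.2}
variable (G) in
abbrev I2 : Type := {p : Finset V × Finset V × Finset V // p.1.Nonempty ∧ Tri G p.1 p.2.1 p.2.2}

abbrev b0 (i : I0 G) : Finset V := i.1
abbrev b1 (i : I1 G) : Finset V := i.1.1
abbrev b2 (i : I2 G) : Finset V := i.1.1

def iS (i : I1 G) : I0 G := ⟨i.1.1, i.2.1, i.2.2.2.mono i.2.2.1.subset⟩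
def iT (i : I1 G) : I0 G := ⟨i.1.2, i.2.1.mono i.2.2.1.subset, i.2.2.2⟩
def iA (i : I2 G) : I1 G :=
  ⟨(i.1.1, i.1.2.1), i.2.1, i.2.2.1, i.2.2.2.2.mono i.2.2.2.1.subset⟩
def iB (i : I2 G) : I1 G := ⟨(i.1.2.1, i.1.2.2), i.2.1.mono i.2.2.1.subset, i.2.2.2.1, i.2.2.2.2⟩
def iC (i : I2 G) : I1 G := ⟨(i.1.1, i.1.2.2), i.2.1, i.2.2.1.trans i.2.2.2.1, i.2.2.2.2⟩

def mS : Fc G A (b1 (G := G)) → Fc G A (b0 (G := G)) := mp iS fun _ => subset_rfl
def mT : Fc G A (b1 (G := G)) → Fc G A (b0 (G := G)) := mp iT fun i => i.2.2.1.subset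
def mA : Fc G A (b2 (G := G)) → Fc G A (b1 (G := G)) := mp iA fun _ => subset_rfl
def mB : Fc G A (b2 (G := G)) → Fc G A (b1 (G := G)) := mp iB fun i => i.2.2.1.subset
def mC : Fc G A (b2 (G := G)) → Fc G A (b1 (G := G)) := mp iC fun _ => subset_rfl

section

omit [Fintype V] [DecidableEq V]

theorem mS_fc (i : I1 G) (c : GP G A) : mS (fc b1 i c) = fc b0 (iS i) c := mp_fc _ _ i c
theorem mT_fc (i : I1 G) (c : GP G A) : mT (fc b1 i c) = fc b0 (iT i) c := mp_fc _ _ i c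
theorem mA_fc (i : I2 G) (c : GP G A) : mA (fc b2 i c) = fc b1 (iA i) c := mp_fc _ _ i c
theorem mB_fc (i : I2 G) (c : GP G A) : mB (fc b2 i c) = fc b1 (iB i) c := mp_fc _ _ i c
theorem mC_fc (i : I2 G) (c : GP G A) : mC (fc b2 i c) = fc b1 (iC i) c := mp_fc _ _ i c

end

omit [Fintype V] [DecidableEq V] in
theorem face_rel (f : Fc G A (b2 (G := G))) :
    mS (mA f) = mS (mC f) ∧ mT (mA f) = mS (mB f) ∧ mT (mB f) = mT (mC f) := by
  obtain ⟨i, c, rfl⟩ := ex_fc f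
  have h1 : iS (iA i) = iS (iC i) := rfl
  have h2 : iT (iA i) = iS (iB i) := rfl
  have h3 : iT (iB i) = iT (iC i) := rfl
  rw [mA_fc, mB_fc, mC_fc, mS_fc, mS_fc, mS_fc, mT_fc, mT_fc, mT_fc, h1, h2, h3]
  exact ⟨rfl, rfl, rfl⟩

omit [Fintype V] [DecidableEq V] in
theorem clq_single (v : V) : Clq G {v} := by
  simp [Clq]

omit [Fintype V] in
theorem conn (hG : Good G) {α : Type} (β : Fc G A (b0 (G := G)) → α)
    (h : ∀ e, β (mS e) = β (mT e)) (x y : Fc G A (b0 (G := G))) : β x = β y := by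
  classical
  have h1 : ∀ (c : GP G A) (i j : I0 G), β (fc b0 i c) = β (fc b0 j c) := fun c i j => by
    have := hG.conn (fun τ => if h : τ.Nonempty ∧ Clq G τ then some (β (fc b0 ⟨τ, h⟩ c)) else none)
      (fun τ τ' hp => by
        rw [dif_pos (show τ.Nonempty ∧ Clq G τ from (iS ⟨(τ, τ'), hp⟩).2),
          dif_pos (show τ'.Nonempty ∧ Clq G τ' from (iT ⟨(τ, τ'), hp⟩).2)]
        exact congrArg some (h (fc b1 ⟨(τ, τ'), hp⟩ c))) i.1 j.1 i.2.1 i.2.2 j.2.1 j.2.2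
    rw [dif_pos i.2, dif_pos j.2] at this
    exact Option.some.inj this
  have h2 : ∀ (l : List (Σ v, A v)) (c : GP G A) (i : I0 G),
      β (fc b0 i (c * wprod G l)) = β (fc b0 i c) := fun l => by
    induction l with
    | nil => intro c i; rw [wprod_nil, mul_one]
    | cons x l ih =>
      intro c i
      rw [wprod_cons, ← mul_assoc, ih, h1 _ i ⟨{x.1}, Finset.singleton_nonempty _, clq_single _⟩,
        fc_mul (bt := b0) ⟨{x.1}, Finset.singleton_nonempty _, clq_single _⟩ c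
          (gen_mem_Par G (Finset.mem_coe.2 (Finset.mem_singleton_self _)) _), h1 _ _ i]
  obtain ⟨i, c, rfl⟩ := ex_fc x
  obtain ⟨j, c', rfl⟩ := ex_fc y
  obtain ⟨l, hl⟩ := exists_wprod G (c⁻¹ * c')
  rw [h1 c i j, ← h2 l c j, hl, mul_inv_cancel_left]

omit [Fintype V] in
theorem ex1 (hG : Good G) (M : Type) [AddCommGroup M] (φ : Fc G A (b1 (G := G)) → M)
    (h : ∀ f, φ (mA f) + φ (mB f) = φ (mC f)) :
    ∃ β : Fc G A (b0 (G := G)) → M, ∀ e, φ e = β (mT e) - β (mS e) := by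
  classical
  have h1 : ∀ c : GP G A, ∃ u : Finset V → M, ∀ i : I1 G, φ (fc b1 i c) = u i.1.2 - u i.1.1 := by
    intro c
    obtain ⟨u, hu⟩ := hG.h1 M (fun τ τ' => if h : Pr G τ τ' then φ (fc b1 ⟨(τ, τ'), h⟩ c) else 0)
      fun τ₀ τ₁ τ₂ h0 ht => by
        rw [dif_pos (show Pr G τ₀ τ₁ from (iA ⟨(τ₀, τ₁, τ₂), h0, ht⟩).2),
          dif_pos (show Pr G τ₁ τ₂ from (iB ⟨(τ₀, τ₁, τ₂), h0, ht⟩).2),
          dif_pos (show Pr G τ₀ τ₂ from (iC ⟨(τ₀, τ₁, τ₂), h0, ht⟩).2)]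
        exact h (fc b2 ⟨(τ₀, τ₁, τ₂), h0, ht⟩ c)
    exact ⟨u, fun i => by rw [← hu _ _ i.2, dif_pos i.2]⟩
  choose u hu using h1
  have h2 : ∀ (c : GP G A) (τ : Finset V) (v : V) (a : A v), Clq G τ → v ∈ τ →
      u c {v} - u (c * gen G v a) {v} = u c τ - u (c * gen G v a) τ := fun c τ v a hτ hv => by
    rcases (Finset.singleton_subset_iff.2 hv).eq_or_ssubset with e | e
    · rw [e]
    · have e1 := hu c ⟨({v}, τ), Finset.singleton_nonempty v, e, hτ⟩
      have e2 := hu (c * gen G v a) ⟨({v}, τ), Finset.singleton_nonempty v, e, hτ⟩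
      rw [fc_mul (bt := b1) ⟨({v}, τ), Finset.singleton_nonempty v, e, hτ⟩ c
        (gen_mem_Par G (Finset.mem_coe.2 (Finset.mem_singleton_self _)) _), e1] at e2
      rw [sub_eq_sub_iff_sub_eq_sub, ← neg_sub, e2, neg_sub]
  let Θ : GP G A →* Wr (GP G A) (Multiplicative M) := lift G
    (fun v a => ⟨fun c => Multiplicative.ofAdd (u c {v} - u (c * gen G v a) {v}), gen G v a⟩)
    (fun v a b => Wr.ext (funext fun c => by
      rw [Wr.mul_fn, ← ofAdd_add, sub_add_sub_cancel, gen_add, mul_assoc]) (gen_add G v a b))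
    fun v w a b hvw => Wr.ext (funext fun c => by
      have hc : Clq G {v, w} := by
        rw [Clq, Finset.coe_pair]
        exact SimpleGraph.isClique_pair.2 fun _ => hvw
      rw [Wr.mul_fn, Wr.mul_fn, ← ofAdd_add, ← ofAdd_add, h2 _ _ v a hc (by simp),
        h2 _ _ w b hc (by simp), h2 _ _ w b hc (by simp), h2 _ _ v a hc (by simp),
        sub_add_sub_cancel, sub_add_sub_cancel, mul_assoc, mul_assoc, gen_comm G hvw])
      (gen_comm G hvw a b)
  have hel : ∀ g, (Θ g).el = g := fun g =>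
    DFunLike.congr_fun (hom_ext G (f := Wr.elHom.comp Θ) (g := MonoidHom.id _) fun v a => by
      simp [Θ, Wr.elHom]) g
  have h3 : ∀ τ, Clq G τ → ∀ g ∈ Par G A (τ : Set V), ∀ c,
      Multiplicative.toAdd ((Θ g).fn c) = u c τ - u (c * g) τ := fun τ hτ g hg => by
    induction hg using Subgroup.closure_induction with
    | mem x hx =>
      obtain ⟨v, hv, a, rfl⟩ := hx
      intro c
      rw [← h2 c τ v a hτ hv, lift_gen]
      rfl
    | one => simp
    | mul x y _ _ hx hy =>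
      intro c
      rw [map_mul, Wr.mul_fn, toAdd_mul, hx, hy, hel, sub_add_sub_cancel, mul_assoc]
    | inv x _ hx =>
      intro c
      rw [map_inv, Wr.inv_fn, toAdd_inv, hx, hel, neg_sub, inv_mul_cancel_right]
  have h4 : ∀ (i : I0 G) (c : GP G A), u (fc b0 i c).2.out i.1 +
      Multiplicative.toAdd ((Θ (fc b0 i c).2.out).fn 1) =
        u c i.1 + Multiplicative.toAdd ((Θ c).fn 1) := fun i c => by
    obtain ⟨g, hg, e⟩ := out_fc (bt := b0) i c
    rw [e, map_mul, Wr.mul_fn, toAdd_mul, h3 _ i.2.2 g hg, hel, one_mul]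
    abel
  refine ⟨fun x => u x.2.out x.1.1 + Multiplicative.toAdd ((Θ x.2.out).fn 1), fun e => ?_⟩
  obtain ⟨i, c, rfl⟩ := ex_fc e
  rw [hu]
  exact ((congrArg₂ (· - ·) (h4 (iT i) c) (h4 (iS i) c)).trans (add_sub_add_right_eq_sub _ _ _)).symm

theorem ex2 (hG : Good G) (z : Fc G A (b2 (G := G)) →₀ ℤ) (hz : z ≠ 0) :
    ∃ ψ : Fc G A (b1 (G := G)) → ℤ,
      (z.sum fun f n => n * (ψ (mA f) + ψ (mB f) - ψ (mC f))) ≠ 0 := by
  classical
  have hb : ∀ i : I2 G, Clq G (b2 i) := fun i => (iS (iA i)).2.2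
  obtain ⟨f₀, h0, hmax⟩ := z.support.exists_max_image (fun f => len G (fst f))
    (Finsupp.support_nonempty_iff.2 hz)
  obtain ⟨ψ, h1, h2⟩ := rel_h2 hG (clq_desc G (fst f₀)) f₀.1.2.1 f₀.1.2.2 (ex_fc' hb f₀).2
  refine ⟨fun e => if fst e = fst f₀ then ψ e.1.1.1 e.1.1.2 else 0, ?_⟩
  rw [Finsupp.sum, Finset.sum_congr rfl (g := fun f => if f = f₀ then z f else 0),
    Finset.sum_ite_eq', if_pos h0]
  · exact Finsupp.mem_support_iff.1 h0
  intro f hf
  obtain ⟨e, hd⟩ := ex_fc' hb f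
  have hl := hmax f hf
  generalize fst f = c at e hd hl
  generalize f.1 = i at e hd
  subst e
  have hc : first G c i.1.1 = c := first_eq G (hb i) (by simp) hd
  have hA : fst (mA (fc b2 i c)) = c := (fst_fc (bt := b1) (iS (iA i)).2.2 c).trans hc
  have hC : fst (mC (fc b2 i c)) = c := (fst_fc (bt := b1) (iS (iC i)).2.2 c).trans hc
  have hB : fst (mB (fc b2 i c)) = first G c i.1.2.1 := fst_fc (bt := b1) (iS (iB i)).2.2 c
  have hB' : Disjoint i.1.2.1 (Desc G c) → first G c i.1.2.1 = c :=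
    first_eq G (iS (iB i)).2.2 (by simp)
  change z (fc b2 i c) * ((if fst (mA (fc b2 i c)) = fst f₀ then ψ i.1.1 i.1.2.1 else 0) +
    (if fst (mB (fc b2 i c)) = fst f₀ then ψ i.1.2.1 i.1.2.2 else 0) -
    (if fst (mC (fc b2 i c)) = fst f₀ then ψ i.1.1 i.1.2.2 else 0)) = _
  rw [hA, hB, hC]
  by_cases hc0 : c = fst f₀
  · have h3 : (if first G c i.1.2.1 = fst f₀ then ψ i.1.2.1 i.1.2.2 else 0) =
        ψ i.1.2.1 i.1.2.2 := by
      split_ifs with h4
      · rfl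
      · exact (h1 _ _ (fun h5 => h4 ((hB' (hc0 ▸ h5)).trans hc0)) i.2.2.2.1 i.2.2.2.2).symm
    rw [if_pos hc0, if_pos hc0, h3, h2 _ _ _ i.2.1 i.2.2]
    by_cases h4 : fc b2 i c = f₀
    · rw [if_pos h4, if_pos (by rw [← h4]; exact ⟨rfl, rfl, rfl⟩), mul_one]
    · rw [if_neg h4, if_neg fun h5 => h4 ?_, mul_zero]
      rw [(ex_fc' hb f₀).1, ← hc0, show i = f₀.1 from Subtype.ext (Prod.ext h5.1 (Prod.ext h5.2.1 h5.2.2))]
  · rw [if_neg hc0, if_neg hc0, if_neg fun h4 => ?_, if_neg fun h4 => hc0 ?_]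
    · simp
    · rw [← h4, fst_fc (hb i), hc]
    · by_cases h5 : Disjoint i.1.2.1 (Desc G c)
      · exact hc0 ((hB' h5).symm.trans h4)
      · exact (len_first_lt G (iS (iB i)).2.2 h5).not_ge (h4 ▸ hl)

omit [Fintype V] in
theorem ex_rho (χ : ∀ v, A v →+ ZMod 2) {u₁ u₂ : V} (hne : u₁ ≠ u₂) (hadj : ¬ G.Adj u₁ u₂) :
    ∃ ρ : GP G A →* DihedralGroup 0, (∀ x, χ u₁ x = 1 → ρ (gen G u₁ x) = DihedralGroup.sr 0) ∧
      (∀ x, χ u₂ x = 1 → ρ (gen G u₂ x) = DihedralGroup.sr 1) ∧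
      ∀ v x, v ≠ u₁ → v ≠ u₂ → ρ (gen G v x) = 1 := by
  let s : V → DihedralGroup 0 := fun v =>
    if v = u₁ then DihedralGroup.sr 0 else if v = u₂ then DihedralGroup.sr 1 else 1
  have hs : ∀ v, s v ^ 2 = 1 := fun v => by
    simp only [s]
    split_ifs <;> simp [sq]
  have h0 : ∀ v, v ≠ u₁ → v ≠ u₂ → s v = 1 := fun v h1 h2 => by simp [s, h1, h2]
  refine ⟨lift G (fun v x => s v ^ (χ v x).val) (fun v x y => ?_) fun v w x y h => ?_,
    fun x hx => ?_, fun x hx => ?_, fun v x h1 h2 => ?_⟩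
  · rw [map_add, ZMod.val_add, ← pow_eq_pow_mod _ (hs v), pow_add]
  · by_cases hv : v ≠ u₁ ∧ v ≠ u₂
    · rw [h0 v hv.1 hv.2, one_pow, one_mul, mul_one]
    · by_cases hw : w ≠ u₁ ∧ w ≠ u₂
      · rw [h0 w hw.1 hw.2, one_pow, one_mul, mul_one]
      · rw [not_and_or, not_not, not_not] at hv hw
        rcases hv with rfl | rfl <;> rcases hw with rfl | rfl
        · exact absurd h G.irrefl
        · exact absurd h hadj
        · exact absurd h.symm hadj
        · exact absurd h G.irrefl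
  · rw [lift_gen, hx, ZMod.val_one, pow_one]
    exact if_pos rfl
  · rw [lift_gen, hx, ZMod.val_one, pow_one]
    exact (if_neg hne.symm).trans (if_pos rfl)
  · rw [lift_gen, h0 v h1 h2, one_pow]

omit [Fintype V] in
theorem zero_of_eq (χ : ∀ v, A v →+ ZMod 2) (x : ∀ v, A v) (hx : ∀ v, χ v (x v) = 1)
    {u₁ u₂ v₁ v₂ : V} (hne : u₁ ≠ u₂) (hadj : ¬ G.Adj u₁ u₂) (h1 : v₁ ≠ u₁) (h2 : v₁ ≠ u₂)
    {m n : ℤ} (h : ⁅gen G u₁ (x u₁), gen G u₂ (x u₂)⁆ ^ m =
      ⁅gen G v₁ (x v₁), gen G v₂ (x v₂)⁆ ^ n) : m = 0 := by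
  obtain ⟨ρ, r1, r2, r3⟩ := ex_rho χ hne hadj
  have h3 := congrArg ρ h
  rw [map_zpow, map_zpow, map_commutatorElement, map_commutatorElement, r1 _ (hx _), r2 _ (hx _),
    r3 v₁ _ h1 h2, commutatorElement_one_left, one_zpow, commutatorElement_def,
    DihedralGroup.inv_sr, DihedralGroup.inv_sr, mul_assoc, DihedralGroup.sr_mul_sr,
    DihedralGroup.r_mul_r, DihedralGroup.r_zpow, DihedralGroup.one_def] at h3
  have h4 : ((1 : ℤ) - 0 + (1 - 0)) * m = 0 := DihedralGroup.r.inj h3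
  omega

end CdUp

open CdUp in
theorem cd_le (hG : Good G) : HasProjectiveDimensionLE
    (ModuleCat.of (MonoidAlgebra ℤ (KK G A)) (Representation.trivial ℤ (KK G A) ℤ).asModule) 2 := by
  obtain ⟨v, -⟩ := hG.sq
  have : Nonempty (Fc G A (b0 (G := G))) :=
    ⟨fc b0 ⟨{v}, Finset.singleton_nonempty _, clq_single _⟩ 1⟩
  exact pd_le_two (free fun i => i.2.2) (free fun i => (iS i).2.2) (free fun i => (iS (iA i)).2.2)
    mS mT mA mB mC (mp_smul _ _) (mp_smul _ _) (mp_smul _ _) (mp_smul _ _) (mp_smul _ _)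
    (fun f => (face_rel f).1) (fun f => (face_rel f).2.1) (fun f => (face_rel f).2.2) (conn hG)
    (ex1 hG) (ex2 hG)

theorem exists_Z2 (hG : Good G) (hA : ∀ v, ∃ (χ : A v →+ ZMod 2) (a : A v), χ a = 1) :
    ∃ a b : KK G A, Commute a b ∧ ∀ m n : ℤ, a ^ m = b ^ n → m = 0 ∧ n = 0 := by
  choose χ x hx using hA
  obtain ⟨u₁, u₂, v₁, v₂, hu, hu', hv, hv', h11, h12, h21, h22⟩ := hG.sq
  have hK : ∀ g h : GP G A, ⁅g, h⁆ ∈ KK G A := fun g h => by
    rw [mem_KK, commutatorElement_def, crd_mul, crd_mul, crd_mul, crd_inv, crd_inv]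
    abel
  have hc : ∀ {u : V}, G.Adj u v₁ → G.Adj u v₂ →
      Commute (gen G u (x u)) ⁅gen G v₁ (x v₁), gen G v₂ (x v₂)⁆ := fun h1 h2 => by
    have c1 : Commute _ _ := gen_comm G h1 (x _) (x v₁)
    have c2 : Commute _ _ := gen_comm G h2 (x _) (x v₂)
    exact ((c1.mul_right c2).mul_right c1.inv_right).mul_right c2.inv_right
  refine ⟨⟨_, hK (gen G u₁ (x u₁)) (gen G u₂ (x u₂))⟩, ⟨_, hK (gen G v₁ (x v₁)) (gen G v₂ (x v₂))⟩,
    Subtype.ext ?_, fun m n h => ?_⟩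
  · exact (((hc h11 h12).mul_left (hc h21 h22)).mul_left (hc h11 h12).inv_left).mul_left
      (hc h21 h22).inv_left
  · have h' := congrArg Subtype.val h
    exact ⟨CdUp.zero_of_eq χ x hx hu hu' h11.ne' h21.ne' h',
      CdUp.zero_of_eq χ x hx hv hv' h11.ne h12.ne h'.symm⟩

theorem cd_eq (hG : Good G) (hA : ∀ v, ∃ (χ : A v →+ ZMod 2) (a : A v), χ a = 1) :
    projectiveDimension
      (ModuleCat.of (MonoidAlgebra ℤ (KK G A)) (Representation.trivial ℤ (KK G A) ℤ).asModule)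
      = 2 := by
  obtain ⟨a, b, hab, h⟩ := exists_Z2 hG hA
  apply le_antisymm
  · exact (projectiveDimension_le_iff _ 2).2 (cd_le hG)
  · exact (projectiveDimension_ge_iff _ 2).2 (not_pd_le_one a b hab h)

end Vale.Agent.P173
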