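import Mathlib

/-! Closure under countably many functions and Kuratowski free sets. -/

universe u

open Cardinal

namespace Vale.Agent.P173

theorem fs_union_le {Ω ι : Type u} (f : ι → Set Ω) {κ : Cardinal.{u}} (hκ : ℵ₀ ≤ κ)
    (hι : Cardinal.mk ι ≤ κ) (hf : ∀ i, Cardinal.mk (f i) ≤ κ) : Cardinal.mk (⋃ i, f i) ≤ κ :=
  (mk_iUnion_le f).trans ((mul_le_mul' hι (ciSup_le' hf)).trans (mul_eq_self hκ).le)

theorem fs_union_lt {Ω : Type u} {ι : Type} (t : Finset ι) (f : ι → Set Ω) {κ : Cardinal.{u}}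
    (hκ : ℵ₀ ≤ κ) (hf : ∀ i, Cardinal.mk (f i) < κ) : Cardinal.mk (⋃ i ∈ t, f i) < κ := by
  classical
  induction t using Finset.induction_on with
  | empty => simpa using aleph0_pos.trans_le hκ
  | insert a t _ ih =>
    rw [Finset.set_biUnion_insert]
    exact (mk_union_le _ _).trans_lt (add_lt_of_lt hκ (hf a) ih)

open Classical in
/-- One step of the closure. -/
def fs_step {Ω : Type u} (Φ : Finset Ω → Set Ω) (A : Set Ω) : Set Ω :=
  A ∪ ⋃ l : List A, Φ (l.map Subtype.val).toFinset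

theorem fs_step_sub {Ω : Type u} (Φ : Finset Ω → Set Ω) {A : Set Ω} {T : Finset Ω}
    (h : (T : Set Ω) ⊆ A) : Φ T ⊆ fs_step Φ A := by
  classical
  refine Set.subset_union_of_subset_right (Set.subset_iUnion_of_subset
    (T.attach.toList.map fun x => ⟨x.1, h x.2⟩) (le_of_eq (congrArg Φ ?_))) _
  ext x
  simp

theorem fs_step_le {Ω : Type u} {Φ : Finset Ω → Set Ω} (hΦ : ∀ T, (Φ T).Countable) {A : Set Ω}
    {κ : Cardinal.{u}} (hκ : ℵ₀ ≤ κ) (h : Cardinal.mk A ≤ κ) : Cardinal.mk (fs_step Φ A) ≤ κ :=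
  (mk_union_le _ _).trans (add_le_of_le hκ h (fs_union_le _ hκ
    ((mk_list_le_max _).trans (max_le hκ h)) fun _ => (hΦ _).le_aleph0.trans hκ))

theorem closure_exists {Ω : Type u} (Φ : Finset Ω → Set Ω) (hΦ : ∀ T, (Φ T).Countable)
    (S : Set Ω) : ∃ M : Set Ω, S ⊆ M ∧ (∀ T : Finset Ω, (T : Set Ω) ⊆ M → Φ T ⊆ M) ∧
      Cardinal.mk M ≤ max (Cardinal.mk S) ℵ₀ := by
  let f : ULift.{u} ℕ → Set Ω := fun n => (fs_step Φ)^[n.down] S
  have hmono : Monotone fun n : ℕ => (fs_step Φ)^[n] S :=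
    monotone_nat_of_le_succ fun n => by
      rw [Function.iterate_succ_apply']
      exact Set.subset_union_left
  refine ⟨⋃ n, f n, Set.subset_iUnion f ⟨0⟩, fun T hT => ?_,
    fs_union_le f (le_max_right _ _) (by simp) fun ⟨n⟩ => ?_⟩
  · have hd : Directed (· ⊆ ·) f := fun a b =>
      ⟨⟨max a.down b.down⟩, hmono (le_max_left _ _), hmono (le_max_right _ _)⟩
    obtain ⟨n, hn⟩ := hd.exists_mem_subset_of_finset_subset_biUnion hT
    refine Set.subset_iUnion_of_subset ⟨n.down + 1⟩ ?_
    change Φ T ⊆ (fs_step Φ)^[n.down + 1] S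
    rw [Function.iterate_succ_apply']
    exact fs_step_sub Φ hn
  · change Cardinal.mk ((fs_step Φ)^[n] S) ≤ _
    induction n with
    | zero => exact le_max_left _ _
    | succ n ih =>
      rw [Function.iterate_succ_apply']
      exact fs_step_le hΦ (le_max_right _ _) ih

theorem free_set {Ω : Type u} {k : ℕ} (Φ : Finset Ω → Set Ω) (hΦ : ∀ T, (Φ T).Countable)
    (S : Fin k → Set Ω) (h0 : ∀ v, ℵ₀ < Cardinal.mk (S v))
    (hlt : ∀ u v, u < v → Cardinal.mk (S u) < Cardinal.mk (S v)) :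
    ∃ (s : Fin k → Ω) (M : Fin k → Set Ω), (∀ v, s v ∈ S v) ∧
      (∀ i (T : Finset Ω), (T : Set Ω) ⊆ M i → Φ T ⊆ M i) ∧ ∀ i v, s v ∈ M i ↔ v ≠ i := by
  classical
  have key : ∀ m : ℕ, ∃ (s : Fin k → Ω) (M : Fin k → Set Ω), ∀ v : Fin k, k ≤ v + m →
      s v ∈ S v ∧ (∀ T : Finset Ω, (T : Set Ω) ⊆ M v → Φ T ⊆ M v) ∧ s v ∉ M v ∧
        (∀ u, u < v → S u ⊆ M v) ∧ ∀ u, v < u → s u ∈ M v := by
    intro m
    induction m with
    | zero =>
      have hne : ∀ v, Nonempty (S v) := fun v => mk_ne_zero_iff.1 (aleph0_pos.trans (h0 v)).ne'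
      exact ⟨fun v => (hne v).some, fun _ => ∅, fun v hv => absurd v.2 (by omega)⟩
    | succ m ih =>
      obtain ⟨s, M, h⟩ := ih
      by_cases hm : m < k
      · let a : Fin k := ⟨k - (m + 1), by omega⟩
        have ha : (a : ℕ) = k - (m + 1) := rfl
        let f : Fin k → Set Ω := fun u => if u < a then S u else {s u}
        obtain ⟨N, h1, h2, h3⟩ := closure_exists Φ hΦ (⋃ u ∈ Finset.univ, f u)
        have h4 : Cardinal.mk N < Cardinal.mk (S a) := by
          refine h3.trans_lt (max_lt (fs_union_lt _ f (h0 a).le fun u => ?_) (h0 a))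
          by_cases hu : u < a
          · simp only [f, if_pos hu]
            exact hlt u a hu
          · simp only [f, if_neg hu, mk_singleton]
            exact one_lt_aleph0.trans (h0 a)
        obtain ⟨x, hx, hx'⟩ : ∃ x ∈ S a, x ∉ N := by
          by_contra hc
          push Not at hc
          exact h4.not_ge (mk_le_mk_of_subset hc)
        have h5 : ∀ u, f u ⊆ N := fun u =>
          (Set.subset_biUnion_of_mem (u := f) (Finset.mem_coe.2 (Finset.mem_univ u))).trans h1
        refine ⟨Function.update s a x, Function.update M a N, fun v hv => ?_⟩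
        by_cases hva : v = a
        · subst hva
          rw [Function.update_self, Function.update_self]
          refine ⟨hx, h2, hx', fun u hu => ?_, fun u hu => ?_⟩
          · simpa only [f, if_pos hu] using h5 u
          · rw [Function.update_of_ne hu.ne']
            exact h5 u (by simp [f, hu.not_gt])
        · have hav : a < v := by
            have : (v : ℕ) ≠ a := fun h => hva (Fin.ext h)
            rw [Fin.lt_def]; omega
          obtain ⟨a1, a2, a3, a4, a5⟩ := h v (by rw [Fin.lt_def] at hav; omega)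
          rw [Function.update_of_ne hva, Function.update_of_ne hva]
          refine ⟨a1, a2, a3, a4, fun u hu => ?_⟩
          rw [Function.update_of_ne (hav.trans hu).ne']
          exact a5 u hu
      · exact ⟨s, M, fun v _ => h v (by omega)⟩
  obtain ⟨s, M, h⟩ := key k
  replace h := fun v => h v (by omega)
  refine ⟨s, M, fun v => (h v).1, fun v => (h v).2.1, fun i v => ⟨?_, fun hv => ?_⟩⟩
  · rintro h1 rfl
    exact (h v).2.2.1 h1
  · rcases lt_or_gt_of_ne hv with h1 | h1
    · exact (h i).2.2.2.1 v h1 (h v).1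
    · exact (h i).2.2.2.2 v h1

end Vale.Agent.P173
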