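import Vale.Agent.P173.Build
import Vale.Agent.P173.FreeSet

/-! A presentation of the cartesian subgroup yields a setup. -/

universe u

open Cardinal

namespace Vale.Agent.P173

theorem cl_countable {Γ : Type*} [Group Γ] {s : Set Γ} (hs : s.Countable) :
    (Subgroup.closure s : Set Γ).Countable := by
  have := hs.to_subtype
  have h := Set.countable_range (FreeGroup.lift (Subtype.val : s → Γ))
  rwa [← MonoidHom.coe_range, FreeGroup.range_lift_eq_closure, Subtype.range_coe] at h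

theorem cl_fin {Γ Ω : Type*} [Group Γ] (K : Set Ω → Set Γ) (hK : Monotone K) {M : Set Ω}
    (h : ∀ x ∈ K M, ∃ T : Finset Ω, (T : Set Ω) ⊆ M ∧ x ∈ K T) {x : Γ}
    (hx : x ∈ Subgroup.closure (K M)) :
    ∃ T : Finset Ω, (T : Set Ω) ⊆ M ∧ x ∈ Subgroup.closure (K T) := by
  classical
  induction hx using Subgroup.closure_induction with
  | mem x hx =>
    obtain ⟨T, h1, h2⟩ := h x hx
    exact ⟨T, h1, Subgroup.subset_closure h2⟩
  | one => exact ⟨∅, by simp, one_mem _⟩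
  | mul x y _ _ hx hy =>
    obtain ⟨T, h1, h2⟩ := hx
    obtain ⟨T', h3, h4⟩ := hy
    refine ⟨T ∪ T', by rw [Finset.coe_union]; exact Set.union_subset h1 h3, mul_mem ?_ ?_⟩
    · exact Subgroup.closure_mono (hK (Finset.coe_subset.2 Finset.subset_union_left)) h2
    · exact Subgroup.closure_mono (hK (Finset.coe_subset.2 Finset.subset_union_right)) h4
  | inv x _ hx =>
    obtain ⟨T, h1, h2⟩ := hx
    exact ⟨T, h1, inv_mem h2⟩

section FM

variable {Ed Ω : Type*} (ε : Ed → Ω)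

theorem cl_FM_mono {M N : Set Ed} (h : M ⊆ N) : FM M ≤ FM N :=
  Subgroup.closure_mono (Set.image_mono h)

theorem cl_FM_fin {M : Set Ω} {w : FreeGroup Ed} (hw : w ∈ FM (ε ⁻¹' M)) :
    ∃ T : Finset Ω, (T : Set Ω) ⊆ M ∧ w ∈ FM (ε ⁻¹' T) :=
  cl_fin (fun M => FreeGroup.of '' (ε ⁻¹' M))
    (fun _ _ h => Set.image_mono (Set.preimage_mono h))
    (by
      rintro _ ⟨e, he, rfl⟩
      exact ⟨{ε e}, by simpa using he, e, by simp, rfl⟩) hw

theorem cl_FM_countable (hε : Function.Injective ε) (T : Finset Ω) :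
    (FM (ε ⁻¹' T) : Set (FreeGroup Ed)).Countable :=
  cl_countable ((T.countable_toSet.preimage_of_injOn hε.injOn).image _)

/-- Conjugates of relators inside `FM M`. -/
def cl_K {Fa : Type*} (rel : Fa → FreeGroup Ed) (M : Set Ed) : Set (FreeGroup Ed) :=
  {x | ∃ u f, u ∈ FM M ∧ rel f ∈ FM M ∧ x = u * rel f * u⁻¹}

theorem cl_K_mono {Fa : Type*} (rel : Fa → FreeGroup Ed) {M N : Set Ed} (h : M ⊆ N) :
    cl_K rel M ⊆ cl_K rel N :=
  fun _ ⟨u, f, h1, h2, h3⟩ => ⟨u, f, cl_FM_mono h h1, cl_FM_mono h h2, h3⟩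

theorem cl_K_fin {Fa : Type*} (rel : Fa → FreeGroup Ed) {w : FreeGroup Ed}
    (hw : w ∈ Subgroup.normalClosure (Set.range rel)) :
    ∃ T : Finset Ω, w ∈ Subgroup.closure (cl_K rel (ε ⁻¹' T)) := by
  classical
  have h1 : w ∈ Subgroup.closure (cl_K rel (ε ⁻¹' Set.univ)) := by
    refine Subgroup.closure_mono (fun x hx => ?_) hw
    obtain ⟨_, ⟨f, rfl⟩, h⟩ := Group.mem_conjugatesOfSet_iff.1 hx
    obtain ⟨c, rfl⟩ := isConj_iff.1 h
    exact ⟨c, f, mem_FM_univ _, mem_FM_univ _, rfl⟩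
  obtain ⟨T, -, hT⟩ := cl_fin (fun M => cl_K rel (ε ⁻¹' M))
    (fun _ _ h => cl_K_mono rel (Set.preimage_mono h)) (by
      rintro _ ⟨u, f, h2, h3, rfl⟩
      obtain ⟨T, -, hT⟩ := cl_FM_fin ε h2
      obtain ⟨T', -, hT'⟩ := cl_FM_fin ε h3
      exact ⟨T ∪ T', Set.subset_univ _, u, f,
        cl_FM_mono (Set.preimage_mono (Finset.coe_subset.2 Finset.subset_union_left)) hT,
        cl_FM_mono (Set.preimage_mono (Finset.coe_subset.2 Finset.subset_union_right)) hT',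
        rfl⟩) h1
  exact ⟨T, hT⟩

end FM

section Box

variable {V : Type} (G : SimpleGraph V) {J : V → Type} {Ω : Type*} (ι : ∀ v, J v → Ω)

/-- The box attached to a set of indices. -/
noncomputable def cl_B (M : Set Ω) (v : V) : AddSubgroup (J v →₀ ZMod 2) :=
  (Finsupp.supported (ZMod 2) (ZMod 2) (ι v ⁻¹' M)).toAddSubgroup

theorem cl_mem_B {M : Set Ω} {v : V} {a : J v →₀ ZMod 2} :
    a ∈ cl_B ι M v ↔ ∀ j ∈ a.support, ι v j ∈ M := Iff.rfl

theorem cl_Sub_mono {M N : Set Ω} (h : M ⊆ N) : Sub G (cl_B ι M) ≤ Sub G (cl_B ι N) :=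
  Subgroup.closure_mono fun _ ⟨v, a, h1, h2⟩ => ⟨v, a, fun _ hj => h (h1 hj), h2⟩

theorem cl_Sub_fin {M : Set Ω} {g : GP G fun v => J v →₀ ZMod 2} (hg : g ∈ Sub G (cl_B ι M)) :
    ∃ T : Finset Ω, (T : Set Ω) ⊆ M ∧ g ∈ Sub G (cl_B ι T) := by
  classical
  refine cl_fin (fun M => {g | ∃ v a, a ∈ cl_B ι M v ∧ g = gen G v a})
    (fun _ _ h _ ⟨v, a, h1, h2⟩ => ⟨v, a, fun _ hj => h (h1 hj), h2⟩) ?_ hg
  rintro _ ⟨v, a, h1, rfl⟩
  refine ⟨a.support.image (ι v), fun x hx => ?_, v, a, fun j hj => ?_, rfl⟩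
  · obtain ⟨j, hj, rfl⟩ := Finset.mem_image.1 hx
    exact h1 hj
  · exact Finset.mem_image_of_mem _ hj

theorem cl_mem_Sub_univ (g : GP G fun v => J v →₀ ZMod 2) : g ∈ Sub G (cl_B ι Set.univ) := by
  have : g ∈ Subgroup.closure {g : GP G fun v => J v →₀ ZMod 2 | ∃ v a, g = gen G v a} := by
    rw [closure_gen]; trivial
  refine Subgroup.closure_mono ?_ this
  rintro _ ⟨v, a, rfl⟩
  exact ⟨v, a, fun _ _ => trivial, rfl⟩

theorem cl_Sub_countable [Countable V] (hι : ∀ v, Function.Injective (ι v)) (T : Finset Ω) :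
    (Sub G (cl_B ι T) : Set (GP G fun v => J v →₀ ZMod 2)).Countable := by
  have h1 : ∀ v, (cl_B ι T v : Set (J v →₀ ZMod 2)).Countable := fun v => by
    have := (T.countable_toSet.preimage_of_injOn (hι v).injOn).to_subtype
    exact (Finsupp.supportedEquivFinsupp (M := ZMod 2) (R := ZMod 2)
      (ι v ⁻¹' T)).toEquiv.countable_iff.2 inferInstance
  refine cl_countable ((Set.countable_iUnion fun v =>
    (h1 v).image (gen G (A := fun v => J v →₀ ZMod 2) v)).mono ?_)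
  rintro _ ⟨v, a, h, rfl⟩
  exact Set.mem_iUnion.2 ⟨v, a, h, rfl⟩

theorem cl_Sub_inter [Fintype V] [DecidableEq V] {M N : Set Ω}
    {g : GP G fun v => J v →₀ ZMod 2} (h1 : g ∈ Sub G (cl_B ι M)) (h2 : g ∈ Sub G (cl_B ι N)) :
    g ∈ Sub G (cl_B ι (M ∩ N)) := by
  obtain ⟨e, h⟩ := word_spec G g
  rw [← e]
  refine Subgroup.list_prod_mem _ fun y hy => ?_
  obtain ⟨x, hx, rfl⟩ := List.mem_map.1 hy
  exact gen_mem_Sub G fun j hj => ⟨h _ h1 x hx hj, h _ h2 x hx hj⟩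

end Box

theorem exists_setup {k : ℕ} (G : SimpleGraph (Fin k)) (J : Fin k → Type)
    (h0 : ∀ v, ℵ₀ < Cardinal.mk (J v)) (hlt : ∀ u v, u < v → Cardinal.mk (J u) < Cardinal.mk (J v))
    (D : Pres.{u, 0} (KK G (fun v => J v →₀ ZMod 2))) :
    Nonempty (Setup.{u} G (fun v => J v →₀ ZMod 2)) := by
  classical
  let Ω : Type u := D.Ed ⊕ ULift.{u} (Σ v, J v)
  let ε : D.Ed → Ω := Sum.inl
  let ι : ∀ v, J v → Ω := fun v j => Sum.inr ⟨⟨v, j⟩⟩
  have hε : Function.Injective ε := Sum.inl_injective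
  have hι : ∀ v, Function.Injective (ι v) := fun v a b h =>
    sigma_mk_injective (ULift.up_injective (Sum.inr_injective h))
  choose T1 _ hT1 using fun e => cl_Sub_fin G ι (cl_mem_Sub_univ G ι (D.μ e).1)
  have H2 : ∀ h, ∃ T : Finset Ω, ∃ w ∈ FM (ε ⁻¹' T), FreeGroup.lift D.μ w = h := fun h => by
    obtain ⟨w, rfl⟩ := D.surj h
    obtain ⟨T, -, hT⟩ := cl_FM_fin ε (M := Set.univ) (mem_FM_univ w)
    exact ⟨T, w, hT, rfl⟩
  choose T2 hT2 using H2
  have H3 : ∀ w, ∃ T : Finset Ω, FreeGroup.lift D.μ w = 1 →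
      w ∈ Subgroup.closure (cl_K D.rel (ε ⁻¹' T)) := fun w => by
    by_cases hw : FreeGroup.lift D.μ w = 1
    · obtain ⟨T, hT⟩ := cl_K_fin ε D.rel ((D.ker w).1 hw)
      exact ⟨T, fun _ => hT⟩
    · exact ⟨∅, fun h => absurd h hw⟩
  choose T3 hT3 using H3
  let Φ : Finset Ω → Set Ω := fun T => (⋃ e ∈ ε ⁻¹' T, (T1 e : Set Ω)) ∪
    ((⋃ h ∈ Subtype.val ⁻¹' (Sub G (cl_B ι T) : Set (GP G fun v => J v →₀ ZMod 2)),
      (T2 h : Set Ω)) ∪ ⋃ w ∈ (FM (ε ⁻¹' T) : Set (FreeGroup D.Ed)), (T3 w : Set Ω))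
  have hΦ : ∀ T, (Φ T).Countable := fun T =>
    ((T.countable_toSet.preimage_of_injOn hε.injOn).biUnion fun _ _ =>
      Finset.countable_toSet _).union
      ((((cl_Sub_countable G ι hι T).preimage_of_injOn Subtype.val_injective.injOn).biUnion
        fun _ _ => Finset.countable_toSet _).union
        ((cl_FM_countable ε hε T).biUnion fun _ _ => Finset.countable_toSet _))
  have hc : ∀ v, Cardinal.mk (Set.range (ι v)) = Cardinal.lift.{u} (Cardinal.mk (J v)) :=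
    fun v => by simpa using mk_range_eq_of_injective (hι v)
  obtain ⟨s, M, h1, h2, h3⟩ := free_set Φ hΦ (fun v => Set.range (ι v))
    (fun v => by rw [hc]; exact aleph0_lt_lift.2 (h0 v))
    fun a b h => by rw [hc, hc]; exact Cardinal.lift_lt.2 (hlt a b h)
  choose j hj using h1
  refine ⟨⟨D, fun i => cl_B ι (M i), fun i v => Finsupp.filterAddHom fun a => ι v a ∈ M i,
    fun i v a b hb => (Finset.mem_filter.1 hb).2, fun i v a ha => ?_,
    fun v => Finsupp.single (j v) 1, fun i v => ?_, fun i => ε ⁻¹' M i, fun i e he => ?_,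
    fun i i' h hi hi' => ?_, fun i w hw h => ?_⟩⟩
  · exact (Finsupp.filter_eq_self_iff _ _).2 fun x hx => ha (Finsupp.mem_support_iff.2 hx)
  · rw [← h3, ← hj, cl_mem_B, Finsupp.support_single _ one_ne_zero]
    simp
  · refine cl_Sub_mono G ι (le_trans ?_ (h2 i {ε e} (by simpa using he))) (hT1 e)
    exact Set.subset_union_of_subset_left
      (Set.subset_biUnion_of_mem (u := fun e => (T1 e : Set Ω)) (by simp)) _
  · obtain ⟨T, hT, hh⟩ := cl_Sub_fin G ι (cl_Sub_inter G ι hi hi')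
    have h4 : (T2 h : Set Ω) ⊆ Φ T := Set.subset_union_of_subset_right
      (Set.subset_union_of_subset_left
        (Set.subset_biUnion_of_mem (u := fun h => (T2 h : Set Ω)) hh) _) _
    obtain ⟨w, hw, e⟩ := hT2 h
    refine ⟨w, cl_FM_mono (Set.subset_inter ?_ ?_) hw, e⟩
    · exact Set.preimage_mono (h4.trans (h2 i T (hT.trans Set.inter_subset_left)))
    · exact Set.preimage_mono (h4.trans (h2 i' T (hT.trans Set.inter_subset_right)))
  · obtain ⟨T, hT, hh⟩ := cl_FM_fin ε hw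
    have h4 : (T3 w : Set Ω) ⊆ Φ T := Set.subset_union_of_subset_right
      (Set.subset_union_of_subset_right
        (Set.subset_biUnion_of_mem (u := fun w => (T3 w : Set Ω)) hh) _) _
    exact Subgroup.closure_mono (cl_K_mono D.rel (Set.preimage_mono (h4.trans (h2 i T hT))))
      (hT3 w h)

end Vale.Agent.P173
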