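import Vale.Agent.P173.Defs
import Vale.Agent.P173.BUTop

/-! Gerstenhaber-Rothaus mod 2 for `SO(3)`. -/

namespace Vale.Agent.P173

open Quaternion

theorem gr_two : ∀ a : Multiplicative (ZMod 2), a = 1 ∨ a = Multiplicative.ofAdd 1 := by decide

/-- Dual labels mod 2. -/
theorem gr_dual {X : Type*} {m : ℕ} (C : Set X) (w : Fin m → FreeGroup X)
    (h : ∀ T : Finset (Fin m), T.Nonempty → ∃ l : X → Multiplicative (ZMod 2),
      (∀ x ∈ C, l x = 1) ∧ ∏ j ∈ T, FreeGroup.lift l (w j) ≠ 1) (i : Fin m) :
    ∃ l : X → Multiplicative (ZMod 2), (∀ x ∈ C, l x = 1) ∧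
      ∀ j, FreeGroup.lift l (w j) = if j = i then Multiplicative.ofAdd 1 else 1 := by
  have h1 : ∀ v : FreeGroup X, FreeGroup.lift (fun _ => (1 : Multiplicative (ZMod 2))) v = 1 :=
    fun v => (FreeGroup.lift_unique 1 fun _ => rfl).symm
  let W : Submodule (ZMod 2) (Fin m → ZMod 2) :=
    { carrier := {v | ∃ l : X → Multiplicative (ZMod 2), (∀ x ∈ C, l x = 1) ∧
        ∀ j, FreeGroup.lift l (w j) = Multiplicative.ofAdd (v j)}
      add_mem' := by
        rintro a b ⟨l, l1, l2⟩ ⟨k, k1, k2⟩
        refine ⟨fun x => l x * k x, fun x hx => by simp [l1 x hx, k1 x hx], fun j => ?_⟩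
        rw [← FreeGroup.lift_unique (FreeGroup.lift l * FreeGroup.lift k) (by simp),
          MonoidHom.mul_apply, l2, k2]
        rfl
      zero_mem' := ⟨fun _ => 1, fun _ _ => rfl, fun j => h1 _⟩
      smul_mem' := by
        intro c a ha
        rcases (by decide : ∀ c : ZMod 2, c = 0 ∨ c = 1) c with rfl | rfl
        · rw [zero_smul]
          exact ⟨fun _ => 1, fun _ _ => rfl, fun j => h1 _⟩
        · rwa [one_smul] }
  have hW : W = ⊤ := by
    by_contra hne
    obtain ⟨f, hf, hle⟩ := W.exists_le_ker_of_lt_top (lt_top_iff_ne_top.2 hne)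
    have hfv : ∀ v, f v = ∑ j, v j * f (Pi.single j 1) := fun v => by
      conv_lhs => rw [← Finset.univ_sum_single v, map_sum]
      refine Finset.sum_congr rfl fun j _ => ?_
      rw [← smul_eq_mul, ← map_smul, ← Pi.single_smul, smul_eq_mul, mul_one]
    obtain ⟨l, l1, l2⟩ := h (Finset.univ.filter fun j => f (Pi.single j 1) = 1) (by
      by_contra hT
      refine hf (LinearMap.ext fun v => ?_)
      rw [hfv, LinearMap.zero_apply]
      refine Finset.sum_eq_zero fun j _ => ?_
      rcases (by decide : ∀ c : ZMod 2, c = 0 ∨ c = 1) (f (Pi.single j 1)) with e | e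
      · rw [e, mul_zero]
      · exact absurd ⟨j, by simp [e]⟩ hT)
    have h2 : f (fun j => Multiplicative.toAdd (FreeGroup.lift l (w j))) = 0 :=
      hle ⟨l, l1, fun j => rfl⟩
    apply l2
    apply Multiplicative.toAdd.injective
    rw [toAdd_prod, toAdd_one, ← h2, hfv, Finset.sum_filter]
    refine Finset.sum_congr rfl fun j _ => ?_
    rcases (by decide : ∀ c : ZMod 2, c = 0 ∨ c = 1) (f (Pi.single j 1)) with e | e <;> simp [e]
  obtain ⟨l, l1, l2⟩ : Pi.single i 1 ∈ W := hW ▸ Submodule.mem_top
  refine ⟨l, l1, fun j => ?_⟩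
  rw [l2, Pi.single_apply]
  split_ifs <;> rfl

/-- The sign character. -/
noncomputable def grSg : Multiplicative (ZMod 2) →* ℍ[ℝ]ˣ where
  toFun a := if a = 1 then 1 else -1
  map_one' := if_pos rfl
  map_mul' a b := by
    have h1 : (Multiplicative.ofAdd 1 : Multiplicative (ZMod 2)) ≠ 1 := by decide
    have h2 : (Multiplicative.ofAdd 1 * Multiplicative.ofAdd 1 : Multiplicative (ZMod 2)) = 1 := by
      decide
    rcases gr_two a with rfl | rfl <;> rcases gr_two b with rfl | rfl <;> simp [h1, h2]

theorem grSg_comm (a : Multiplicative (ZMod 2)) (u : ℍ[ℝ]ˣ) : grSg a * u = u * grSg a := by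
  show (if a = 1 then 1 else -1) * u = u * (if a = 1 then 1 else -1)
  split_ifs <;> simp

theorem gr_list {κ : Type*} (c : κ → Multiplicative (ZMod 2)) (f : κ → ℍ[ℝ]ˣ) (L : List κ) :
    (L.map fun j => grSg (c j) * f j).prod = grSg (L.map c).prod * (L.map f).prod := by
  induction L with
  | nil => simp
  | cons j L ih =>
    simp only [List.map_cons, List.prod_cons, ih, map_mul, mul_assoc]
    rw [← mul_assoc (f j), ← grSg_comm, mul_assoc]

theorem gr_lift {X : Type*} (c : X → Multiplicative (ZMod 2)) (f : X → ℍ[ℝ]ˣ) (w : FreeGroup X) :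
    FreeGroup.lift (fun x => grSg (c x) * f x) w =
      grSg (FreeGroup.lift c w) * FreeGroup.lift f w := by
  induction w using FreeGroup.induction_on with
  | C1 => simp
  | of x => simp
  | inv_of x _ =>
    simp only [map_inv, FreeGroup.lift_apply_of]
    rw [grSg_comm, mul_inv_rev]
  | mul a b ha hb =>
    simp only [map_mul, ha, hb, mul_assoc]
    rw [← mul_assoc (FreeGroup.lift f a), ← grSg_comm, mul_assoc]

/-- The quaternion with given coordinates. -/
noncomputable def grQ (a : Fin 4 → ℝ) : ℍ[ℝ] := linearIsometryEquivTuple.symm (WithLp.toLp 2 a)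

theorem grQ_cont : Continuous grQ :=
  linearIsometryEquivTuple.symm.continuous.comp (PiLp.continuous_toLp 2 _)

theorem grQ_neg (a : Fin 4 → ℝ) : grQ (-a) = -grQ a := by
  unfold grQ
  rw [WithLp.toLp_neg, map_neg]

theorem grQ_ne {a : Fin 4 → ℝ} (h : ∑ k, |a k| = 1) : grQ a ≠ 0 := by
  intro h0
  have h1 : a = 0 := by
    simpa using (map_eq_zero_iff _ linearIsometryEquivTuple.symm.injective).1 h0
  simp [h1] at h

open Classical in
/-- The unit `1` or the unit with given coordinates. -/
noncomputable def grU (c : Multiplicative (ZMod 2)) (a : Fin 4 → ℝ) : ℍ[ℝ]ˣ :=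
  if c = 1 then 1 else if h : grQ a = 0 then 1 else Units.mk0 _ h

theorem grU_coe (c : Multiplicative (ZMod 2)) {a : Fin 4 → ℝ} (h : ∑ k, |a k| = 1) :
    (grU c a : ℍ[ℝ]) = if c = 1 then 1 else grQ a := by
  unfold grU
  rw [dif_neg (grQ_ne h)]
  split_ifs <;> rfl

theorem grU_neg (c : Multiplicative (ZMod 2)) {a : Fin 4 → ℝ} (h : ∑ k, |a k| = 1) :
    grU c (-a) = grSg c * grU c a := by
  apply Units.ext
  rw [Units.val_mul, grU_coe c h, grU_coe c (by simpa using h)]
  show _ = ((if c = 1 then 1 else -1 : ℍ[ℝ]ˣ) : ℍ[ℝ]) * _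
  split_ifs
  · simp
  · simp [grQ_neg]

theorem gr_fin {X : Type*} {m : ℕ} (C : Set X) (q : X → ℍ[ℝ]ˣ) (w : Fin m → FreeGroup X)
    (l : Fin m → X → Multiplicative (ZMod 2)) (l1 : ∀ i, ∀ x ∈ C, l i x = 1)
    (l2 : ∀ i j, FreeGroup.lift (l i) (w j) = if j = i then Multiplicative.ofAdd 1 else 1) :
    ∃ y : X → ℍ[ℝ]ˣ, (∀ x ∈ C, y x = q x) ∧
      ∀ j, FreeGroup.lift y (w j) ∈ Subgroup.center ℍ[ℝ]ˣ := by
  classical
  let val : (Fin m → Fin 4 → ℝ) → X → ℍ[ℝ]ˣ := fun y x =>
    if x ∈ C then q x else ((List.finRange m).map fun j => grU (l j x) (y j)).prod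
  have hc : ∀ v, ContinuousOn (fun y => (FreeGroup.lift (val y) v : ℍ[ℝ])) (Sph m 3) := by
    have hx : ∀ x, ContinuousOn (fun y => (val y x : ℍ[ℝ])) (Sph m 3) := by
      intro x
      by_cases hx : x ∈ C
      · simp only [val, if_pos hx]
        exact continuousOn_const
      · refine ContinuousOn.congr (f := fun y => ((List.finRange m).map fun j =>
          if l j x = 1 then 1 else grQ (y j)).prod) (Continuous.continuousOn ?_) fun y hy => ?_
        · refine continuous_list_prod _ fun j _ => ?_
          split_ifs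
          · exact continuous_const
          · exact grQ_cont.comp (continuous_apply j)
        · simp only [val, if_neg hx]
          rw [← Units.coeHom_apply, map_list_prod, List.map_map]
          congr 1
          exact List.map_congr_left fun j _ => grU_coe _ (hy j)
    intro v
    induction v using FreeGroup.induction_on with
    | C1 => simpa using continuousOn_const
    | of x => simpa using hx x
    | inv_of x _ =>
      simp only [map_inv, FreeGroup.lift_apply_of, Units.val_inv_eq_inv_val]
      exact (hx x).inv₀ fun y _ => Units.ne_zero _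
    | mul a b ha hb =>
      simp only [map_mul, Units.val_mul]
      exact ha.mul hb
  have hflip : ∀ y ∈ Sph m 3, ∀ i, val (Function.update y i (-y i)) =
      fun x => grSg (l i x) * val y x := by
    intro y hy i
    funext x
    by_cases hx : x ∈ C
    · simp only [val, if_pos hx, l1 i x hx, map_one, one_mul]
    · simp only [val, if_neg hx]
      have e : ∀ j, grU (l j x) (Function.update y i (-y i) j) =
          grSg (if j = i then l i x else 1) * grU (l j x) (y j) := by
        intro j
        by_cases hj : j = i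
        · subst hj
          rw [Function.update_self, if_pos rfl, grU_neg _ (hy j)]
        · rw [Function.update_of_ne hj, if_neg hj, map_one, one_mul]
      simp only [e, gr_list]
      rw [← Fin.prod_univ_def]
      simp
  obtain ⟨y, -, hy⟩ := bu m 3 (fun y j => ![(FreeGroup.lift (val y) (w j) : ℍ[ℝ]).imI,
    (FreeGroup.lift (val y) (w j) : ℍ[ℝ]).imJ, (FreeGroup.lift (val y) (w j) : ℍ[ℝ]).imK])
    (continuousOn_pi.2 fun j => continuousOn_pi.2 fun k => by
      fin_cases k
      · exact continuous_imI.comp_continuousOn (hc _)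
      · exact continuous_imJ.comp_continuousOn (hc _)
      · exact continuous_imK.comp_continuousOn (hc _))
    (fun y hy i j => by
      rw [hflip y hy i, gr_lift, l2]
      split_ifs
      · have : grSg (Multiplicative.ofAdd 1) = -1 :=
          if_neg (t := 1) (by decide : ¬ (Multiplicative.ofAdd 1 : Multiplicative (ZMod 2)) = 1)
        rw [this]
        funext k
        fin_cases k <;> simp
      · rw [map_one, one_mul])
  refine ⟨val y, fun x hx => if_pos hx, fun j => Subgroup.mem_center_iff.2 fun g => ?_⟩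
  have h1 := congrFun (congrFun hy j) 0
  have h2 := congrFun (congrFun hy j) 1
  have h3 := congrFun (congrFun hy j) 2
  apply Units.ext
  have e : (FreeGroup.lift (val y) (w j) : ℍ[ℝ]) =
      ((FreeGroup.lift (val y) (w j) : ℍ[ℝ]).re : ℍ[ℝ]) := Quaternion.ext _ _ rfl h1 h2 h3
  rw [Units.val_mul, Units.val_mul, e, Quaternion.coe_commutes]

theorem gr {X ι : Type*} (C : Set X) (q : X → PH) (S : Finset ι) (w : ι → FreeGroup X)
    (h : ∀ T ⊆ S, T.Nonempty → ∃ l : X → Multiplicative (ZMod 2),
      (∀ x ∈ C, l x = 1) ∧ ∏ j ∈ T, FreeGroup.lift l (w j) ≠ 1) :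
    ∃ y : X → PH, (∀ x ∈ C, y x = q x) ∧ ∀ j ∈ S, FreeGroup.lift y (w j) = 1 := by
  let e : Fin S.card ↪ ι := S.equivFin.symm.toEmbedding.trans (Function.Embedding.subtype _)
  have hd := gr_dual C (fun j => w (e j)) fun T hT => by
    obtain ⟨l, l1, l2⟩ := h (T.map e) (fun j hj => by
      obtain ⟨k, -, rfl⟩ := Finset.mem_map.1 hj
      exact (S.equivFin.symm k).2) hT.map
    exact ⟨l, l1, by rwa [Finset.prod_map] at l2⟩
  choose l l1 l2 using hd
  obtain ⟨y, y1, y2⟩ := gr_fin C (fun x => (q x).out) (fun j => w (e j)) l l1 l2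
  refine ⟨fun x => QuotientGroup.mk' _ (y x), fun x hx => ?_, fun j hj => ?_⟩
  · beta_reduce
    rw [y1 x hx]
    exact QuotientGroup.out_eq' _
  · rw [← FreeGroup.lift_unique ((QuotientGroup.mk' _).comp (FreeGroup.lift y)) (by simp)]
    have := y2 (S.equivFin ⟨j, hj⟩)
    simp only [e, Function.Embedding.trans_apply, Equiv.coe_toEmbedding, Equiv.symm_apply_apply,
      Function.Embedding.subtype_apply] at this
    exact (QuotientGroup.eq_one_iff _).2 this

end Vale.Agent.P173
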