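import Vale.Agent.P173.Flat

/-! Independence mod 2 of the selected triples. -/

universe u

namespace Vale.Agent.P173.Setup

variable {V : Type} [Fintype V] [DecidableEq V] {G : SimpleGraph V} {A : V → Type}
  [∀ v, AddCommGroup (A v)] (S : Setup.{u} G A)

open Classical in
/-- A function of pairs of faces whose bottom face has first chamber `c`. -/
noncomputable def indL (c : GP G A) (ψ : Finset V → Finset V → ZMod 2) :
    S.X → Multiplicative (ZMod 2)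
  | Sum.inl y => if y.2 = (c : GP G A ⧸ Par G A (y.1.1 : Set V)) ∧ Disjoint y.1.1 (Desc G c)
      then Multiplicative.ofAdd (ψ y.1.1 y.1.2) else 1
  | Sum.inr _ => 1

theorem indL_ne (c : GP G A) (ψ : Finset V → Finset V → ZMod 2) {c' : GP G A} {τ : Finset V}
    (τ' : Finset V) (hτ : Clq G τ) (h : first G c' τ ≠ c) : S.indL c ψ (S.vr c' τ τ') = 1 := by
  unfold vr indL
  exact if_neg fun h' => h (first_eq G hτ (QuotientGroup.eq.1 h'.1) h'.2)

theorem indL_self (c : GP G A) (ψ : Finset V → Finset V → ZMod 2) {τ τ' : Finset V}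
    (h : ¬ Disjoint τ (Desc G c) → ψ τ τ' = 0) :
    S.indL c ψ (S.vr c τ τ') = Multiplicative.ofAdd (ψ τ τ') := by
  unfold vr indL
  by_cases hd : Disjoint τ (Desc G c)
  · exact if_pos ⟨rfl, hd⟩
  · rw [h hd]
    exact if_neg fun h' => hd h'.2

theorem indt_first {c : GP G A} {τ : Finset V} (hτ : Clq G τ) (hd : Disjoint τ (Desc G c)) :
    first G c τ = c :=
  first_eq G hτ (by rw [inv_mul_cancel]; exact one_mem _) hd

theorem indt_reduce (T : Finset (GP G A × Finset V × Finset V × Finset V))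
    (hT : ∀ y ∈ T, S.IsT y.1 y.2.1 y.2.2.1 y.2.2.2) {c : GP G A}
    (hmax : ∀ y ∈ T, len G y.1 ≤ len G c) {a₀ b₀ d₀ : Finset V} (h0 : (c, a₀, b₀, d₀) ∈ T)
    (ψ : Finset V → Finset V → ZMod 2)
    (hψ : ∀ τ τ', ¬ Disjoint τ (Desc G c) → τ ⊂ τ' → Clq G τ' → ψ τ τ' = 0)
    (h1 : ψ a₀ b₀ + ψ b₀ d₀ - ψ a₀ d₀ ≠ 0)
    (h2 : ∀ a b d, (c, a, b, d) ∈ T → ¬ (a = a₀ ∧ b = b₀ ∧ d = d₀) →
      ψ a b + ψ b d - ψ a d = 0) :
    ∃ l : S.X → Multiplicative (ZMod 2), (∀ y, S.IsC y → l y = 1) ∧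
      ∏ y ∈ T, S.triw l y.1 y.2.1 y.2.2.1 y.2.2.2 ≠ 1 := by
  have hself : ∀ a b d, Tri G a b d → S.triw (S.indL c ψ) c a b d =
      Multiplicative.ofAdd (ψ a b + ψ b d - ψ a d) := by
    intro a b d ht
    unfold triw
    rw [S.indL_self c ψ fun h => hψ a b h ht.1 (ht.2.2.mono ht.2.1.1),
      S.indL_self c ψ fun h => hψ b d h ht.2.1 ht.2.2,
      S.indL_self c ψ fun h => hψ a d h (ht.1.trans ht.2.1) ht.2.2, ofAdd_sub, ofAdd_add,
      div_eq_mul_inv]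
  refine ⟨S.indL c ψ, ?_, ?_⟩
  · rintro y ⟨τ, τ', hp, rfl⟩
    have hτ : Clq G τ := hp.2.2.mono hp.2.1.1
    refine S.indL_ne c ψ τ' hτ ?_
    rw [indt_first hτ (by rw [desc_one]; exact Finset.disjoint_empty_right _)]
    exact (hT _ h0).1.symm
  · rw [Finset.prod_eq_single_of_mem _ h0, hself _ _ _ (hT _ h0).2.1]
    · exact h1
    rintro ⟨c', a, b, d⟩ hy hne
    obtain ⟨-, ht, hd, -⟩ := hT _ hy
    by_cases hc : c' = c
    · subst hc
      rw [hself _ _ _ ht, h2 a b d hy ?_, ofAdd_zero]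
      rintro ⟨rfl, rfl, rfl⟩
      exact hne rfl
    · have hb : Clq G b := ht.2.2.mono ht.2.1.1
      have ha : Clq G a := hb.mono ht.1.1
      have e1 : first G c' a ≠ c := by rw [indt_first ha hd]; exact hc
      have e2 : first G c' b ≠ c := by
        by_cases hd' : Disjoint b (Desc G c')
        · rw [indt_first hb hd']; exact hc
        · intro h
          have h3 := len_first_lt G hb hd'
          rw [h] at h3
          exact absurd (hmax _ hy) (not_le.2 h3)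
      unfold triw
      rw [S.indL_ne c ψ _ ha e1, S.indL_ne c ψ _ ha e1, S.indL_ne c ψ _ hb e2]
      simp

theorem ind_T (hG : Good G) (T : Finset (GP G A × Finset V × Finset V × Finset V))
    (hne : T.Nonempty) (hT : ∀ y ∈ T, S.IsT y.1 y.2.1 y.2.2.1 y.2.2.2) :
    ∃ l : S.X → Multiplicative (ZMod 2), (∀ y, S.IsC y → l y = 1) ∧
      ∏ y ∈ T, S.triw l y.1 y.2.1 y.2.2.1 y.2.2.2 ≠ 1 := by
  obtain ⟨⟨c, a₀, b₀, d₀⟩, h0, hmax⟩ := T.exists_max_image (fun y => len G y.1) hne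
  by_cases hE : S.InW c ∅
  swap
  · have hn : ∀ a b d, (c, a, b, d) ∈ T → a.Nonempty := by
      intro a b d h
      rw [Finset.nonempty_iff_ne_empty]
      rintro rfl
      exact hE (hT _ h).2.2.2.1
    obtain ⟨ψ, h1, h2⟩ := rel_h2 hG (clq_desc G c) (hn _ _ _ h0) (hT _ h0).2.1 (hT _ h0).2.2.1
    refine S.indt_reduce T hT hmax h0 (fun a b => (ψ a b : ZMod 2)) (fun a b h h' h'' => ?_) ?_
      (fun a b d h h' => ?_)
    · rw [h1 a b h h' h'', Int.cast_zero]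
    · rw [← Int.cast_add, ← Int.cast_sub, h2 _ _ _ (hn _ _ _ h0) (hT _ h0).2.1,
        if_pos ⟨rfl, rfl, rfl⟩, Int.cast_one]
      exact one_ne_zero
    · rw [← Int.cast_add, ← Int.cast_sub, h2 _ _ _ (hn _ _ _ h) (hT _ h).2.1, if_neg h',
        Int.cast_zero]
  have hn : ∀ a b d, (c, a, b, d) ∈ T → a = ∅ ∧ b ≠ ∅ ∧ b ⊂ d ∧
      (Disjoint b (Desc G c) ∨ b = d ∩ Desc G c ∨ d = Desc G c) := by
    intro a b d h
    obtain ⟨-, ht, -, -, h'⟩ := hT _ h
    obtain ⟨rfl, h''⟩ := h' hE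
    exact ⟨rfl, (Finset.empty_ssubset.1 ht.1).ne_empty, ht.2.1, h''⟩
  have hz : ∀ t τ τ' : Finset V, ¬ Disjoint τ (Desc G c) →
      (if τ = ∅ ∧ τ' = t then (1 : ZMod 2) else 0) = 0 := by
    intro t τ τ' h
    refine if_neg ?_
    rintro ⟨rfl, -⟩
    exact h (Finset.disjoint_empty_left _)
  by_cases h1 : ∃ a b d, (c, a, b, d) ∈ T ∧ Disjoint b (Desc G c)
  · obtain ⟨a₁, b₁, d₁, h1, hd⟩ := h1
    obtain ⟨rfl, hb, -⟩ := hn _ _ _ h1
    refine S.indt_reduce T hT hmax h1 (fun a b => if a = b₁ ∧ b = d₁ then 1 else 0)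
      (fun a b h _ _ => if_neg ?_) ?_ (fun a b d h h' => ?_)
    · rintro ⟨rfl, -⟩
      exact h hd
    · simp [hb.symm]
    · obtain ⟨rfl, -⟩ := hn _ _ _ h
      have : ¬ (b = b₁ ∧ d = d₁) := fun h => h' ⟨rfl, h⟩
      simp [hb.symm, this]
  have hn' : ∀ a b d, (c, a, b, d) ∈ T → b = d ∩ Desc G c ∨ d = Desc G c := fun a b d h =>
    (hn a b d h).2.2.2.resolve_left fun h' => h1 ⟨a, b, d, h, h'⟩
  by_cases h2 : ∃ a b d, (c, a, b, d) ∈ T ∧ b = d ∩ Desc G c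
  · obtain ⟨a₁, b₁, d₁, h2, hd⟩ := h2
    obtain ⟨rfl, hb, hbd, -⟩ := hn _ _ _ h2
    have hs : ¬ d₁ ⊆ Desc G c := fun h => hbd.ne (hd.trans (Finset.inter_eq_left.2 h))
    refine S.indt_reduce T hT hmax h2 (fun a b => if a = ∅ ∧ b = d₁ then 1 else 0)
      (fun a b h _ _ => hz _ _ _ h) ?_ (fun a b d h h' => ?_)
    · simp [hb, hbd.ne]
    · obtain ⟨rfl, hb', hbd', -⟩ := hn _ _ _ h
      have e1 : b ≠ d₁ := by
        rintro rfl
        rcases hn' _ _ _ h with h3 | h3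
        · exact hs (h3 ▸ Finset.inter_subset_right)
        · exact hs (h3 ▸ hbd'.1)
      have e2 : d ≠ d₁ := by
        rintro rfl
        rcases hn' _ _ _ h with h3 | h3
        · exact h' ⟨rfl, h3.trans hd.symm, rfl⟩
        · exact hs h3.subset
      simp [hb', e1, e2]
  have hn'' : ∀ a b d, (c, a, b, d) ∈ T → d = Desc G c := fun a b d h =>
    (hn' a b d h).resolve_left fun h' => h2 ⟨a, b, d, h, h'⟩
  obtain ⟨rfl, hb, hbd, -⟩ := hn _ _ _ h0
  refine S.indt_reduce T hT hmax h0 (fun a b => if a = ∅ ∧ b = b₀ then 1 else 0)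
    (fun a b h _ _ => hz _ _ _ h) ?_ (fun a b d h h' => ?_)
  · simp [hb, hbd.ne']
  · obtain ⟨rfl, hb', -⟩ := hn _ _ _ h
    have e0 : d = d₀ := (hn'' _ _ _ h).trans (hn'' _ _ _ h0).symm
    have e1 : b ≠ b₀ := fun h3 => h' ⟨rfl, h3, e0⟩
    have e2 : d ≠ b₀ := e0 ▸ hbd.ne'
    simp [hb', e1, e2]

end Vale.Agent.P173.Setup
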