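import Vale.Agent.P173.Flat

/-! Dual functionals for the faces outside the boxes. -/

universe u

namespace Vale.Agent.P173

section Gen

variable {Γ Ed P : Type*} [Group Γ] [Group P]

theorem indY_exists_pot (μ : Ed → Γ) (lab : Γ → Ed → P) (M : Set Ed)
    (h : ∀ w ∈ FM M, FreeGroup.lift μ w = 1 → ∀ g, ev μ lab g w = 1) :
    ∃ U : Γ → P, ∀ g, ∀ e ∈ M, lab g e = (U g)⁻¹ * U (g * μ e) := by
  classical
  let K : Subgroup Γ := (FM M).map (FreeGroup.lift μ)
  have hw : ∀ g : Γ, ∃ w ∈ FM M, FreeGroup.lift μ w = ((g : Γ ⧸ K).out)⁻¹ * g := by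
    intro g
    have : ((g : Γ ⧸ K).out)⁻¹ * g ∈ K := QuotientGroup.eq.1 (QuotientGroup.out_eq' _)
    exact Subgroup.mem_map.1 this
  choose w hwM hwl using hw
  refine ⟨fun g => ev μ lab (g : Γ ⧸ K).out (w g), fun g e he => ?_⟩
  have hof : FreeGroup.of e ∈ FM M := Subgroup.subset_closure ⟨e, he, rfl⟩
  have hq : ((g * μ e : Γ) : Γ ⧸ K) = (g : Γ ⧸ K) :=
    QuotientGroup.mk_mul_of_mem g (Subgroup.mem_map.2 ⟨_, hof, by simp⟩)
  have h1 := hwl (g * μ e)
  rw [hq] at h1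
  have h2 := h (w g * FreeGroup.of e * (w (g * μ e))⁻¹)
    ((FM M).mul_mem ((FM M).mul_mem (hwM g) hof) ((FM M).inv_mem (hwM _)))
    (by rw [map_mul, map_mul, map_inv, h1, hwl g]; simp [mul_assoc]) (g : Γ ⧸ K).out
  rw [ev_mul, ev_mul, ev_inv, map_mul, h1, hwl g] at h2
  simp only [FreeGroup.lift_apply_of, ev_of, mul_inv_cancel_left, mul_assoc, mul_inv_rev,
    inv_inv, mul_inv_cancel_left] at h2
  show lab g e = (ev μ lab (g : Γ ⧸ K).out (w g))⁻¹ *
    ev μ lab ((g * μ e : Γ) : Γ ⧸ K).out (w (g * μ e))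
  rw [hq, eq_inv_mul_iff_mul_eq, ← mul_inv_eq_one, mul_assoc]
  exact h2

theorem indY_ev_gauge (μ : Ed → Γ) (lab lab' : Γ → Ed → P) (γ : Γ → P)
    (h : ∀ g e, lab' g e = γ g * lab g e * (γ (g * μ e))⁻¹) (w : FreeGroup Ed) (g : Γ) :
    ev μ lab' g w = γ g * ev μ lab g w * (γ (g * FreeGroup.lift μ w))⁻¹ := by
  induction w using FreeGroup.induction_on generalizing g with
  | C1 => simp
  | of e => simp [h]
  | inv_of e ih => rw [ev_inv, ev_inv, ih]; simp [mul_assoc]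
  | mul x y hx hy => rw [ev_mul, ev_mul, hx, hy]; simp [mul_assoc]

end Gen

namespace Setup

variable {V : Type} [Fintype V] [DecidableEq V] {G : SimpleGraph V} {A : V → Type}
  [∀ v, AddCommGroup (A v)] (S : Setup.{u} G A)

theorem indY_mu_rel (f : S.D.Fa) : FreeGroup.lift S.D.μ (S.D.rel f) = 1 :=
  (S.D.ker _).2 (Subgroup.subset_normalClosure ⟨f, rfl⟩)

theorem indY_pot {P : Type*} [Group P] (c : KK G A → S.D.Ed → P) (i : V)
    (hc : ∀ g f, S.D.rel f ∈ FM (S.M i) → ev S.D.μ c g (S.D.rel f) = 1) :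
    ∃ U : KK G A → P, ∀ g, ∀ e ∈ S.M i, c g e = (U g)⁻¹ * U (g * S.D.μ e) := by
  refine indY_exists_pot _ _ _ fun w hw h1 => ?_
  have h4 := S.c4 i w hw h1
  have key : FreeGroup.lift S.D.μ w = 1 ∧ ∀ g, ev S.D.μ c g w = 1 := by
    clear h1 hw
    induction h4 using Subgroup.closure_induction with
    | mem x hx =>
      obtain ⟨u, f, -, hf, rfl⟩ := hx
      refine ⟨by simp [S.indY_mu_rel], fun g => ?_⟩
      rw [ev_mul, ev_mul, ev_inv, hc _ f hf, map_mul, S.indY_mu_rel]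
      simp
    | one => simp
    | mul x y _ _ hx hy =>
      refine ⟨by rw [map_mul, hx.1, hy.1, one_mul], fun g => ?_⟩
      rw [ev_mul, hx.2, hy.2, one_mul]
    | inv x _ hx =>
      refine ⟨by rw [map_inv, hx.1, inv_one], fun g => ?_⟩
      rw [ev_inv, hx.2, inv_one]
  exact key.2

/-- The chamber of the face with coordinates zero on `τ`. -/
noncomputable def indY_yy (c : GP G A) (τ : Finset V) : GP G A :=
  c * sec G (fun v => if v ∈ τ then -S.pos c v else 0)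

theorem indY_pos_yy (c : GP G A) (τ : Finset V) (v : V) :
    S.pos (S.indY_yy c τ) v = if v ∈ τ then 0 else S.pos c v := by
  have : S.pos (S.indY_yy c τ) v = S.pos c v + (if v ∈ τ then -S.pos c v else 0) := by
    simp only [indY_yy, pos, crd_mul, crd_sec, Pi.add_apply, add_assoc]
  rw [this]
  split_ifs <;> simp

theorem indY_yy_mem (c : GP G A) (τ : Finset V) : c⁻¹ * S.indY_yy c τ ∈ Par G A (τ : Set V) := by
  rw [indY_yy, inv_mul_cancel_left]
  exact sec_mem_Par G fun v hv => if_neg hv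

theorem indY_pos_eq {c c' : GP G A} {τ : Finset V} (h : c⁻¹ * c' ∈ Par G A (τ : Set V)) {v : V}
    (hv : v ∉ τ) : S.pos c' v = S.pos c v := by
  have h1 := crd_of_mem_Par G h (v := v) hv
  rw [crd_mul, crd_inv, Pi.add_apply, Pi.neg_apply, neg_add_eq_zero] at h1
  simp only [pos, Pi.add_apply, h1]

theorem indY_crd_eq (c c' : GP G A) (v : V) :
    crd G (c⁻¹ * c') v = S.pos c' v - S.pos c v := by
  simp only [pos, crd_mul, crd_inv, Pi.add_apply, Pi.neg_apply]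
  abel

theorem indY_yy_eq {c c' : GP G A} {τ : Finset V} (hτ : Clq G τ)
    (h : c⁻¹ * c' ∈ Par G A (τ : Set V)) : S.indY_yy c' τ = S.indY_yy c τ := by
  have h1 : (S.indY_yy c τ)⁻¹ * S.indY_yy c' τ ∈ Par G A (τ : Set V) := by
    have := (Par G A (τ : Set V)).mul_mem ((Par G A (τ : Set V)).mul_mem
      ((Par G A (τ : Set V)).inv_mem (S.indY_yy_mem c τ)) h) (S.indY_yy_mem c' τ)
    simpa [mul_assoc] using this
  have h2 := eq_one_of_mem_Par G hτ h1 (by
    funext v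
    rw [S.indY_crd_eq, indY_pos_yy, indY_pos_yy]
    split_ifs with hv
    · simp
    · rw [S.indY_pos_eq h hv]; simp)
  exact (inv_mul_eq_one.1 h2).symm

/-- The element of the cartesian subgroup attached to a face. -/
noncomputable def indY_zz (c : GP G A) (τ : Finset V) : KK G A :=
  ⟨S.t⁻¹ * S.indY_yy c τ * (sec G (S.pos (S.indY_yy c τ)))⁻¹, by
    rw [mem_KK]
    simp [t, pos]⟩

theorem indY_zz_eq {c c' : GP G A} {τ : Finset V} (hτ : Clq G τ)
    (h : c⁻¹ * c' ∈ Par G A (τ : Set V)) : S.indY_zz c' τ = S.indY_zz c τ := by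
  apply Subtype.ext
  simp only [indY_zz, S.indY_yy_eq hτ h]

theorem indY_zz_mem {i : V} {c : GP G A} {τ τ' : Finset V} (hτ : Clq G τ') (hs : τ ⊆ τ')
    (hi : S.InB i c τ) :
    (((S.indY_zz c τ)⁻¹ * S.indY_zz c τ' : KK G A) : GP G A) ∈ Sub G (S.B i) := by
  have hp : ∀ σ : Finset V, τ ⊆ σ → sec G (S.pos (S.indY_yy c σ)) ∈ Sub G (S.B i) := by
    intro σ hσ
    refine sec_mem_Sub G fun v => ?_
    rw [indY_pos_yy]
    split_ifs with hv
    · exact zero_mem _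
    · exact hi v fun h => hv (hσ h)
  have h1 : (S.indY_yy c τ)⁻¹ * S.indY_yy c τ' ∈ Par G A (τ' : Set V) := by
    have := (Par G A (τ' : Set V)).mul_mem ((Par G A (τ' : Set V)).inv_mem
      (Par_mono G (Finset.coe_subset.2 hs) (S.indY_yy_mem c τ))) (S.indY_yy_mem c τ')
    simpa [mul_assoc] using this
  have h2 : (S.indY_yy c τ)⁻¹ * S.indY_yy c τ' ∈ Sub G (S.B i) := by
    rw [eq_sec_of_mem_Par G hτ h1]
    refine sec_mem_Sub G fun v => ?_
    rw [S.indY_crd_eq, indY_pos_yy, indY_pos_yy]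
    by_cases hv : v ∈ τ
    · rw [if_pos hv, if_pos (hs hv), sub_zero]; exact zero_mem _
    · rw [if_neg hv]
      split_ifs
      · rw [zero_sub]; exact neg_mem (hi v hv)
      · rw [sub_self]; exact zero_mem _
  have h3 := (Sub G (S.B i)).mul_mem ((Sub G (S.B i)).mul_mem (hp τ subset_rfl) h2)
    ((Sub G (S.B i)).inv_mem (hp τ' hs))
  simpa [indY_zz, mul_assoc] using h3

theorem indY_sec_zero : sec G (0 : ∀ v, A v) = 1 :=
  eq_one_of_mem_Par G (τ := ∅) (by simp [Clq]) (sec_mem_Par G fun _ _ => rfl) (by simp)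

theorem indY_zz_t_mul (g : KK G A) : S.indY_zz (S.t * g) ∅ = g := by
  apply Subtype.ext
  have h0 : S.indY_yy (S.t * g) ∅ = S.t * g := by
    have : (fun v => if v ∈ (∅ : Finset V) then -S.pos (S.t * g) v else 0) = 0 := by
      funext v; simp
    rw [indY_yy, this, indY_sec_zero, mul_one]
  simp only [indY_zz, h0, pos_t_mul, indY_sec_zero, inv_one, mul_one, inv_mul_cancel_left]

/-- A chosen box meeting the face. -/
noncomputable def indY_ix [Nonempty V] (c : GP G A) (τ : Finset V) : V :=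
  Classical.epsilon fun i => S.InB i c τ

theorem indY_ix_spec [Nonempty V] {c : GP G A} {τ : Finset V} (h : S.InW c τ) :
    S.InB (S.indY_ix c τ) c τ := Classical.epsilon_spec h

theorem indY_ix_eq [Nonempty V] {c c' : GP G A} {τ : Finset V}
    (h : c⁻¹ * c' ∈ Par G A (τ : Set V)) : S.indY_ix c' τ = S.indY_ix c τ := by
  have : (fun i => S.InB i c' τ) = fun i => S.InB i c τ := by
    funext i
    refine propext ⟨fun h1 => InB.of_mem_Par S h1 ?_, fun h1 => InB.of_mem_Par S h1 h⟩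
    simpa using (Par G A (τ : Set V)).inv_mem h
  simp only [indY_ix, this]

section Main

variable {P : Type*} [CommGroup P] [Nonempty V] (U : V → KK G A → P)

/-- The transition function between the chosen boxes. -/
noncomputable def indY_ph (c : GP G A) (τ τ' : Finset V) : P :=
  U (S.indY_ix c τ) (S.indY_zz c τ') * (U (S.indY_ix c τ') (S.indY_zz c τ'))⁻¹

theorem indY_ph_eq {c c' : GP G A} {τ τ' : Finset V} (hτ : Clq G τ') (hs : τ ⊆ τ')
    (h : c⁻¹ * c' ∈ Par G A (τ : Set V)) : S.indY_ph U c' τ τ' = S.indY_ph U c τ τ' := by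
  have h' := Par_mono G (Finset.coe_subset.2 hs) h
  simp only [indY_ph, S.indY_ix_eq h, S.indY_ix_eq h', S.indY_zz_eq hτ h']

variable {U}

theorem indY_shift (hU : ∀ i j (g h : KK G A), (h : GP G A) ∈ Sub G (S.B i) →
      (h : GP G A) ∈ Sub G (S.B j) → (U i g)⁻¹ * U i (g * h) = (U j g)⁻¹ * U j (g * h))
    {i j : V} {c : GP G A} {τ τ' : Finset V} (hτ : Clq G τ') (hs : τ ⊆ τ')
    (hi : S.InB i c τ) (hj : S.InB j c τ) :
    U i (S.indY_zz c τ) * (U j (S.indY_zz c τ))⁻¹ = U i (S.indY_zz c τ') * (U j (S.indY_zz c τ'))⁻¹ := by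
  have h := hU i j (S.indY_zz c τ) _ (S.indY_zz_mem hτ hs hi) (S.indY_zz_mem hτ hs hj)
  rw [mul_inv_cancel_left, inv_mul_eq_iff_eq_mul] at h
  rw [h]
  simp [mul_assoc]

theorem indY_ph_flat (hU : ∀ i j (g h : KK G A), (h : GP G A) ∈ Sub G (S.B i) →
      (h : GP G A) ∈ Sub G (S.B j) → (U i g)⁻¹ * U i (g * h) = (U j g)⁻¹ * U j (g * h))
    {c : GP G A} {τ₀ τ₁ τ₂ : Finset V} (ht : Tri G τ₀ τ₁ τ₂) (hw : S.InW c τ₀) :
    S.indY_ph U c τ₀ τ₁ * S.indY_ph U c τ₁ τ₂ = S.indY_ph U c τ₀ τ₂ := by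
  have h0 := InB.mono S (S.indY_ix_spec hw) ht.1.subset
  have h1 := S.indY_ix_spec ⟨_, h0⟩
  rw [indY_ph, indY_ph, indY_ph, S.indY_shift hU ht.2.2 ht.2.1.subset h0 h1]
  simp [mul_assoc]

theorem indY_gal (hU : ∀ i j (g h : KK G A), (h : GP G A) ∈ Sub G (S.B i) →
      (h : GP G A) ∈ Sub G (S.B j) → (U i g)⁻¹ * U i (g * h) = (U j g)⁻¹ * U j (g * h))
    (x : S.X → P) (hx : ∀ c v a, S.step x c v a =
      S.indY_ph U c ∅ {v} * (S.indY_ph U (c * gen G v a) ∅ {v})⁻¹) (i : V) (l : List (Σ v, A v))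
    (hl : ∀ y ∈ l, y.2 ∈ S.B i y.1) (c : GP G A) (hc : S.InB i c ∅) :
    S.gal x c l = U (S.indY_ix c ∅) (S.indY_zz c ∅) * (U i (S.indY_zz c ∅))⁻¹ *
      (U (S.indY_ix (c * wprod G l) ∅) (S.indY_zz (c * wprod G l) ∅) * (U i (S.indY_zz (c * wprod G l) ∅))⁻¹)⁻¹ := by
  induction l generalizing c with
  | nil => simp [gal]
  | cons y l ih =>
    have hy := hl y (List.mem_cons_self ..)
    have hc' : S.InB i (c * gen G y.1 y.2) ∅ := InB.mul_of_mem_Sub S hc (gen_mem_Sub G hy)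
    have hq : Clq G ({y.1} : Finset V) := by simp [Clq]
    have hp : c⁻¹ * (c * gen G y.1 y.2) ∈ Par G A (({y.1} : Finset V) : Set V) := by
      rw [inv_mul_cancel_left]; exact gen_mem_Par G (by simp) _
    rw [gal, ih (fun z hz => hl z (List.mem_cons_of_mem _ hz)) _ hc', hx, wprod_cons, ← mul_assoc c,
      S.indY_shift hU hq (Finset.empty_subset _) (S.indY_ix_spec ⟨_, hc⟩) hc,
      S.indY_shift hU hq (Finset.empty_subset _) (S.indY_ix_spec ⟨_, hc'⟩) hc', indY_ph, indY_ph, S.indY_ix_eq hp,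
      S.indY_zz_eq hq hp]
    simp [mul_assoc]

end Main

theorem ind_Y (hG : Good G) (g₀ : KK G A) (f₀ : S.D.Fa) (h₀ : S.IsY f₀) :
    ∃ l : S.X → Multiplicative (ZMod 2), (∀ y, S.IsC y → l y = 1) ∧ S.Flat l ∧
      ∀ g f, ev S.D.μ (S.lab l) g (S.D.rel f) = 1 ↔ ¬ (g = g₀ ∧ f = f₀) := by
  classical
  have : Nonempty V := by obtain ⟨v, -⟩ := hG.sq; exact ⟨v⟩
  obtain ⟨c, hc⟩ := S.D.dual g₀ f₀
  have hpot := fun i => S.indY_pot c i fun g f hf =>
    (hc g f).2 fun h => h₀ i (h.2 ▸ hf)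
  choose U hUc using hpot
  have hU : ∀ i j (g h : KK G A), (h : GP G A) ∈ Sub G (S.B i) →
      (h : GP G A) ∈ Sub G (S.B j) → (U i g)⁻¹ * U i (g * h) = (U j g)⁻¹ * U j (g * h) := by
    intro i j g h hi hj
    obtain ⟨w, hw, rfl⟩ := S.c3 i j h hi hj
    rw [← ev_pot S.D.μ c _ (U i) (fun g e he => hUc i g e he.1) hw,
      ← ev_pot S.D.μ c _ (U j) (fun g e he => hUc j g e he.2) hw]
  obtain ⟨β, hβ⟩ := hG.h1 (ZMod 2) (fun τ τ' => Multiplicative.toAdd (S.indY_ph U 1 τ τ')) (by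
    intro τ₀ τ₁ τ₂ h0 ht
    obtain ⟨v, hv⟩ := h0
    rw [← toAdd_mul, S.indY_ph_flat hU ht ⟨v, S.inB_one_iff.2 hv⟩])
  let bp : GP G A → Finset V → Multiplicative (ZMod 2) := fun c τ =>
    if τ.Nonempty ∧ c ∈ Par G A (τ : Set V) then Multiplicative.ofAdd (β τ) else 1
  have hbp : ∀ {c c' : GP G A} {τ : Finset V}, c⁻¹ * c' ∈ Par G A (τ : Set V) →
      bp c' τ = bp c τ := by
    intro c c' τ h
    have : c' ∈ Par G A (τ : Set V) ↔ c ∈ Par G A (τ : Set V) := by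
      rw [← Subgroup.mul_mem_cancel_right (x := c⁻¹ * c') _ h (y := c), mul_inv_cancel_left]
    simp only [bp, this]
  let γ : KK G A → Multiplicative (ZMod 2) := fun g => U (S.indY_ix (S.t * g) ∅) g
  let l : S.X → Multiplicative (ZMod 2) := fun y => match y with
    | Sum.inl p => S.indY_ph U p.2.out p.1.1 p.1.2 * bp p.2.out p.1.1 * (bp p.2.out p.1.2)⁻¹
    | Sum.inr p => γ p.1 * c p.1 p.2 * (γ (p.1 * S.D.μ p.2))⁻¹
  have hl : ∀ (d : GP G A) {τ τ' : Finset V}, Clq G τ' → τ ⊆ τ' →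
      l (S.vr d τ τ') = S.indY_ph U d τ τ' * bp d τ * (bp d τ')⁻¹ := by
    intro d τ τ' hτ hs
    have h : d⁻¹ * (d : GP G A ⧸ Par G A (τ : Set V)).out ∈ Par G A (τ : Set V) :=
      QuotientGroup.eq.1 (QuotientGroup.out_eq' _).symm
    show S.indY_ph U (d : GP G A ⧸ Par G A (τ : Set V)).out τ τ' *
      bp (d : GP G A ⧸ Par G A (τ : Set V)).out τ *
      (bp (d : GP G A ⧸ Par G A (τ : Set V)).out τ')⁻¹ = _
    rw [S.indY_ph_eq U hτ hs h, hbp h, hbp (Par_mono G (Finset.coe_subset.2 hs) h)]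
  have hstep : ∀ d v a, S.step l d v a =
      S.indY_ph U d ∅ {v} * (S.indY_ph U (d * gen G v a) ∅ {v})⁻¹ := by
    intro d v a
    have hq : Clq G ({v} : Finset V) := by simp [Clq]
    have hp : d⁻¹ * (d * gen G v a) ∈ Par G A (({v} : Finset V) : Set V) := by
      rw [inv_mul_cancel_left]; exact gen_mem_Par G (by simp) _
    have he : ∀ d', bp d' ∅ = 1 := fun d' => if_neg (by simp)
    rw [step, hl d hq (Finset.empty_subset _), hl _ hq (Finset.empty_subset _), hbp hp, he, he]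
    simp [mul_assoc]
  have hlab : ∀ g e, S.lab l g e = γ g * c g e * (γ (g * S.D.μ e))⁻¹ := by
    intro g e
    rw [lab]
    split_ifs with he
    · obtain ⟨i, hi⟩ := he
      have hw := word_spec G (S.D.μ e : GP G A)
      rw [S.indY_gal hU l hstep i _ (hw.2 _ (S.c2 i e hi)) _ (S.inB_t_mul i g ∅), hw.1,
        mul_assoc S.t, ← Subgroup.coe_mul, indY_zz_t_mul, indY_zz_t_mul, hUc i g e hi]
      simp only [γ, mul_inv_rev, inv_inv, mul_assoc]
    · rfl
  refine ⟨l, ?_, ?_, ?_⟩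
  · rintro y ⟨τ, τ', hp, rfl⟩
    have h1 := hβ τ τ' hp
    have hb : ∀ σ : Finset V, σ.Nonempty → bp 1 σ = Multiplicative.ofAdd (β σ) :=
      fun σ hσ => if_pos ⟨hσ, one_mem _⟩
    rw [hl 1 hp.2.2 hp.2.1.subset, hb τ hp.1, hb τ' (hp.1.mono hp.2.1.subset),
      ← ofAdd_toAdd (S.indY_ph U 1 τ τ'), h1, ← ofAdd_add, sub_add_cancel, mul_inv_cancel]
  · intro d τ₀ τ₁ τ₂ ht hw
    rw [triw, hl d (ht.2.2.mono ht.2.1.subset) ht.1.subset, hl d ht.2.2 ht.2.1.subset,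
      hl d ht.2.2 (ht.1.subset.trans ht.2.1.subset), ← S.indY_ph_flat hU ht hw, mul_inv_eq_one]
    have key : ∀ a b x y z : Multiplicative (ZMod 2),
        a * x * y⁻¹ * (b * y * z⁻¹) = a * b * x * z⁻¹ := by
      intro a b x y z
      rw [mul_assoc b, mul_mul_mul_comm (a * x) y⁻¹ b, inv_mul_cancel_left, mul_right_comm a x b]
    exact key _ _ _ _ _
  · intro g f
    rw [indY_ev_gauge S.D.μ c _ γ hlab, S.indY_mu_rel, mul_one, mul_inv_eq_one, mul_eq_left, hc]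

end Setup

end Vale.Agent.P173
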