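import Vale.Agent.P173.Hol
import Vale.Agent.P173.IndT
import Vale.Agent.P173.IndY
import Vale.Agent.P173.GR

/-! The main contradiction. -/

universe u

namespace Vale.Agent.P173

/-- Compactness: an element of a normal closure is killed as soon as finitely many of the
relators are killed. -/
theorem core_fin {F H ι : Type*} [Group F] [Group H] (R₀ : Set F) (w : ι → F) (P : Set ι)
    {g : F} (hg : g ∈ Subgroup.normalClosure (R₀ ∪ w '' P)) :
    ∃ T : Finset ι, (∀ i ∈ T, i ∈ P) ∧ ∀ φ : F →* H, (∀ r ∈ R₀, φ r = 1) →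
      (∀ i ∈ T, φ (w i) = 1) → φ g = 1 := by
  classical
  induction hg using Subgroup.closure_induction with
  | mem x hx =>
    obtain ⟨a, ha, hc⟩ := Group.mem_conjugatesOfSet_iff.1 hx
    obtain ⟨c, rfl⟩ := isConj_iff.1 hc
    rcases ha with ha | ⟨i, hi, rfl⟩
    · refine ⟨∅, by simp, fun φ h0 _ => ?_⟩
      rw [map_mul, map_mul, h0 a ha, map_inv, mul_one, mul_inv_cancel]
    · refine ⟨{i}, by simpa using hi, fun φ _ h1 => ?_⟩
      rw [map_mul, map_mul, h1 i (Finset.mem_singleton_self i), map_inv, mul_one, mul_inv_cancel]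
  | one => exact ⟨∅, by simp, fun φ _ _ => map_one φ⟩
  | mul x y _ _ hx hy =>
    obtain ⟨T, hT, h⟩ := hx
    obtain ⟨T', hT', h'⟩ := hy
    refine ⟨T ∪ T', fun i hi => ?_, fun φ h0 h1 => ?_⟩
    · rcases Finset.mem_union.1 hi with hi | hi
      · exact hT i hi
      · exact hT' i hi
    · rw [map_mul, h φ h0 fun i hi => h1 i (Finset.mem_union_left _ hi),
        h' φ h0 fun i hi => h1 i (Finset.mem_union_right _ hi), mul_one]
  | inv x _ hx =>
    obtain ⟨T, hT, h⟩ := hx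
    exact ⟨T, hT, fun φ h0 h1 => by rw [map_inv, h φ h0 h1, inv_one]⟩

variable {V : Type} [Fintype V] [DecidableEq V] {G : SimpleGraph V} {A : V → Type}
  [∀ v, AddCommGroup (A v)]

/-- The index set of the equations. -/
abbrev CoreI (S : Setup.{u} G A) : Type u :=
  (GP G A × Finset V × Finset V × Finset V) ⊕ (KK G A × S.D.Fa)

/-- The equations. -/
noncomputable def coreW (S : Setup.{u} G A) : CoreI S → FreeGroup S.X :=
  Sum.elim (fun y => S.triw FreeGroup.of y.1 y.2.1 y.2.2.1 y.2.2.2)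
    (fun y => ev S.D.μ (S.lab FreeGroup.of) y.1 (S.D.rel y.2))

/-- The admissible indices. -/
def coreP (S : Setup.{u} G A) : Set (CoreI S) :=
  {i | Sum.elim (fun y => S.IsT y.1 y.2.1 y.2.2.1 y.2.2.2) (fun y => S.IsY y.2) i}

/-- The equations on the base chamber. -/
def coreR (S : Setup.{u} G A) : Set (FreeGroup S.X) :=
  {r | ∃ τ₀ τ₁ τ₂, τ₀.Nonempty ∧ Tri G τ₀ τ₁ τ₂ ∧ r = S.triw FreeGroup.of 1 τ₀ τ₁ τ₂}

theorem core_tri (S : Setup.{u} G A) {H : Type*} [Group H] (φ : FreeGroup S.X →* H)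
    (c : GP G A) (τ₀ τ₁ τ₂ : Finset V) :
    φ (S.triw FreeGroup.of c τ₀ τ₁ τ₂) = S.triw (fun y => φ (FreeGroup.of y)) c τ₀ τ₁ τ₂ :=
  S.triw_map φ _ c τ₀ τ₁ τ₂

theorem core_ev (S : Setup.{u} G A) {H : Type*} [Group H] (φ : FreeGroup S.X →* H)
    (g : KK G A) (w : FreeGroup S.D.Ed) :
    φ (ev S.D.μ (S.lab FreeGroup.of) g w) =
      ev S.D.μ (S.lab fun y => φ (FreeGroup.of y)) g w := by
  rw [ev_map]
  congr 1
  funext c e
  exact S.lab_map φ _ c e

theorem core_lift {X H : Type*} [Group H] (l : X → H) :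
    (fun y => FreeGroup.lift l (FreeGroup.of y)) = l := by
  funext y
  exact FreeGroup.lift_apply_of

theorem core_nonsing (hG : Good G) (S : Setup.{u} G A) (T : Finset (CoreI S))
    (hT : ∀ i ∈ T, i ∈ coreP S) (hne : T.Nonempty) :
    ∃ l : S.X → Multiplicative (ZMod 2), (∀ x ∈ {y | S.IsC y}, l x = 1) ∧
      ∏ j ∈ T, FreeGroup.lift l (coreW S j) ≠ 1 := by
  classical
  by_cases h : ∃ y, Sum.inr y ∈ T
  · obtain ⟨y₀, hy₀⟩ := h
    obtain ⟨l, hl, hF, hev⟩ := S.ind_Y hG y₀.1 y₀.2 (hT _ hy₀)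
    refine ⟨l, hl, ?_⟩
    rw [Finset.prod_eq_single_of_mem (Sum.inr y₀) hy₀]
    · intro h1
      have h2 : ev S.D.μ (S.lab l) y₀.1 (S.D.rel y₀.2) = 1 := by
        rw [← h1]
        change _ = FreeGroup.lift l (ev S.D.μ (S.lab FreeGroup.of) y₀.1 (S.D.rel y₀.2))
        rw [core_ev, core_lift]
      exact (hev _ _).1 h2 ⟨rfl, rfl⟩
    · rintro (y | y) hy hne
      · have hy' : S.IsT y.1 y.2.1 y.2.2.1 y.2.2.2 := hT _ hy
        change FreeGroup.lift l (S.triw FreeGroup.of y.1 y.2.1 y.2.2.1 y.2.2.2) = 1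
        rw [core_tri, core_lift]
        exact hF _ _ _ _ hy'.2.1 hy'.2.2.2.1
      · change FreeGroup.lift l (ev S.D.μ (S.lab FreeGroup.of) y.1 (S.D.rel y.2)) = 1
        rw [core_ev, core_lift]
        refine (hev _ _).2 fun h' => hne ?_
        rw [Prod.ext h'.1 h'.2]
  · have hR : T.toRight = ∅ := by
      rw [Finset.eq_empty_iff_forall_notMem]
      exact fun y hy => h ⟨y, Finset.mem_toRight.1 hy⟩
    have hL : T.toLeft.Nonempty := by
      obtain ⟨y | y, hy⟩ := hne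
      · exact ⟨y, Finset.mem_toLeft.2 hy⟩
      · exact absurd ⟨y, hy⟩ h
    obtain ⟨l, hl, hp⟩ := S.ind_T hG T.toLeft hL fun y hy => hT _ (Finset.mem_toLeft.1 hy)
    refine ⟨l, hl, ?_⟩
    rw [Finset.prod_sum_eq_prod_toLeft_mul_prod_toRight, hR, Finset.prod_empty, mul_one]
    intro h1
    apply hp
    rw [← h1]
    refine Finset.prod_congr rfl fun y _ => ?_
    change _ = FreeGroup.lift l (S.triw FreeGroup.of y.1 y.2.1 y.2.2.1 y.2.2.2)
    rw [core_tri, core_lift]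

theorem core (hG : Good G) (S : Setup.{u} G A) : False := by
  classical
  obtain ⟨q, hq, hnq⟩ := hG.rep
  set N : Subgroup (FreeGroup S.X) := Subgroup.normalClosure (coreR S ∪ coreW S '' coreP S)
    with hN
  have : N.Normal := Subgroup.normalClosure_normal
  set π : FreeGroup S.X →* FreeGroup S.X ⧸ N := QuotientGroup.mk' N with hπ
  have hker : ∀ r, π r = 1 ↔ r ∈ N := fun r => QuotientGroup.eq_one_iff r
  have hF : S.Flat fun y => π (FreeGroup.of y) := by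
    refine S.flat_of _ (fun c τ₀ τ₁ τ₂ h => ?_) (fun τ₀ τ₁ τ₂ h0 h => ?_)
    · rw [← core_tri, hker]
      exact Subgroup.subset_normalClosure (Or.inr ⟨Sum.inl (c, τ₀, τ₁, τ₂), h, rfl⟩)
    · rw [← core_tri, hker]
      exact Subgroup.subset_normalClosure (Or.inl ⟨τ₀, τ₁, τ₂, h0, h, rfl⟩)
  obtain ⟨U, hU⟩ := S.pot_of _ hF fun g f hf => by
    rw [← core_ev, hker]
    exact Subgroup.subset_normalClosure (Or.inr ⟨Sum.inr (g, f), hf, rfl⟩)
  choose Uh hUh using fun τ => QuotientGroup.mk'_surjective N (U τ)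
  have hmem : ∀ p : Finset V × Finset V, ∃ T : Finset (CoreI S), (∀ i ∈ T, i ∈ coreP S) ∧
      ∀ φ : FreeGroup S.X →* PH, (∀ r ∈ coreR S, φ r = 1) → (∀ i ∈ T, φ (coreW S i) = 1) →
        Pr G p.1 p.2 → φ (FreeGroup.of (S.vr 1 p.1 p.2)) = (φ (Uh p.1))⁻¹ * φ (Uh p.2) := by
    intro p
    by_cases hp : Pr G p.1 p.2
    · have h1 : (FreeGroup.of (S.vr 1 p.1 p.2))⁻¹ * ((Uh p.1)⁻¹ * Uh p.2) ∈ N := by
        rw [← hker, map_mul, map_mul, map_inv, map_inv, hU _ _ hp, hπ, hUh, hUh, inv_mul_cancel]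
      obtain ⟨T, hT, h⟩ := core_fin (H := PH) _ _ _ h1
      refine ⟨T, hT, fun φ h0 h2 _ => ?_⟩
      have h3 := h φ h0 h2
      rw [map_mul, map_mul, map_inv, map_inv, inv_mul_eq_one] at h3
      exact h3
    · exact ⟨∅, by simp, fun _ _ _ h => absurd h hp⟩
  choose T hT hTφ using hmem
  set T₀ : Finset (CoreI S) := Finset.univ.biUnion T with hT₀
  have hT₀P : ∀ i ∈ T₀, i ∈ coreP S := fun i hi => by
    obtain ⟨p, _, hp⟩ := Finset.mem_biUnion.1 hi
    exact hT p i hp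
  obtain ⟨y, hyC, hy⟩ := gr {y | S.IsC y}
    (Sum.elim (fun p => q p.1.1 p.1.2) fun _ => 1) T₀ (coreW S)
    fun T' hT' hne => core_nonsing hG S T' (fun i hi => hT₀P i (hT' hi)) hne
  have hyq : ∀ τ τ', Pr G τ τ' → y (S.vr 1 τ τ') = q τ τ' := fun τ τ' h =>
    hyC _ ⟨τ, τ', h, rfl⟩
  refine hnq ⟨fun τ => FreeGroup.lift y (Uh τ), fun τ τ' h => ?_⟩
  have h1 := hTφ (τ, τ') (FreeGroup.lift y) ?_
    (fun i hi => hy i (Finset.mem_biUnion.2 ⟨_, Finset.mem_univ _, hi⟩)) h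
  · rw [FreeGroup.lift_apply_of, hyq _ _ h] at h1
    exact h1
  · rintro _ ⟨τ₀, τ₁, τ₂, h0, ht, rfl⟩
    rw [core_tri, core_lift, Setup.triw,
      hyq _ _ ⟨h0, ht.1, ht.2.2.mono ht.2.1.1⟩, hyq _ _ ⟨h0.mono ht.1.1, ht.2.1, ht.2.2⟩,
      hyq _ _ ⟨h0, ht.1.trans ht.2.1, ht.2.2⟩, hq _ _ _ h0 ht, mul_inv_cancel]

end Vale.Agent.P173
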