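import Vale.Agent.P173.CxBasic

/-! A line field on a contractible space has a section over compact sets. -/

universe u w

open Set Topology Filter unitInterval Metric

namespace Vale.Agent.P173

theorem transport {Y W : Type*} [TopologicalSpace Y] [ContractibleSpace Y] [NormedAddCommGroup W]
    [NormedSpace ℂ W] (P : Y → W →L[ℂ] W) (hP : Continuous P) (hid : ∀ y w, P y (P y w) = P y w)
    (hne : ∀ y, P y ≠ 0) {K : Set Y} (hK : IsCompact K) :
    ∃ v : Y → W, Continuous v ∧ (∀ y, P y (v y) = v y) ∧ ∀ y ∈ K, v y ≠ 0 := by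
  obtain ⟨y0, ⟨H⟩⟩ := id_nullhomotopic Y
  have hF : Continuous fun p : I × Y => P (H p) := hP.comp H.continuous
  let S : Set I := {t | ∃ v : Y → W, Continuous v ∧ (∀ y, P (H (t, y)) (v y) = v y) ∧
    ∀ y ∈ K, v y ≠ 0}
  have step : ∀ t t' : I, (∀ y ∈ K, ‖P (H (t, y)) - P (H (t', y))‖ < 1) → t ∈ S → t' ∈ S := by
    rintro t t' h ⟨v, a1, a2, a3⟩
    refine ⟨fun y => P (H (t', y)) (v y), (hF.comp (Continuous.prodMk_right t')).clm_apply a1,
      fun y => hid _ _, fun y hy e => ?_⟩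
    have b1 := (P (H (t, y)) - P (H (t', y))).le_opNorm (v y)
    rw [ContinuousLinearMap.sub_apply, a2, (show P (H (t', y)) (v y) = 0 from e), sub_zero] at b1
    have b2 := norm_pos_iff.mpr (a3 y hy)
    nlinarith [h y hy]
  have near : ∀ t : I, ∀ᶠ t' in 𝓝 t, ∀ y ∈ K, ‖P (H (t, y)) - P (H (t', y))‖ < 1 := by
    intro t
    refine hK.eventually_forall_of_forall_eventually
      (P := fun t' y => ‖P (H (t, y)) - P (H (t', y))‖ < 1) fun y _ => ?_
    have hc : Continuous fun p : I × Y => ‖P (H (t, p.2)) - P (H p)‖ :=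
      ((hF.comp ((Continuous.prodMk_right t).comp continuous_snd)).sub hF).norm
    exact hc.continuousAt.eventually_lt continuousAt_const (by simp)
  have hS : IsClopen S := by
    refine ⟨⟨isOpen_iff_mem_nhds.mpr fun t ht => ?_⟩, isOpen_iff_mem_nhds.mpr fun t ht => ?_⟩
    · filter_upwards [near t] with t' h ht'
      exact ht (step t' t (fun y hy => by rw [norm_sub_rev]; exact h y hy) ht')
    · filter_upwards [near t] with t' h
      exact step t t' h ht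
  obtain ⟨w, hw⟩ : ∃ w, P y0 w ≠ 0 := by
    by_contra h
    push Not at h
    exact hne y0 (ContinuousLinearMap.ext h)
  have h1 : (1 : I) ∈ S := ⟨fun _ => P y0 w, continuous_const, fun y => by
    rw [H.apply_one]; exact hid _ _, fun _ _ => hw⟩
  obtain ⟨v, a1, a2, a3⟩ : (0 : I) ∈ S := hS.eq_univ ⟨1, h1⟩ ▸ mem_univ _
  exact ⟨v, a1, fun y => by simpa using a2 y, a3⟩

/-- the normalised functional of the line through `(z, 1 - ‖z‖)` -/
noncomputable def hopfL (z : ℂ) : ℂ × ℂ →L[ℂ] ℂ :=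
  (((‖z‖ ^ 2 + (1 - ‖z‖) ^ 2 : ℝ) : ℂ))⁻¹ • ((starRingEnd ℂ z) • ContinuousLinearMap.fst ℂ ℂ ℂ +
    ((1 - ‖z‖ : ℝ) : ℂ) • ContinuousLinearMap.snd ℂ ℂ ℂ)

theorem hopf_den (z : ℂ) : (((‖z‖ ^ 2 + (1 - ‖z‖) ^ 2 : ℝ) : ℂ)) ≠ 0 :=
  Complex.ofReal_ne_zero.mpr (by nlinarith [sq_nonneg (2 * ‖z‖ - 1)])

theorem hopfL_cont : Continuous hopfL := by
  unfold hopfL
  exact (Continuous.inv₀ (by fun_prop) hopf_den).smul (by fun_prop)

theorem hopfL_apply (z : ℂ) (w : ℂ × ℂ) : hopfL z w =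
    (((‖z‖ ^ 2 + (1 - ‖z‖) ^ 2 : ℝ) : ℂ))⁻¹ *
      (starRingEnd ℂ z * w.1 + ((1 - ‖z‖ : ℝ) : ℂ) * w.2) := rfl

theorem hopfL_self (z : ℂ) : hopfL z (z, ((1 - ‖z‖ : ℝ) : ℂ)) = 1 := by
  rw [hopfL_apply, Complex.conj_mul', inv_mul_eq_one₀ (hopf_den z)]
  push_cast
  ring

/-- the projection onto the line through `(z, 1 - ‖z‖)` -/
noncomputable def hopfP (z : ℂ) : ℂ × ℂ →L[ℂ] ℂ × ℂ :=
  ContinuousLinearMap.smulRightL ℂ (ℂ × ℂ) (ℂ × ℂ) (hopfL z) (z, ((1 - ‖z‖ : ℝ) : ℂ))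

theorem hopfP_apply (z : ℂ) (w : ℂ × ℂ) :
    hopfP z w = hopfL z w • (z, ((1 - ‖z‖ : ℝ) : ℂ)) := rfl

theorem hopfP_cont : Continuous hopfP :=
  ((ContinuousLinearMap.smulRightL ℂ (ℂ × ℂ) (ℂ × ℂ)).continuous.comp hopfL_cont).clm_apply
    (by fun_prop)

theorem hopfP_sphere {z : ℂ} (hz : ‖z‖ = 1) (w : ℂ × ℂ) : hopfP z w = (w.1, 0) := by
  have h := Complex.conj_mul' z
  rw [hz] at h
  rw [hopfP_apply, hopfL_apply, hz]
  refine Prod.ext ?_ (by simp)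
  simp only [Prod.smul_fst, smul_eq_mul]
  push_cast at h ⊢
  linear_combination w.1 * h

theorem Cx.exists_phi {Y : Type u} [TopologicalSpace Y] [ContractibleSpace Y] (C : Cx.{u, w} Y)
    (f₀ : C.Fa) {K : Set Y} (hK : IsCompact K) (hf : ∀ z : ℂ, ‖z‖ ≤ 1 → C.fa f₀ z ∈ K) :
    ∃ φ : Y → ℂ, Continuous φ ∧ (∀ y ∈ K, (∀ z : ℂ, ‖z‖ < 1 → y ≠ C.fa f₀ z) → φ y ≠ 0) ∧
      ∃ α : ℂ → ℂ, ContinuousOn α (closedBall 0 1) ∧
        ∀ z : ℂ, ‖z‖ ≤ 1 → α z ≠ 0 ∧ φ (C.fa f₀ z) = α z * z := by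
  classical
  let ζ : Y → ℂ := fun y => if h : ∃ z : ℂ, ‖z‖ < 1 ∧ y = C.fa f₀ z then h.choose else 1
  have hout : ∀ y, (∀ z : ℂ, ‖z‖ < 1 → y ≠ C.fa f₀ z) → ζ y = 1 := fun y h =>
    dif_neg fun ⟨z, h1, h2⟩ => h z h1 h2
  have hS : ∀ y ∈ C.S1, ζ y = 1 := fun y hy => hout y fun z hz e =>
    hz.ne ((C.fa_mem_S1_iff f₀ hz.le).mp (e ▸ hy))
  have hin : ∀ z : ℂ, ‖z‖ ≤ 1 → hopfP (ζ (C.fa f₀ z)) = hopfP z := by
    intro z hz
    rcases hz.lt_or_eq with h | h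
    · have h1 : ∃ z' : ℂ, ‖z'‖ < 1 ∧ C.fa f₀ z = C.fa f₀ z' := ⟨z, h, rfl⟩
      have h2 : ζ (C.fa f₀ z) = h1.choose := dif_pos h1
      rw [h2, ← (C.fa_inj _ _ _ _ h h1.choose_spec.1 h1.choose_spec.2).2]
    · rw [hS _ ((C.fa_mem_S1_iff f₀ hz).mpr h)]
      exact ContinuousLinearMap.ext fun w => by rw [hopfP_sphere h, hopfP_sphere norm_one]
  have hcont : Continuous fun y => hopfP (ζ y) := by
    refine continuous_iff_continuousAt.mpr fun y => C.cw2 isOpen_univ _ (fun e t ht _ => ?_)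
      (fun f z hz _ => ?_) y (mem_univ _)
    · exact (continuousWithinAt_const (b := hopfP 1)).congr
        (fun s hs => by rw [hS _ (C.ed_mem_S1 e hs)]) (by rw [hS _ (C.ed_mem_S1 e ht)])
    · by_cases h : f = f₀
      · subst h
        exact hopfP_cont.continuousWithinAt.congr (fun s hs => hin s (mem_closedBall_zero_iff.mp hs))
          (hin z (mem_closedBall_zero_iff.mp hz))
      · have key : ∀ s ∈ closedBall (0 : ℂ) 1, hopfP (ζ (C.fa f s)) = hopfP 1 := by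
          intro s hs
          rcases (mem_closedBall_zero_iff.mp hs).lt_or_eq with h' | h'
          · rw [hout _ fun z' hz' e => h (C.fa_inj _ _ _ _ h' hz' e).1]
          · rw [hS _ ((C.fa_mem_S1_iff f h'.le).mpr h')]
        exact (continuousWithinAt_const (b := hopfP 1)).congr key (key z hz)
  obtain ⟨v, a1, a2, a3⟩ := transport (fun y => hopfP (ζ y)) hcont
    (fun y w => by rw [hopfP_apply (ζ y) w, map_smul, hopfP_apply, hopfL_self, one_smul])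
    (fun y e => by
      have := hopfL_self (ζ y)
      have h2 := hopfP_apply (ζ y) (ζ y, ((1 - ‖ζ y‖ : ℝ) : ℂ))
      rw [this, one_smul, e, ContinuousLinearMap.zero_apply] at h2
      rw [← h2, map_zero] at this
      exact zero_ne_one this) hK
  refine ⟨fun y => (v y).1, a1.fst, fun y hy h e => a3 y hy ?_, fun z => hopfL z (v (C.fa f₀ z)),
    (hopfL_cont.clm_apply (a1.comp (C.fa f₀).continuous)).continuousOn, fun z hz => ?_⟩
  · rw [← a2 y, hout y h, hopfP_sphere norm_one, (show (v y).1 = 0 from e)]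
    rfl
  · have h1 := a2 (C.fa f₀ z)
    rw [hin z hz, hopfP_apply] at h1
    refine ⟨fun e => a3 _ (hf z hz) ?_, (congrArg Prod.fst h1).symm⟩
    rw [← h1, (show hopfL z (v (C.fa f₀ z)) = 0 from e), zero_smul]

end Vale.Agent.P173
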