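import Vale.Agent.P173.CxWord
import Vale.Agent.P173.Hopf

/-! On a contractible complex the boundaries of the faces are independent mod 2. -/

universe u w

open Set Topology Filter unitInterval Metric

namespace Vale.Agent.P173

theorem ind_log {E : Type*} [NormedAddCommGroup E] [NormedSpace ℝ E] {g : E → ℂ}
    (hg : ContinuousOn g (closedBall 0 1)) (h0 : ∀ x, ‖x‖ ≤ 1 → g x ≠ 0) :
    ∃ L : E → ℂ, Continuous L ∧ ∀ x, ‖x‖ ≤ 1 → Complex.exp (L x) = g x := by
  let r : E → E := fun x => (max 1 ‖x‖)⁻¹ • x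
  have hp : ∀ x : E, 0 < max 1 ‖x‖ := fun x => lt_max_of_lt_left one_pos
  have hr : Continuous r := (Continuous.inv₀ (by fun_prop) fun x => (hp x).ne').smul continuous_id
  have hr1 : ∀ x, ‖r x‖ ≤ 1 := fun x => by
    simp only [r, norm_smul, norm_inv, Real.norm_eq_abs, abs_of_pos (hp x)]
    rw [inv_mul_le_iff₀ (hp x), mul_one]
    exact le_max_right _ _
  have hsc : IsSimplyConnected (univ : Set E) := by
    have := (convex_univ (𝕜 := ℝ) (E := E)).contractibleSpace univ_nonempty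
    exact SimplyConnectedSpace.ofContractible _
  have hc : Continuous (g ∘ r) :=
    hg.comp_continuous hr fun x => mem_closedBall_zero_iff.2 (hr1 x)
  obtain ⟨L, hL, hL'⟩ := Complex.exists_continuousOn_eqOn_exp_comp hsc isOpen_univ hc.continuousOn
    (by
      rintro ⟨x, -, hx⟩
      exact h0 _ (hr1 x) hx)
  refine ⟨L, continuousOn_univ.1 hL, fun x hx => ?_⟩
  have := hL' (mem_univ x)
  simpa [r, max_eq_left hx] using this

theorem ind_int {B : Type*} [TopologicalSpace B] {g : B → ℤ} {t : B}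
    (h : ContinuousAt (fun b => (g b : ℂ) * (2 * Real.pi * Complex.I)) t) :
    ∀ᶠ s in 𝓝 t, g s = g t := by
  have h1 : ContinuousAt (fun b => (g b : ℂ)) t := by
    have h2 := h.mul_const (2 * Real.pi * Complex.I)⁻¹
    simpa only [mul_inv_cancel_right₀ Complex.two_pi_I_ne_zero] using h2
  filter_upwards [(Metric.continuousAt_iff'.1 h1) 1 one_pos] with s hs
  rw [dist_eq_norm, ← Int.cast_sub, Complex.norm_intCast, ← Int.cast_abs] at hs
  have h3 : |g s - g t| < 1 := by exact_mod_cast hs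
  exact sub_eq_zero.1 (Int.abs_lt_one_iff.1 h3)

namespace Cx

variable {Y : Type u} [TopologicalSpace Y] (C : Cx.{u, w} Y)

theorem ind_pot (Λ : C.Ed → ℝ → ℂ) (a₀ : C.V → ℂ) (k : C.Ed → ℂ)
    (h1 : ∀ e, Λ e (-1) = a₀ (C.src e)) (h2 : ∀ e, Λ e 1 = a₀ (C.tgt e) + k e) :
    ∃ L : Y → ℂ, (∀ a, L (C.vx a) = a₀ a) ∧ ∀ e, ∀ t ∈ Icc (-1 : ℝ) 1,
      L (C.ed e t) = Λ e t - if 0 ≤ t then k e else 0 := by
  classical
  let L : Y → ℂ := fun y => if h : ∃ p : C.Ed × ℝ, |p.2| < 1 ∧ y = C.ed p.1 p.2 then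
    Λ h.choose.1 h.choose.2 - (if 0 ≤ h.choose.2 then k h.choose.1 else 0) else a₀ (C.vert y)
  have hv : ∀ a, L (C.vx a) = a₀ a := fun a => by
    have : ¬ ∃ p : C.Ed × ℝ, |p.2| < 1 ∧ C.vx a = C.ed p.1 p.2 := by
      rintro ⟨p, hp, h⟩
      exact C.vx_ne_ed a _ _ hp h
    simp only [L, dif_neg this, C.vert_vx]
  refine ⟨L, hv, fun e t ht => ?_⟩
  rcases ht.1.eq_or_lt with rfl | h3
  · rw [C.ed_src, hv, h1]
    norm_num
  rcases ht.2.eq_or_lt with rfl | h4
  · rw [C.ed_tgt, hv, h2]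
    norm_num
  have h5 : |t| < 1 := abs_lt.2 ⟨h3, h4⟩
  have h : ∃ p : C.Ed × ℝ, |p.2| < 1 ∧ C.ed e t = C.ed p.1 p.2 := ⟨(e, t), h5, rfl⟩
  obtain ⟨h6, h7⟩ := C.ed_inj _ _ _ _ h5 h.choose_spec.1 h.choose_spec.2
  simp only [L, dif_pos h, ← h6, ← h7]

theorem ind_wind (Λ : C.Ed → ℝ → ℂ) (hΛ : ∀ e, Continuous (Λ e)) (n : C.Ed → ℤ) (L : Y → ℂ)
    (hL : ∀ e, ∀ t ∈ Icc (-1 : ℝ) 1, L (C.ed e t) =
      Λ e t - if 0 ≤ t then (n e : ℂ) * (2 * Real.pi * Complex.I) else 0)
    (f : C.Fa) (LL : I → ℂ) (hLL : Continuous LL)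
    (he : ∀ t, Complex.exp (LL t) = Complex.exp (L (C.loop f t))) :
    LL 1 - LL 0 = (((FreeGroup.lift (fun e => Multiplicative.ofAdd (n e)) (C.rel f)).toAdd : ℤ) : ℂ)
      * (2 * Real.pi * Complex.I) := by
  set φ := FreeGroup.lift (fun e => Multiplicative.ofAdd (n e)) with hφ
  choose N hN using fun t => Complex.exp_eq_exp_iff_exists_int.1 (he t)
  have hc : ∀ {ψ : Y → ℂ} {t : I}, ContinuousWithinAt ψ C.S1 (C.loop f t) →
      ContinuousAt (fun s => ψ (C.loop f s)) t := fun {ψ t} h =>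
    continuousWithinAt_univ _ _ |>.1 (h.comp (C.loop f).continuous.continuousWithinAt
      fun s _ => C.loop_mem_S1 f s)
  have c1 := C.cw1 C.isClosed_S1_diff_Us L fun e t ht hO => by
    have h0 := (C.ed_mem_Us_iff e ht).1 hO
    refine ContinuousWithinAt.congr_of_eventuallyEq_of_mem (f := fun s => Λ e s -
      if 0 ≤ t then (n e : ℂ) * (2 * Real.pi * Complex.I) else 0)
      ((hΛ e).sub continuous_const).continuousWithinAt ?_ ht
    have h1 : ∀ᶠ s in 𝓝 t, (0 ≤ s ↔ 0 ≤ t) := by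
      rcases h0.lt_or_gt with h | h
      · filter_upwards [Iio_mem_nhds h] with s hs
        exact iff_of_false (not_le.2 hs) (not_le.2 h)
      · filter_upwards [Ioi_mem_nhds h] with s hs
        exact iff_of_true (le_of_lt hs) h.le
    filter_upwards [self_mem_nhdsWithin, mem_nhdsWithin_of_mem_nhds h1] with s hs hs'
    rw [hL e s hs]
    simp only [hs']
  have c2 := C.cw1 C.isClosed_S1_diff_Uo
    (fun y => L y + (((φ (C.lam y)).toAdd : ℤ) : ℂ) * (2 * Real.pi * Complex.I)) fun e t ht hO => by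
    have h0 := (C.ed_mem_Uo_iff e ht).1 hO
    refine ContinuousWithinAt.congr_of_eventuallyEq_of_mem (f := Λ e)
      (hΛ e).continuousWithinAt ?_ ht
    filter_upwards [self_mem_nhdsWithin, mem_nhdsWithin_of_mem_nhds
      (Iio_mem_nhds (abs_lt.1 h0).2)] with s hs hs'
    rw [hL e s hs]
    by_cases h : 0 ≤ s
    · simp [C.lam_ed_pos e h hs', hφ, h]
    · simp [C.lam_ed_neg e hs.1 (not_le.1 h), h]
  have hD : C.Dev1 φ (C.loop f) (fun t => Multiplicative.ofAdd (N t)) := by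
    refine ⟨fun t ht => ?_, fun t ht => ?_⟩
    · have h1 := hLL.continuousAt.sub (hc (c1 _ ⟨C.loop_mem_S1 f t, ht⟩))
      have h2 : ContinuousAt (fun b => (N b : ℂ) * (2 * Real.pi * Complex.I)) t := by
        refine h1.congr (Eventually.of_forall fun s => ?_)
        simp [hN s]
      filter_upwards [ind_int h2] with s hs
      rw [hs]
    · have h1 := hLL.continuousAt.sub (hc (c2 _ ⟨C.loop_mem_S1 f t, ht⟩))
      have h2 : ContinuousAt (fun b => ((N b - (φ (C.lam (C.loop f b))).toAdd : ℤ) : ℂ) *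
          (2 * Real.pi * Complex.I)) t := by
        refine h1.congr (Eventually.of_forall fun s => ?_)
        simp only [Pi.sub_apply, hN s]
        push_cast
        ring
      filter_upwards [ind_int h2] with s hs
      apply Multiplicative.toAdd.injective
      simpa [sub_eq_add_neg] using hs
  have h1 := C.rel_spec φ f hD
  have h2 : C.loop f 1 = C.loop f 0 := by
    simp [loop, Complex.exp_two_pi_mul_I]
  rw [← h1, hN 1, hN 0, h2]
  simp only [toAdd_mul, toAdd_inv, toAdd_ofAdd]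
  push_cast
  ring

theorem dual [ContractibleSpace Y] (S : Finset C.Fa) (f₀ : C.Fa) (h₀ : f₀ ∈ S) :
    ∃ c : C.Ed → Multiplicative (ZMod 2), ∀ f ∈ S, FreeGroup.lift c (C.rel f) = 1 ↔ f ≠ f₀ := by
  classical
  let K₀ : Set Y := ⋃ f ∈ S, C.fa f '' closedBall 0 1
  have hK₀ : IsCompact K₀ := S.finite_toSet.isCompact_biUnion fun f _ =>
    (isCompact_closedBall 0 1).image (C.fa f).continuous
  let B : Set C.Ed := {e | ∃ t, |t| < 1 ∧ C.ed e t ∈ K₀}
  let K : Set Y := K₀ ∪ ⋃ e ∈ B, C.ed e '' Icc (-1) 1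
  have hK : IsCompact K := hK₀.union ((C.finite_edges hK₀).isCompact_biUnion fun e _ =>
    isCompact_Icc.image (C.ed e).continuous)
  have hfK : ∀ f ∈ S, ∀ z : ℂ, ‖z‖ ≤ 1 → C.fa f z ∈ K₀ := fun f hf z hz =>
    mem_biUnion (s := (S : Set C.Fa)) hf ⟨z, mem_closedBall_zero_iff.2 hz, rfl⟩
  obtain ⟨φ, hφ, hφ0, α, hα, hα0⟩ := C.exists_phi f₀ hK fun z hz => Or.inl (hfK _ h₀ z hz)
  have hS1 : ∀ y ∈ K, y ∈ C.S1 → φ y ≠ 0 := fun y hy hy' => hφ0 y hy fun z hz h =>
    hz.ne ((C.fa_mem_S1_iff f₀ hz.le).1 (h ▸ hy'))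
  have hΛ : ∀ e, ∃ (Λ : ℝ → ℂ) (n : ℤ), Continuous Λ ∧ Λ (-1) = Complex.log (φ (C.vx (C.src e))) ∧
      Λ 1 = Complex.log (φ (C.vx (C.tgt e))) + (n : ℂ) * (2 * Real.pi * Complex.I) ∧
      (e ∈ B → ∀ t, |t| ≤ 1 → Complex.exp (Λ t) = φ (C.ed e t)) := fun e => by
    by_cases he : e ∈ B
    · have h1 : ∀ t : ℝ, ‖t‖ ≤ 1 → φ (C.ed e t) ≠ 0 := fun t ht =>
        hS1 _ (Or.inr (mem_biUnion he ⟨t, abs_le.1 ht, rfl⟩)) (C.ed_mem_S1 e (abs_le.1 ht))
      obtain ⟨L, hL, hL'⟩ := ind_log (hφ.comp (C.ed e).continuous).continuousOn h1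
      have h2 := h1 (-1) (by simp)
      have h3 := h1 1 (by simp)
      obtain ⟨m, hm⟩ := Complex.exp_eq_exp_iff_exists_int.1
        ((Complex.exp_log h2).trans (hL' (-1) (by simp)).symm)
      obtain ⟨m', hm'⟩ := Complex.exp_eq_exp_iff_exists_int.1
        ((hL' 1 (by simp)).trans (Complex.exp_log h3).symm)
      refine ⟨fun t => L t + m * (2 * Real.pi * Complex.I), m' + m, by fun_prop, ?_, ?_,
        fun _ t ht => ?_⟩
      · rw [← C.ed_src, hm]
      · rw [← C.ed_tgt]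
        simp only [hm']
        push_cast
        ring
      · rw [Complex.exp_add, Complex.exp_int_mul_two_pi_mul_I, mul_one]
        exact hL' t ht
    · refine ⟨fun t => ((1 - t) * Complex.log (φ (C.vx (C.src e))) +
        (1 + t) * Complex.log (φ (C.vx (C.tgt e)))) / 2, 0, by fun_prop, ?_, ?_,
        fun h => absurd h he⟩ <;> push_cast <;> ring
  choose Λ n hΛ h1 h2 h3 using hΛ
  obtain ⟨L, hLv, hLe⟩ := C.ind_pot Λ (fun a => Complex.log (φ (C.vx a))) _ h1 h2
  have hn : ∀ t : I, ‖Complex.exp (2 * Real.pi * (t : ℝ) * Complex.I)‖ = 1 := fun t => by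
    have := Complex.norm_exp_ofReal_mul_I (2 * Real.pi * (t : ℝ))
    simpa using this
  have hE : ∀ f ∈ S, ∀ t, Complex.exp (L (C.loop f t)) = φ (C.loop f t) := fun f hf t => by
    have h4 : C.loop f t ∈ K₀ := hfK f hf _ (hn t).le
    have h5 := C.loop_mem_S1 f t
    have h6 := hS1 _ (Or.inl h4) h5
    rcases h5 with ⟨a, ha⟩ | ⟨e, s, hs, ha⟩ <;> rw [ha] at h4 h6 ⊢
    · rw [hLv, Complex.exp_log h6]
    · rw [hLe e s (abs_le.1 hs.le), Complex.exp_sub, h3 e ⟨s, hs, h4⟩ s hs.le]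
      split_ifs <;> simp [Complex.exp_int_mul_two_pi_mul_I]
  let ρ : Multiplicative ℤ →* Multiplicative (ZMod 2) :=
    AddMonoidHom.toMultiplicative (Int.castAddHom (ZMod 2))
  refine ⟨fun e => ρ (Multiplicative.ofAdd (n e)), fun f hf => ?_⟩
  have h7 : FreeGroup.lift (fun e => ρ (Multiplicative.ofAdd (n e))) =
      ρ.comp (FreeGroup.lift fun e => Multiplicative.ofAdd (n e)) := by
    ext e
    simp
  rw [h7, MonoidHom.comp_apply]
  have hc : Continuous fun t : I => Complex.exp (2 * Real.pi * (t : ℝ) * Complex.I) := by fun_prop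
  by_cases h : f = f₀
  · subst h
    obtain ⟨A, hA, hA'⟩ := ind_log hα fun z hz => (hα0 z hz).1
    have h8 := C.ind_wind Λ hΛ n L hLe f (fun t => A (Complex.exp (2 * Real.pi * (t : ℝ) * Complex.I))
      + 2 * Real.pi * (t : ℝ) * Complex.I) (by fun_prop) fun t => by
        rw [hE f hf, Complex.exp_add, hA' _ (hn t).le]
        exact ((hα0 _ (hn t).le).2).symm
    have h9 : (FreeGroup.lift (fun e => Multiplicative.ofAdd (n e)) (C.rel f)).toAdd = 1 := by
      have h10 := mul_right_cancel₀ Complex.two_pi_I_ne_zero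
        (h8.symm.trans (b := _) (c := ((1 : ℤ) : ℂ) * (2 * Real.pi * Complex.I))
          (by simp [Complex.exp_two_pi_mul_I]))
      exact_mod_cast h10
    rw [← ofAdd_toAdd (FreeGroup.lift _ _), h9]
    simp only [ne_eq, not_true_eq_false, iff_false]
    decide
  · obtain ⟨A, hA, hA'⟩ := ind_log (hφ.comp (C.fa f).continuous).continuousOn fun z hz =>
      hφ0 _ (Or.inl (hfK f hf z hz)) fun z' hz' h' => by
        rcases hz.eq_or_lt with h11 | h11
        · exact hz'.ne ((C.fa_mem_S1_iff f₀ hz'.le).1 (h' ▸ (C.fa_mem_S1_iff f hz).2 h11))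
        · exact h (C.fa_inj _ _ _ _ h11 hz' h').1
    have h8 := C.ind_wind Λ hΛ n L hLe f
      (fun t => A (Complex.exp (2 * Real.pi * (t : ℝ) * Complex.I))) (by fun_prop) fun t => by
        rw [hE f hf, hA' _ (hn t).le]
        rfl
    have h9 : (FreeGroup.lift (fun e => Multiplicative.ofAdd (n e)) (C.rel f)).toAdd = 0 := by
      have h10 := mul_right_cancel₀ Complex.two_pi_I_ne_zero
        (h8.symm.trans (b := _) (c := ((0 : ℤ) : ℂ) * (2 * Real.pi * Complex.I))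
          (by simp [Complex.exp_two_pi_mul_I]))
      exact_mod_cast h10
    rw [← ofAdd_toAdd (FreeGroup.lift _ _), h9]
    simp [h]

end Cx

end Vale.Agent.P173
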