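import Vale.Agent.P173.CxFlat
import Vale.Agent.P173.CxIndep

/-! The combinatorial complex of a contractible covering. -/

universe u v w w'

open Set Topology

namespace Vale.Agent.P173

variable {X : Type u} {E : Type v} [TopologicalSpace X] [TopologicalSpace E]
  {C : Cx.{u, w} X} {C' : Cx.{v, w'} E} {p : E → X}

theorem cvc_orbit (hp : IsCoveringMap p) [SimplyConnectedSpace E] {b y : X} (x₀ : p ⁻¹' {b}) :
    Function.Bijective fun γ : Path.Homotopic.Quotient b y => hp.monodromy γ x₀ := by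
  constructor
  · intro γ γ' h
    have key : ∀ (δ : Path.Homotopic.Quotient b y) (x : p ⁻¹' {y}), hp.monodromy δ x₀ = x →
        ∃ Γ : Path.Homotopic.Quotient x₀.1 x.1, Γ.map ⟨p, hp.continuous⟩ = δ.cast x₀.2 x.2 := by
      rintro δ _ rfl
      exact ⟨_, hp.map_liftPathQuotient δ x₀⟩
    obtain ⟨Γ, h1⟩ := key γ _ h
    obtain ⟨Γ', h2⟩ := key γ' _ rfl
    rw [Subsingleton.elim Γ Γ', h2] at h1
    exact eq_of_heq ((γ.cast_heq ..).symm.trans ((heq_of_eq h1.symm).trans (γ'.cast_heq ..)))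
  · obtain ⟨x₀, rfl⟩ := x₀
    rintro ⟨x, rfl⟩
    exact ⟨_, hp.monodromy_map (.mk (PathConnectedSpace.somePath x₀ x))⟩

/-- The characteristic path of an edge as a path between its ends. -/
noncomputable def cvcPath (C : Cx.{u, w} X) (e : C.Ed) : Path (C.ed e (-1)) (C.ed e 1) :=
  ⟨C.epath e, by simp [Cx.epath], by
    change C.ed e (2 * 1 - 1) = _
    norm_num⟩

/-- Coordinates on the vertices of the universal cover. -/
theorem exists_coord (hp : IsCoveringMap p) (hs : Function.Surjective p) (cc : CellCov C C' p)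
    [SimplyConnectedSpace E] :
    ∃ (co : C'.V → (FundamentalGroup X (C.vx C.v0))ᵐᵒᵖ)
      (μ : C.Ed → (FundamentalGroup X (C.vx C.v0))ᵐᵒᵖ),
      (∀ e, co (C'.tgt e) = co (C'.src e) * μ (cc.pE e)) ∧
      (∀ a b, cc.pV a = cc.pV b → co a = co b → a = b) ∧
      (∀ g (a : C'.V), ∃ b, cc.pV b = cc.pV a ∧ co b = g) := by
  let x₀ : p ⁻¹' {C.vx C.v0} := ⟨C'.vx C'.v0, (cc.hv _).trans (congrArg C.vx cc.h0)⟩
  have hκ : ∀ y : X, Nonempty (Path.Homotopic.Quotient (C.vx C.v0) y) := fun y => by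
    obtain ⟨x, rfl⟩ := hs y
    obtain ⟨γ, -⟩ := (cvc_orbit hp (y := p x) x₀).2 ⟨x, rfl⟩
    exact ⟨γ⟩
  let κ : ∀ y : X, Path.Homotopic.Quotient (C.vx C.v0) y := fun y => (hκ y).some
  have hb : ∀ y : X, Function.Bijective fun g : Path.Homotopic.Quotient (C.vx C.v0) (C.vx C.v0) =>
      hp.monodromy (g.trans (κ y)) x₀ := fun y => by
    simp only [hp.monodromy_trans_apply]
    exact (hp.monodromy_bijective (κ y)).comp (cvc_orbit hp x₀)
  choose cg hcg using fun x : E => (hb (p x)).2 ⟨x, rfl⟩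
  have hch : ∀ (y : X) (x : p ⁻¹' {y}) g, hp.monodromy (g.trans (κ y)) x₀ = x ↔ g = cg x.1 := by
    rintro _ ⟨x, rfl⟩ g
    exact ⟨fun h => (hb _).1 (h.trans (hcg x).symm), fun h => h ▸ hcg x⟩
  refine ⟨fun a => MulOpposite.op (cg (C'.vx a)), fun e => MulOpposite.op
    (((κ _).trans (.mk (cvcPath C e))).trans (κ _).symm), fun e => ?_, fun a b h h' => ?_,
    fun g a => ?_⟩
  · dsimp only
    rw [← MulOpposite.op_mul, FundamentalGroup.mul_def, ← C'.ed_src, ← C'.ed_tgt]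
    refine congrArg MulOpposite.op ((hch _ ⟨_, cc.he e 1⟩ _).1 ?_).symm
    have h1 := (hch _ ⟨_, cc.he e (-1)⟩ _).2 rfl
    rw [Path.Homotopic.Quotient.trans_assoc, Path.Homotopic.Quotient.trans_assoc,
      Path.Homotopic.Quotient.symm_trans, Path.Homotopic.Quotient.trans_refl,
      ← Path.Homotopic.Quotient.trans_assoc, hp.monodromy_trans_apply, h1]
    have h2 := (hp.eq_liftPath_iff' (γ := C.epath (cc.pE e)) (e := C'.ed e (-1))
      ((cvcPath C _).source.trans (cc.he e (-1)).symm) (Γ := C'.epath e)).2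
      ⟨funext fun t => cc.he e _, (cvcPath C' e).source⟩
    exact Subtype.ext ((DFunLike.congr_fun h2 1).symm.trans (cvcPath C' e).target)
  · have h1 := (hch _ ⟨_, cc.hv a⟩ _).2 rfl
    have h2 := (hch _ ⟨_, (cc.hv b).trans (congrArg C.vx h.symm)⟩ _).2 (MulOpposite.op_injective h')
    exact C'.vx_inj (congrArg Subtype.val (h1.symm.trans h2))
  · obtain ⟨b, hb⟩ := cc.liftV _ _ (hp.monodromy (g.unop.toPath.trans (κ (C.vx (cc.pV a)))) x₀).2
    refine ⟨b, C.vx_inj ?_, ?_⟩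
    · rw [← cc.hv, hb]; exact Subtype.prop (hp.monodromy _ x₀)
    · dsimp only
      rw [hb, ← (hch _ _ _).1 rfl]; rfl

namespace CellCov

variable (cc : CellCov C C' p)

theorem cvc_src (e : C'.Ed) : cc.pV (C'.src e) = C.src (cc.pE e) :=
  C.vx_inj (by rw [← cc.hv, ← C'.ed_src, cc.he, C.ed_src])

theorem cvc_tgt (e : C'.Ed) : cc.pV (C'.tgt e) = C.tgt (cc.pE e) :=
  C.vx_inj (by rw [← cc.hv, ← C'.ed_tgt, cc.he, C.ed_tgt])

theorem cvc_lam {x : E} (hx : x ∈ C'.S1) : FreeGroup.map cc.pE (C'.lam x) = C.lam (p x) := by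
  rcases hx with ⟨a, rfl⟩ | ⟨e, t, ht, rfl⟩
  · rw [cc.hv, Cx.lam_vx, Cx.lam_vx, map_one]
  · rw [cc.he]
    obtain ⟨h1, h2⟩ := abs_lt.1 ht
    rcases lt_or_ge t 0 with h | h
    · rw [Cx.lam_ed_neg _ _ h1.le h, Cx.lam_ed_neg _ _ h1.le h, map_one]
    · rw [Cx.lam_ed_pos _ _ h h2, Cx.lam_ed_pos _ _ h h2, FreeGroup.map.of]

theorem cvc_rel (f : C'.Fa) : FreeGroup.map cc.pE (C'.rel f) = C.rel (cc.pF f) := by
  obtain ⟨D, h1, h2⟩ := C'.exists_dev1 (FreeGroup.map cc.pE) (C'.loop f) (C'.loop_mem_S1 f)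
  have e : ∀ t, C.loop (cc.pF f) t = p (C'.loop f t) := fun t => (cc.hf f _).symm
  rw [← C'.rel_spec _ f ⟨h1, h2⟩]
  refine C.rel_spec (MonoidHom.id _) _ ⟨fun t ht => h1 t ?_, fun t ht => ?_⟩
  · rw [mem_preimage, e] at ht
    rcases ht with ⟨a, ha⟩ | ⟨e, s, hs, hs', h⟩
    · obtain ⟨a', ha'⟩ := cc.liftV _ _ ha
      exact Or.inl ⟨a', ha'.symm⟩
    · obtain ⟨e', -, he'⟩ := cc.liftE _ _ _ h
      exact Or.inr ⟨e', s, hs, hs', he'.symm⟩
  · rw [mem_preimage, e] at ht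
    obtain ⟨e₁, s, hs, h⟩ := ht
    obtain ⟨e', -, he'⟩ := cc.liftE _ _ _ h
    have := h2 t ⟨e', s, hs, he'.symm⟩
    simpa only [cc.cvc_lam (C'.loop_mem_S1 f _), MonoidHom.id_apply, e] using this

theorem cvc_path {Γ : Type*} [Group Γ] {co : C'.V → Γ} {μ : C.Ed → Γ}
    (h : ∀ e, co (C'.tgt e) = co (C'.src e) * μ (cc.pE e)) {a b : C'.V} {w : FreeGroup C'.Ed}
    (hw : IsPath C'.src C'.tgt a w b) :
    IsPath C.src C.tgt (cc.pV a) (FreeGroup.map cc.pE w) (cc.pV b) ∧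
      co b = co a * FreeGroup.lift μ (FreeGroup.map cc.pE w) := by
  induction hw with
  | refl => exact ⟨by simpa using IsPath.refl _, by simp⟩
  | fwd e _ ih =>
    rw [map_mul, FreeGroup.map.of, cc.cvc_tgt, map_mul, FreeGroup.lift_apply_of, ← mul_assoc,
      ← ih.2, h]
    exact ⟨IsPath.fwd _ (cc.cvc_src e ▸ ih.1), rfl⟩
  | bwd e _ ih =>
    rw [map_mul, map_inv, FreeGroup.map.of, cc.cvc_src, map_mul, map_inv, FreeGroup.lift_apply_of,
      ← mul_assoc, ← ih.2, h]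
    exact ⟨IsPath.bwd _ (cc.cvc_tgt e ▸ ih.1), by simp⟩

theorem cvc_ev {Γ P : Type*} [Group Γ] [Group P] {co : C'.V → Γ} {μ : C.Ed → Γ}
    (h : ∀ e, co (C'.tgt e) = co (C'.src e) * μ (cc.pE e)) (lab : Γ → C.Ed → P) {a b : C'.V}
    {w : FreeGroup C'.Ed} (hw : IsPath C'.src C'.tgt a w b) :
    FreeGroup.lift (fun e => lab (co (C'.src e)) (cc.pE e)) w =
      ev μ lab (co a) (FreeGroup.map cc.pE w) := by
  induction hw with
  | refl => simp
  | fwd e hw ih =>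
    rw [map_mul, map_mul, ev_mul, ih, ← (cc.cvc_path h hw).2]; simp
  | bwd e hw ih =>
    rw [map_mul, map_mul, ev_mul, ih, ← (cc.cvc_path h hw).2, map_inv, map_inv, ev_inv, h]; simp

end CellCov

theorem exists_cov (hp : IsCoveringMap p) (hs : Function.Surjective p) (cc : CellCov C C' p)
    [ContractibleSpace E] : Nonempty (Cov.{w, u} (FundamentalGroup X (C.vx C.v0))ᵐᵒᵖ) := by
  classical
  obtain ⟨co, μ, h1, h2, h3⟩ := exists_coord hp hs cc
  have hV : ∀ g a, ∃ b, cc.pV b = a ∧ co b = g := fun g a => by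
    obtain ⟨x, hx⟩ := hs (C.vx a)
    obtain ⟨a', rfl⟩ := cc.liftV x a hx
    obtain ⟨b, hb, hb'⟩ := h3 g a'
    exact ⟨b, hb.trans (C.vx_inj ((cc.hv a').symm.trans hx)), hb'⟩
  choose lv lv1 lv2 using hV
  have hE : ∀ g e, ∃ e', cc.pE e' = e ∧ C'.src e' = lv g (C.src e) := fun g e => by
    obtain ⟨e', h, h'⟩ := cc.liftE (C'.vx (lv g (C.src e))) e (-1) (by rw [cc.hv, lv1, C.ed_src])
    exact ⟨e', h, C'.vx_inj ((C'.ed_src e').symm.trans h')⟩
  choose le le1 le2 using hE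
  have hF : ∀ y : _ × C.Fa, ∃ f', cc.pF f' = y.2 ∧ co (C'.bs f') = y.1 := fun ⟨g, f⟩ => by
    rcases C.fa_bd f 1 (by simp) with ⟨a, ha⟩ | ⟨e, t, ht, h⟩
    · obtain ⟨f', hf, hf'⟩ := cc.liftF (C'.vx (lv g a)) f 1 (by rw [cc.hv, lv1, ha])
      exact ⟨f', hf, by rw [Cx.bs, hf', Cx.vert_vx, lv2]⟩
    · obtain ⟨t1, t2⟩ := abs_lt.1 ht
      rcases lt_or_ge t 0 with h0 | h0
      · obtain ⟨f', hf, hf'⟩ := cc.liftF (C'.ed (le g e) t) f 1 (by rw [cc.he, le1, h])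
        exact ⟨f', hf, by rw [Cx.bs, hf', Cx.vert_ed_neg _ _ t1.le h0, le2, lv2]⟩
      · obtain ⟨f', hf, hf'⟩ := cc.liftF (C'.ed (le (g * (μ e)⁻¹) e) t) f 1 (by rw [cc.he, le1, h])
        exact ⟨f', hf, by
          rw [Cx.bs, hf', Cx.vert_ed_pos _ _ h0 t2.le, h1, le2, lv2, le1, inv_mul_cancel_right]⟩
  choose lf lf1 lf2 using hF
  refine ⟨{ V := C.V, Ed := C.Ed, Fa := C.Fa, src := C.src, tgt := C.tgt, μ := μ, rel := C.rel
            b := C.bs, v0 := C.v0, path_rel := C.path_rel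
            mu_rel := fun f => ?_, conn := fun g a => ?_, flat := fun P _ lab h => ?_
            dual := fun S y₀ h₀ => ?_ }⟩
  · have := (cc.cvc_path h1 (C'.path_rel (lf (1, f)))).2
    rw [cc.cvc_rel, lf1] at this
    exact left_eq_mul.1 this
  · obtain ⟨w, hw⟩ := C'.conn C'.v0 (lv (co C'.v0 * g) a)
    obtain ⟨h4, h5⟩ := cc.cvc_path h1 hw
    rw [cc.h0, lv1] at h4
    rw [lv2] at h5
    exact ⟨_, h4, (mul_left_cancel h5).symm⟩
  · obtain ⟨U, hU⟩ := C'.pot_of_flat (fun e => lab (co (C'.src e)) (cc.pE e)) fun f => by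
      rw [cc.cvc_ev h1 lab (C'.path_rel f), cc.cvc_rel, h]
    refine ⟨fun g a => U (lv g a), fun g e => ?_⟩
    have h4 : C'.tgt (le g e) = lv (g * μ e) (C.tgt e) :=
      h2 _ _ (by rw [cc.cvc_tgt, le1, lv1]) (by rw [h1, le2, lv2, lv2, le1])
    have := hU (le g e)
    rwa [h4, le2, lv2, le1] at this
  · have hinj : Function.Injective lf := fun y y' h =>
      Prod.ext (by rw [← lf2, h, lf2]) (by rw [← lf1, h, lf1])
    obtain ⟨c, hc⟩ := C'.dual (S.image lf) (lf y₀) (Finset.mem_image_of_mem _ h₀)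
    refine ⟨fun g e => c (le g e), fun y hy => ?_⟩
    have h4 : (fun e => c (le (co (C'.src e)) (cc.pE e))) = c := funext fun e => by
      refine congrArg c (cc.uniqE _ _ (-1) (le1 _ _) ?_)
      rw [C'.ed_src, C'.ed_src, le2]
      exact congrArg C'.vx (h2 _ _ (by rw [lv1, cc.cvc_src]) (lv2 _ _))
    have h5 := cc.cvc_ev h1 (fun g e => c (le g e)) (C'.path_rel (lf y))
    rw [h4, cc.cvc_rel, lf1, lf2] at h5
    rw [← h5, hc _ (Finset.mem_image_of_mem _ hy)]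
    exact hinj.ne_iff

end Vale.Agent.P173
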