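import Vale.Agent.P173.TDefs

/-! The weak topology of a cell complex. -/

universe u w

open Set Topology Filter unitInterval Metric

namespace Vale.Agent.P173.Cx

variable {Y : Type u} [TopologicalSpace Y] (C : Cx.{u, w} Y)

theorem lam_vx (a : C.V) : C.lam (C.vx a) = 1 := by
  refine dif_neg ?_
  rintro ⟨p, h1, h2, h3⟩
  exact C.vx_ne_ed a p.1 p.2 (abs_lt.2 ⟨by linarith, h2⟩) h3

theorem lam_ed_neg (e : C.Ed) {t : ℝ} (h1 : -1 ≤ t) (h2 : t < 0) : C.lam (C.ed e t) = 1 := by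
  rcases h1.eq_or_lt with rfl | h1
  · rw [C.ed_src, lam_vx]
  · refine dif_neg ?_
    rintro ⟨p, h3, h4, h5⟩
    have := (C.ed_inj e p.1 t p.2 (abs_lt.2 ⟨h1, by linarith⟩) (abs_lt.2 ⟨by linarith, h4⟩) h5).2
    linarith

theorem lam_ed_pos (e : C.Ed) {t : ℝ} (h1 : 0 ≤ t) (h2 : t < 1) :
    C.lam (C.ed e t) = FreeGroup.of e := by
  have h : ∃ p : C.Ed × ℝ, 0 ≤ p.2 ∧ p.2 < 1 ∧ C.ed e t = C.ed p.1 p.2 := ⟨(e, t), h1, h2, rfl⟩
  obtain ⟨h3, h4, h5⟩ := h.choose_spec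
  rw [lam, dif_pos h,
    ← (C.ed_inj _ _ _ _ (abs_lt.2 ⟨by linarith, h2⟩) (abs_lt.2 ⟨by linarith, h4⟩) h5).1]

theorem vert_vx (a : C.V) : C.vert (C.vx a) = a := by
  have h : ∃ b, C.vx a = C.vx b := ⟨a, rfl⟩
  rw [vert, dif_pos h]
  exact (C.vx_inj h.choose_spec).symm

theorem cxb_vert_ed (e : C.Ed) {t : ℝ} (h : |t| < 1) :
    C.vert (C.ed e t) = if t < 0 then C.src e else C.tgt e := by
  have h1 : ¬ ∃ a, C.ed e t = C.vx a := fun ⟨a, ha⟩ => C.vx_ne_ed a e t h ha.symm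
  have h2 : ∃ p : C.Ed × ℝ, |p.2| < 1 ∧ C.ed e t = C.ed p.1 p.2 := ⟨(e, t), h, rfl⟩
  obtain ⟨h3, h4⟩ := C.ed_inj _ _ _ _ h h2.choose_spec.1 h2.choose_spec.2
  rw [vert, dif_neg h1, dif_pos h2, ← h3, ← h4]

theorem vert_ed_neg (e : C.Ed) {t : ℝ} (h1 : -1 ≤ t) (h2 : t < 0) :
    C.vert (C.ed e t) = C.src e := by
  rcases h1.eq_or_lt with rfl | h1
  · rw [C.ed_src, vert_vx]
  · rw [cxb_vert_ed C e (abs_lt.2 ⟨h1, by linarith⟩), if_pos h2]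

theorem vert_ed_pos (e : C.Ed) {t : ℝ} (h1 : 0 ≤ t) (h2 : t ≤ 1) :
    C.vert (C.ed e t) = C.tgt e := by
  rcases h2.eq_or_lt with rfl | h2
  · rw [C.ed_tgt, vert_vx]
  · rw [cxb_vert_ed C e (abs_lt.2 ⟨by linarith, h2⟩), if_neg (not_lt.2 h1)]

theorem cxb_cases (e : C.Ed) {t : ℝ} (h : t ∈ Icc (-1 : ℝ) 1) :
    (∃ a, C.ed e t = C.vx a) ∨ |t| < 1 := by
  rcases h.1.eq_or_lt with rfl | h1
  · exact Or.inl ⟨_, C.ed_src e⟩
  · rcases h.2.eq_or_lt with rfl | h2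
    · exact Or.inl ⟨_, C.ed_tgt e⟩
    · exact Or.inr (abs_lt.2 ⟨h1, h2⟩)

theorem ed_mem_S1 (e : C.Ed) {t : ℝ} (h : t ∈ Icc (-1 : ℝ) 1) : C.ed e t ∈ C.S1 :=
  (cxb_cases C e h).imp id fun h1 => ⟨e, t, h1, rfl⟩

theorem ed_mem_Us_iff (e : C.Ed) {t : ℝ} (h : t ∈ Icc (-1 : ℝ) 1) : C.ed e t ∈ C.Us ↔ t ≠ 0 := by
  constructor
  · rintro (⟨a, ha⟩ | ⟨e', t', h1, h2, h3⟩) rfl
    · exact C.vx_ne_ed a e 0 (by simp) ha.symm
    · exact h2 (C.ed_inj _ _ _ _ (by simp) h1 h3).2.symm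
  · exact fun h0 => (cxb_cases C e h).imp id fun h1 => ⟨e, t, h1, h0, rfl⟩

theorem ed_mem_Uo_iff (e : C.Ed) {t : ℝ} (h : t ∈ Icc (-1 : ℝ) 1) : C.ed e t ∈ C.Uo ↔ |t| < 1 := by
  constructor
  · rintro ⟨e', t', h1, h2⟩
    rcases cxb_cases C e h with ⟨a, ha⟩ | h3
    · exact absurd (ha.symm.trans h2) (C.vx_ne_ed a e' t' h1)
    · exact h3
  · exact fun h1 => ⟨e, t, h1, rfl⟩

theorem fa_mem_S1_iff (f : C.Fa) {z : ℂ} (h : ‖z‖ ≤ 1) : C.fa f z ∈ C.S1 ↔ ‖z‖ = 1 := by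
  constructor
  · intro h1
    refine h.eq_or_lt.resolve_right fun h2 => ?_
    rcases h1 with ⟨a, ha⟩ | ⟨e, t, h3, h4⟩
    · exact C.vx_ne_fa a f z h2 ha.symm
    · exact C.ed_ne_fa e t f z h3 h2 h4.symm
  · exact C.fa_bd f z

theorem Us_union_Uo : C.Us ∪ C.Uo = C.S1 := by
  ext y
  constructor
  · rintro ((h | ⟨e, t, h1, -, h2⟩) | h)
    · exact Or.inl h
    · exact Or.inr ⟨e, t, h1, h2⟩
    · exact Or.inr h
  · rintro (h | h)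
    · exact Or.inl (Or.inl h)
    · exact Or.inr h

theorem loop_mem_S1 (f : C.Fa) (t : I) : C.loop f t ∈ C.S1 := by
  refine C.fa_bd f _ ?_
  have := Complex.norm_exp_ofReal_mul_I (2 * Real.pi * (t : ℝ))
  push_cast at this
  exact this

theorem epath_mem_S1 (e : C.Ed) (t : I) : C.epath e t ∈ C.S1 :=
  ed_mem_S1 C e ⟨by linarith [t.2.1], by linarith [t.2.2]⟩

theorem isClosed_S1 : IsClosed C.S1 := by
  refine C.wt1 _ (fun _ h => h) fun e => ?_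
  have : C.ed e ⁻¹' C.S1 ∩ Icc (-1) 1 = Icc (-1) 1 :=
    inter_eq_right.2 fun t ht => ed_mem_S1 C e ht
  rw [this]
  exact isClosed_Icc

theorem isClosed_S1_diff_Us : IsClosed (C.S1 \ C.Us) := by
  refine C.wt1 _ (fun _ h => h.1) fun e => Set.Subsingleton.isClosed fun t ht s hs => ?_
  rw [not_not.1 (mt (ed_mem_Us_iff C e ht.2).2 ht.1.2),
    not_not.1 (mt (ed_mem_Us_iff C e hs.2).2 hs.1.2)]

theorem isClosed_S1_diff_Uo : IsClosed (C.S1 \ C.Uo) := by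
  refine C.wt1 _ (fun _ h => h.1) fun e => ?_
  have : C.ed e ⁻¹' (C.S1 \ C.Uo) ∩ Icc (-1) 1 = {t : ℝ | 1 ≤ |t|} ∩ Icc (-1) 1 := by
    ext t
    refine and_congr_left fun ht => ⟨fun h => ?_, fun h => ⟨ed_mem_S1 C e ht, fun h1 => ?_⟩⟩
    · exact not_lt.1 (mt (ed_mem_Uo_iff C e ht).2 h.2)
    · exact not_lt.2 h ((ed_mem_Uo_iff C e ht).1 h1)
  rw [this]
  exact (isClosed_le continuous_const continuous_abs).inter isClosed_Icc

theorem cxb_closed {X : Type*} [TopologicalSpace X] {K N : Set X} (hK : IsClosed K)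
    (h : ∀ t ∈ K, t ∈ N → ∀ᶠ s in 𝓝[K] t, s ∈ N) : IsClosed (Nᶜ ∩ K) := by
  rw [← isOpen_compl_iff, isOpen_iff_mem_nhds]
  intro t ht
  by_cases h1 : t ∈ K
  · have h2 : t ∈ N := by_contra fun h2 => ht ⟨h2, h1⟩
    filter_upwards [eventually_nhdsWithin_iff.1 (h t h1 h2)] with s hs h3
    exact h3.1 (hs h3.2)
  · filter_upwards [hK.isOpen_compl.mem_nhds h1] with s hs h3
    exact hs h3.2

theorem cw1 {Z : Type*} [TopologicalSpace Z] {O : Set Y} (hO : IsClosed (C.S1 \ O)) (ψ : Y → Z)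
    (h : ∀ e, ∀ t ∈ Icc (-1 : ℝ) 1, C.ed e t ∈ O →
      ContinuousWithinAt (fun s => ψ (C.ed e s)) (Icc (-1) 1) t) :
    ∀ y ∈ C.S1 ∩ O, ContinuousWithinAt ψ C.S1 y := by
  intro y hy
  refine (tendsto_nhds (f := ψ)).2 fun W hW hyW => ?_
  have hA : IsClosed (C.S1 \ (O ∩ ψ ⁻¹' W)) := by
    refine C.wt1 _ (fun _ h => h.1) fun e => ?_
    have e1 : C.ed e ⁻¹' (C.S1 \ (O ∩ ψ ⁻¹' W)) ∩ Icc (-1) 1 =
        (C.ed e ⁻¹' (O ∩ ψ ⁻¹' W))ᶜ ∩ Icc (-1) 1 := by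
      ext t
      exact and_congr_left fun ht => ⟨fun h => h.2, fun h => ⟨ed_mem_S1 C e ht, h⟩⟩
    rw [e1]
    refine cxb_closed isClosed_Icc fun t ht hN => ?_
    have h1 : ∀ᶠ s in 𝓝 t, C.ed e s ∈ (C.S1 \ O)ᶜ :=
      (C.ed e).continuous.continuousAt.eventually_mem
        (hO.isOpen_compl.mem_nhds fun h2 => h2.2 hN.1)
    filter_upwards [(h e t ht hN.1).eventually (hW.mem_nhds hN.2), nhdsWithin_le_nhds h1,
      self_mem_nhdsWithin] with s h2 h3 h4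
    exact ⟨by_contra fun h5 => h3 ⟨ed_mem_S1 C e h4, h5⟩, h2⟩
  filter_upwards [nhdsWithin_le_nhds (hA.isOpen_compl.mem_nhds fun h2 => h2.2 ⟨hy.2, hyW⟩),
    self_mem_nhdsWithin] with s h2 h3
  exact (by_contra fun h4 => h2 ⟨h3, h4⟩ : s ∈ O ∩ ψ ⁻¹' W).2

theorem cw2 {Z : Type*} [TopologicalSpace Z] {O : Set Y} (hO : IsOpen O) (ψ : Y → Z)
    (h1 : ∀ e, ∀ t ∈ Icc (-1 : ℝ) 1, C.ed e t ∈ O →
      ContinuousWithinAt (fun s => ψ (C.ed e s)) (Icc (-1) 1) t)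
    (h2 : ∀ f, ∀ z ∈ closedBall (0 : ℂ) 1, C.fa f z ∈ O →
      ContinuousWithinAt (fun s => ψ (C.fa f s)) (closedBall 0 1) z) :
    ∀ y ∈ O, ContinuousAt ψ y := by
  intro y hy
  refine (tendsto_nhds (f := ψ)).2 fun W hW hyW => ?_
  have hA : IsClosed (O ∩ ψ ⁻¹' W)ᶜ := by
    refine C.wt2 _ (fun e => ?_) fun f => ?_
    · refine cxb_closed (N := C.ed e ⁻¹' (O ∩ ψ ⁻¹' W)) isClosed_Icc fun t ht hN => ?_
      filter_upwards [(h1 e t ht hN.1).eventually (hW.mem_nhds hN.2), nhdsWithin_le_nhds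
        ((C.ed e).continuous.continuousAt.eventually_mem (hO.mem_nhds hN.1))] with s h3 h4
      exact ⟨h4, h3⟩
    · refine cxb_closed (N := C.fa f ⁻¹' (O ∩ ψ ⁻¹' W)) isClosed_closedBall fun t ht hN => ?_
      filter_upwards [(h2 f t ht hN.1).eventually (hW.mem_nhds hN.2), nhdsWithin_le_nhds
        ((C.fa f).continuous.continuousAt.eventually_mem (hO.mem_nhds hN.1))] with s h3 h4
      exact ⟨h4, h3⟩
  filter_upwards [(isClosed_compl_iff.1 hA).mem_nhds ⟨hy, hyW⟩] with s hs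
  exact hs.2

theorem lc1 {α : Type*} {O : Set Y} (hO : IsClosed (C.S1 \ O)) (ψ : Y → α)
    (h : ∀ e, ∀ t ∈ Icc (-1 : ℝ) 1, C.ed e t ∈ O →
      ∀ᶠ s in 𝓝[Icc (-1) 1] t, ψ (C.ed e s) = ψ (C.ed e t)) :
    ∀ y ∈ C.S1 ∩ O, ∀ᶠ y' in 𝓝[C.S1] y, ψ y' = ψ y := by
  let _ : TopologicalSpace α := ⊥
  have : DiscreteTopology α := ⟨rfl⟩
  intro y hy
  have := cw1 C hO ψ (fun e t ht hO => by
    rw [ContinuousWithinAt, nhds_discrete α, tendsto_pure]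
    exact h e t ht hO) y hy
  rwa [ContinuousWithinAt, nhds_discrete α, tendsto_pure] at this

theorem lc2 {α : Type*} {O : Set Y} (hO : IsOpen O) (ψ : Y → α)
    (h1 : ∀ e, ∀ t ∈ Icc (-1 : ℝ) 1, C.ed e t ∈ O →
      ∀ᶠ s in 𝓝[Icc (-1) 1] t, ψ (C.ed e s) = ψ (C.ed e t))
    (h2 : ∀ f, ∀ z ∈ closedBall (0 : ℂ) 1, C.fa f z ∈ O →
      ∀ᶠ s in 𝓝[closedBall 0 1] z, ψ (C.fa f s) = ψ (C.fa f z)) : LC O ψ := by
  let _ : TopologicalSpace α := ⊥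
  have : DiscreteTopology α := ⟨rfl⟩
  intro y hy
  have := cw2 C hO ψ (fun e t ht hO => by
    rw [ContinuousWithinAt, nhds_discrete α, tendsto_pure]
    exact h1 e t ht hO) (fun f z hz hO => by
    rw [ContinuousWithinAt, nhds_discrete α, tendsto_pure]
    exact h2 f z hz hO) y hy
  rwa [ContinuousAt, nhds_discrete α, tendsto_pure] at this

/-- A compact set meets finitely many open edges. -/
theorem finite_edges {K : Set Y} (hK : IsCompact K) :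
    {e : C.Ed | ∃ t, |t| < 1 ∧ C.ed e t ∈ K}.Finite := by
  set E := {e : C.Ed | ∃ t, |t| < 1 ∧ C.ed e t ∈ K}
  choose τ h1 h2 using fun e : E => e.2
  let p : E → Y := fun e => C.ed e.1 (τ e)
  have hc : ∀ B ⊆ range p, IsClosed B := fun B hB => by
    refine C.wt1 B (fun y hy => ?_) fun e => Set.Subsingleton.isClosed fun t ht s hs => ?_
    · obtain ⟨e, rfl⟩ := hB hy
      exact Or.inr ⟨_, _, h1 e, rfl⟩
    · obtain ⟨a, ha⟩ := hB ht.1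
      obtain ⟨b, hb⟩ := hB hs.1
      have h3 := C.ed_inj _ _ _ _ (h1 a) ((ed_mem_Uo_iff C e ht.2).1 ⟨_, _, h1 a, ha.symm⟩) ha
      have h4 := C.ed_inj _ _ _ _ (h1 b) ((ed_mem_Uo_iff C e hs.2).1 ⟨_, _, h1 b, hb.symm⟩) hb
      rw [← h3.2, ← h4.2, Subtype.ext (h3.1.trans h4.1.symm)]
  have hP : IsCompact (range p) :=
    hK.of_isClosed_subset (hc _ subset_rfl) (by rintro _ ⟨e, rfl⟩; exact h2 e)
  obtain ⟨T, hT⟩ := hP.elim_finite_subcover (fun e : E => (range p \ {p e})ᶜ)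
    (fun e => (hc _ sdiff_subset).isOpen_compl) (by
      rintro _ ⟨e, rfl⟩
      exact mem_iUnion.2 ⟨e, fun h => h.2 rfl⟩)
  refine (T.finite_toSet.image Subtype.val).subset fun e he => ?_
  obtain ⟨a, ha, h3⟩ := mem_iUnion₂.1 (hT ⟨⟨e, he⟩, rfl⟩)
  have h4 : p ⟨e, he⟩ = p a := by_contra fun h5 => h3 ⟨⟨_, rfl⟩, h5⟩
  exact ⟨a, ha, (C.ed_inj _ _ _ _ (h1 _) (h1 _) h4).1.symm⟩

end Vale.Agent.P173.Cx
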