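import Vale.Agent.P173.TDefs

/-! Lifting a cell structure to a covering space. -/

universe u v w

open Set Topology

namespace Vale.Agent.P173

section
variable {X : Type u} {E : Type v} [TopologicalSpace X] [TopologicalSpace E] {p : E → X}

theorem cxc_lift (hp : IsCoveringMap p) {W : Type} [TopologicalSpace W] [SimplyConnectedSpace W]
    [LocallyPathConnectedSpace W] {J : Type w} (c : J → C(W, X)) :
    ∃ (J' : Type (max w v)) (q : J' → J) (c' : J' → C(W, E)), (∀ j z, p (c' j z) = c (q j) z) ∧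
      (∀ x j z, p x = c j z → ∃ j', q j' = j ∧ c' j' z = x) ∧
      ∀ j₁ j₂ z, q j₁ = q j₂ → c' j₁ z = c' j₂ z → j₁ = j₂ := by
  refine ⟨{y : J × C(W, E) // p ∘ y.2 = c y.1}, fun y => y.1.1, fun y => y.1.2,
    fun y z => congrFun y.2 z, fun x j z h => ?_, ?_⟩
  · obtain ⟨F, ⟨h1, h2⟩, -⟩ := hp.existsUnique_continuousMap_lifts (c j) z x h
    exact ⟨⟨(j, F), h2⟩, rfl, h1⟩
  · rintro ⟨⟨j, F⟩, h⟩ ⟨⟨j', F'⟩, h'⟩ z (rfl : j = j') hz
    obtain rfl : F = F' :=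
      DFunLike.coe_injective (hp.eq_of_comp_eq F.continuous F'.continuous (h.trans h'.symm) z hz)
    rfl

omit [TopologicalSpace X] in
theorem cxc_closed {W : Type} [TopologicalSpace W] {K : Set W} (hK : IsClosed K) (c : W → X)
    {A N : Set E} (hN : IsOpen N) {S : Set X} (hS : ∀ z ∈ K, c z ∈ S)
    (h : ∀ x z, p x = c z → ∃ c' : C(W, E), (∀ z, p (c' z) = c z) ∧ c' z = x ∧
      IsClosed (c' ⁻¹' A ∩ K)) : IsClosed (c ⁻¹' (S \ p '' (N \ A)) ∩ K) := by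
  rw [← isOpen_compl_iff, isOpen_iff_forall_mem_open]
  intro z hz
  by_cases hzK : z ∈ K
  · have h1 : c z ∈ p '' (N \ A) := by
      by_contra h1
      exact hz ⟨⟨hS z hzK, h1⟩, hzK⟩
    obtain ⟨x, hx, hxz⟩ := h1
    obtain ⟨c', h1, rfl, h2⟩ := h x z hxz
    refine ⟨c' ⁻¹' N ∩ (c' ⁻¹' A ∩ K)ᶜ, fun y hy hy' => hy'.1.2 ⟨c' y, ⟨hy.1, fun hA => ?_⟩, h1 y⟩,
      (hN.preimage c'.continuous).inter h2.isOpen_compl, hx.1, fun hA => hx.2 hA.1⟩
    exact hy.2 ⟨hA, hy'.2⟩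
  · exact ⟨Kᶜ, fun y hy hy' => hy hy'.2, hK.isOpen_compl, hzK⟩

theorem cxc_final (hp : IsCoveringMap p) {A : Set E} {S : Set X} (hS : ∀ a ∈ A, p a ∈ S)
    (h : ∀ N, IsOpen N → IsClosed (S \ p '' (N \ A))) : IsClosed A := by
  rw [← isOpen_compl_iff, isOpen_iff_forall_mem_open]
  intro x hx
  obtain ⟨N, hN, hxN, hinj⟩ := hp.isLocalHomeomorph.isLocallyInjective x
  refine ⟨N ∩ p ⁻¹' (S \ p '' (N \ A))ᶜ, fun a ha haA => ha.2 ⟨hS a haA, ?_⟩,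
    hN.inter ((h N hN).isOpen_compl.preimage hp.continuous), hxN,
    fun h1 => h1.2 ⟨x, ⟨hxN, hx⟩, rfl⟩⟩
  rintro ⟨b, hb, hab⟩
  exact hb.2 (hinj hb.1 ha.1 hab ▸ haA)

end

theorem exists_cellCov {X : Type u} {E : Type v} [TopologicalSpace X] [TopologicalSpace E]
    (C : Cx.{u, w} X) {p : E → X} (hp : IsCoveringMap p) (hs : Function.Surjective p) :
    ∃ C' : Cx.{v, max w v} E, Nonempty (CellCov C C' p) := by
  obtain ⟨Ed, pE, ed, e1, e2, e3⟩ := cxc_lift hp C.ed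
  obtain ⟨Fa, pF, fa, f1, f2, f3⟩ := cxc_lift hp C.fa
  let V : Type (max w v) := {y : C.V × E // p y.2 = C.vx y.1}
  obtain ⟨x0, hx0⟩ := hs (C.vx C.v0)
  have hS1 : ∀ y : E, ((∃ a, p y = C.vx a) ∨ ∃ e t, |t| < 1 ∧ p y = C.ed e t) →
      (∃ a : V, y = a.1.2) ∨ ∃ e t, |t| < 1 ∧ y = ed e t := by
    rintro y (⟨a, ha⟩ | ⟨e, t, ht, h⟩)
    · exact Or.inl ⟨⟨(a, y), ha⟩, rfl⟩
    · obtain ⟨e', -, he'⟩ := e2 y e t h
      exact Or.inr ⟨e', t, ht, he'.symm⟩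
  have hE : ∀ {A N : Set E} {S : Set X}, IsOpen N → (∀ e, ∀ t ∈ Icc (-1 : ℝ) 1, C.ed e t ∈ S) →
      (∀ e, IsClosed (ed e ⁻¹' A ∩ Icc (-1) 1)) →
      ∀ e, IsClosed (C.ed e ⁻¹' (S \ p '' (N \ A)) ∩ Icc (-1) 1) := fun hN hS h e =>
    cxc_closed isClosed_Icc _ hN (hS e) fun x t hx => by
      obtain ⟨e', rfl, he'⟩ := e2 x e t hx
      exact ⟨ed e', e1 e', he', h e'⟩
  refine ⟨{ V := V, Ed := Ed, Fa := Fa, v0 := ⟨(C.v0, x0), hx0⟩, vx := fun a => a.1.2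
            ed := ed, fa := fa
            src := fun e => ⟨(C.src (pE e), ed e (-1)), (e1 e _).trans (C.ed_src _)⟩
            tgt := fun e => ⟨(C.tgt (pE e), ed e 1), (e1 e _).trans (C.ed_tgt _)⟩
            ed_src := fun _ => rfl, ed_tgt := fun _ => rfl, cover := fun y => ?_
            vx_inj := ?_
            ed_inj := fun e e' t t' ht ht' h => ?_
            fa_inj := fun f f' z z' hz hz' h => ?_
            vx_ne_ed := fun a e t ht h => C.vx_ne_ed a.1.1 (pE e) t ht ?_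
            vx_ne_fa := fun a f z hz h => C.vx_ne_fa a.1.1 (pF f) z hz ?_
            ed_ne_fa := fun e t f z ht hz h => C.ed_ne_fa (pE e) t (pF f) z ht hz ?_
            fa_bd := fun f z hz => ?_
            wt1 := fun A hA h => ?_
            wt2 := fun A h h' => ?_ },
    ⟨{ pV := fun a => a.1.1, pE := pE, pF := pF, hv := fun a => a.2, he := e1, hf := f1, h0 := rfl
       liftV := fun x a h => ⟨⟨(a, x), h⟩, rfl⟩, liftE := e2, uniqE := e3, liftF := f2 }⟩⟩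
  · rcases or_assoc.2 (C.cover (p y)) with h | ⟨f, z, hz, h⟩
    · exact or_assoc.1 (Or.inl (hS1 y h))
    · obtain ⟨f', -, hf'⟩ := f2 y f z h
      exact Or.inr (Or.inr ⟨f', z, hz, hf'.symm⟩)
  · rintro ⟨⟨a, x⟩, h⟩ ⟨⟨b, y⟩, h'⟩ (rfl : x = y)
    obtain rfl : a = b := C.vx_inj (h.symm.trans h')
    rfl
  · obtain ⟨h1, rfl⟩ := C.ed_inj _ _ t t' ht ht' ((e1 e t).symm.trans (h ▸ e1 e' t'))
    exact ⟨e3 e e' t h1 h, rfl⟩
  · obtain ⟨h1, rfl⟩ := C.fa_inj _ _ z z' hz hz' ((f1 f z).symm.trans (h ▸ f1 f' z'))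
    exact ⟨f3 f f' z h1 h, rfl⟩
  · rw [← a.2, ← e1]; exact congrArg p h
  · rw [← a.2, ← f1]; exact congrArg p h
  · rw [← e1, ← f1]; exact congrArg p h
  · exact hS1 _ (f1 f z ▸ C.fa_bd (pF f) z hz)
  · refine cxc_final hp (S := C.S1) (fun y hy => ?_) fun N hN =>
      C.wt1 _ (fun y hy => hy.1) (hE hN (fun e t ht => ?_) h)
    · rcases hA y hy with ⟨a, rfl⟩ | ⟨e, t, ht, rfl⟩
      · exact Or.inl ⟨_, a.2⟩
      · exact Or.inr ⟨_, t, ht, e1 e t⟩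
    · rcases ht.1.eq_or_lt with rfl | h1
      · exact Or.inl ⟨_, C.ed_src e⟩
      rcases ht.2.eq_or_lt with rfl | h2
      · exact Or.inl ⟨_, C.ed_tgt e⟩
      · exact Or.inr ⟨e, t, abs_lt.2 ⟨h1, h2⟩, rfl⟩
  · refine cxc_final hp (S := univ) (fun _ _ => mem_univ _) fun N hN =>
      C.wt2 _ (hE hN (fun _ _ _ => mem_univ _) h) fun f =>
        cxc_closed Metric.isClosed_closedBall _ hN (fun _ _ => mem_univ _) fun x z hx => ?_
    obtain ⟨f', rfl, hf'⟩ := f2 x f z hx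
    exact ⟨fa f', f1 f', hf', h' f'⟩

end Vale.Agent.P173
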