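import Vale.Agent.P173.CxWord

/-! On a simply connected complex flat labels have a potential. -/

universe u w

open Set Topology Filter unitInterval Metric

namespace Vale.Agent.P173.Cx

theorem cxf_surj (z : ℂ) : ∃ t : I, z ≠ 0 →
    Complex.exp (2 * Real.pi * (t : ℝ) * Complex.I) = z / (‖z‖ : ℝ) := by
  refine ⟨⟨Int.fract (z.arg / (2 * Real.pi)), Int.fract_nonneg _, (Int.fract_lt_one _).le⟩,
    fun hz => ?_⟩
  have h1 : ((‖z‖ : ℝ) : ℂ) ≠ 0 := by simpa using hz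
  have h2 : (Real.pi : ℂ) ≠ 0 := by simp
  rw [eq_div_iff h1, mul_comm]
  conv_rhs => rw [← Complex.norm_mul_exp_arg_mul_I z]
  congr 1
  refine Complex.exp_eq_exp_iff_exists_int.2 ⟨-⌊z.arg / (2 * Real.pi)⌋, ?_⟩
  simp only [Int.fract]
  push_cast
  field_simp
  ring

theorem cxf_inj {α : Type*} {ψ : I → α} (h : ψ 0 = ψ 1) {t s : I}
    (e : Complex.exp (2 * Real.pi * (t : ℝ) * Complex.I) =
      Complex.exp (2 * Real.pi * (s : ℝ) * Complex.I)) : ψ t = ψ s := by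
  obtain ⟨n, hn⟩ := Complex.exp_eq_exp_iff_exists_int.1 e
  have h2 : (2 * Real.pi * Complex.I : ℂ) ≠ 0 := Complex.two_pi_I_ne_zero
  have h3 : ((t : ℝ) : ℂ) = (s : ℝ) + n := mul_left_cancel₀ h2 (by linear_combination hn)
  have h4 : (t : ℝ) = s + n := by exact_mod_cast h3
  have h5 : (-2 : ℤ) < n := by
    have : (-2 : ℝ) < n := by linarith [t.2.1, s.2.2]
    exact_mod_cast this
  have h6 : n < 2 := by
    have : (n : ℝ) < 2 := by linarith [t.2.2, s.2.1]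
    exact_mod_cast this
  interval_cases n
  · push_cast at h4
    rw [show t = 0 from Subtype.ext (show (t : ℝ) = 0 by linarith [t.2.1, s.2.2]),
      show s = 1 from Subtype.ext (show (s : ℝ) = 1 by linarith [t.2.1, s.2.2]), h]
  · rw [show t = s from Subtype.ext (by simpa using h4)]
  · push_cast at h4
    rw [show t = 1 from Subtype.ext (show (t : ℝ) = 1 by linarith [t.2.2, s.2.1]),
      show s = 0 from Subtype.ext (show (s : ℝ) = 0 by linarith [t.2.2, s.2.1]), h]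

theorem cxf_dir {z : ℂ} (hz : z ≠ 0) : ContinuousAt (fun s : ℂ => s / (‖s‖ : ℝ)) z :=
  ContinuousAt.div continuousAt_id (by fun_prop) (by simpa using hz)

theorem cxf_desc {α : Type*} {ψ : I → α} (h : ψ 0 = ψ 1) {τ : ℂ → I}
    (hτ : ∀ z, z ≠ 0 → Complex.exp (2 * Real.pi * (τ z : ℝ) * Complex.I) = z / (‖z‖ : ℝ))
    {O : Set ℂ} (hO : LC ((fun t : I => Complex.exp (2 * Real.pi * (t : ℝ) * Complex.I)) ⁻¹' O) ψ)
    {z : ℂ} (hz : z ≠ 0) (hzO : z / (‖z‖ : ℝ) ∈ O) : ∀ᶠ s in 𝓝 z, ψ (τ s) = ψ (τ z) := by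
  have hc : IsClosed ((fun t : I => Complex.exp (2 * Real.pi * (t : ℝ) * Complex.I)) ''
      closure {t | ψ t ≠ ψ (τ z)}) := (isClosed_closure.isCompact.image (by fun_prop)).isClosed
  have h1 := (cxf_dir hz).eventually (hc.isOpen_compl.mem_nhds (by
    rintro ⟨t, ht, e⟩
    dsimp only at e
    obtain ⟨s, hs, hs'⟩ := ((mem_closure_iff_frequently.1 ht).and_eventually
      (hO t (by rw [mem_preimage, e]; exact hzO))).exists
    exact hs (hs'.trans (cxf_inj h (e.trans (hτ z hz).symm)))))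
  filter_upwards [h1, isOpen_ne.mem_nhds hz] with s hs hs0
  by_contra hne
  exact hs ⟨τ s, subset_closure hne, hτ s hs0⟩

variable {Y : Type u} [TopologicalSpace Y] (C : Cx.{u, w} Y)

theorem cxf_cases {α : Type*} (F : C.Fa → ℂ → α) (G : Y → α) : ∃ r : Y → α,
    (∀ y ∈ C.S1, r y = G y) ∧ ∀ f z, ‖z‖ < 1 → r (C.fa f z) = F f z := by
  classical
  refine ⟨fun y => if h : ∃ p : C.Fa × ℂ, ‖p.2‖ < 1 ∧ y = C.fa p.1 p.2 then
    F h.choose.1 h.choose.2 else G y, fun y hy => dif_neg ?_, fun f z hz => ?_⟩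
  · rintro ⟨p, h1, rfl⟩
    exact h1.ne ((C.fa_mem_S1_iff _ h1.le).1 hy)
  · have h : ∃ p : C.Fa × ℂ, ‖p.2‖ < 1 ∧ C.fa f z = C.fa p.1 p.2 := ⟨(f, z), hz, rfl⟩
    obtain ⟨h1, h2⟩ := C.fa_inj _ _ _ _ hz h.choose_spec.1 h.choose_spec.2
    exact (dif_pos h).trans (by rw [← h1, ← h2])

theorem cxf_open : IsOpen {y | ∀ f, y ≠ C.fa f 0} := by
  have h0 (f) : C.fa f 0 ∉ C.S1 := fun h => by simpa using (C.fa_mem_S1_iff f (by simp)).1 h
  refine isClosed_compl_iff.1 (C.wt2 _ (fun e => ?_) fun f => ?_)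
  · convert isClosed_empty
    refine eq_empty_of_forall_notMem fun t ⟨h1, h2⟩ => h1 fun f e' => h0 f ?_
    exact e' ▸ C.ed_mem_S1 e h2
  · refine (Set.Subsingleton.finite fun z hz z' hz' => ?_).isClosed
    have key (s) (hs : s ∈ C.fa f ⁻¹' {y | ∀ f, y ≠ C.fa f 0}ᶜ ∩ closedBall 0 1) : s = 0 := by
      by_contra hne
      refine hs.1 fun f' e' => ?_
      have h1 : ‖s‖ ≤ 1 := by simpa using hs.2
      rcases h1.eq_or_lt with h2 | h2
      · exact h0 f' (e' ▸ (C.fa_mem_S1_iff f h1).2 h2)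
      · exact hne (C.fa_inj _ _ _ _ h2 (by simp) e').2
    rw [key z hz, key z' hz']

theorem cxf_lam : ∀ y ∈ C.S1 ∩ (C.Us ∩ C.Uo), ∀ᶠ y' in 𝓝[C.S1] y, C.lam y' = C.lam y := by
  refine C.lc1 ?_ _ fun e t ht h => ?_
  · rw [sdiff_inter]; exact C.isClosed_S1_diff_Us.union C.isClosed_S1_diff_Uo
  have h1 := (C.ed_mem_Us_iff e ht).1 h.1
  have h2 := abs_lt.1 ((C.ed_mem_Uo_iff e ht).1 h.2)
  refine mem_nhdsWithin_of_mem_nhds ?_
  rcases lt_or_gt_of_ne h1 with h3 | h3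
  · filter_upwards [Ioo_mem_nhds h2.1 h3] with s hs
    rw [C.lam_ed_neg e hs.1.le hs.2, C.lam_ed_neg e h2.1.le h3]
  · filter_upwards [Ioo_mem_nhds h3 h2.2] with s hs
    rw [C.lam_ed_pos e hs.1.le hs.2, C.lam_ed_pos e h3.le h2.2]

theorem pot_of_flat [SimplyConnectedSpace Y] {P : Type*} [Group P] (lab : C.Ed → P)
    (h : ∀ f, FreeGroup.lift lab (C.rel f) = 1) :
    ∃ U : C.V → P, ∀ e, lab e = (U (C.src e))⁻¹ * U (C.tgt e) := by
  obtain ⟨r, r1, r2⟩ := C.cxf_cases (fun f z => C.fa f (z / (‖z‖ : ℝ))) id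
  have r3 (f z) (hz : ‖z‖ ≤ 1) : r (C.fa f z) = C.fa f (z / (‖z‖ : ℝ)) := by
    rcases hz.eq_or_lt with h1 | h1
    · rw [r1 _ ((C.fa_mem_S1_iff f hz).2 h1), h1]; simp
    · exact r2 f z h1
  have hX := C.cxf_open
  set X0 := {y | ∀ f, y ≠ C.fa f 0}
  have hz0 {f z} (h : C.fa f z ∈ X0) : z ≠ 0 := fun e => h f (e ▸ rfl)
  have r4 : ∀ y ∈ X0, ContinuousAt r y := C.cw2 hX r
    (fun e t ht _ => (C.ed e).continuous.continuousWithinAt.congr
      (fun s hs => r1 _ (C.ed_mem_S1 e hs)) (r1 _ (C.ed_mem_S1 e ht)))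
    fun f z hz h => ((C.fa f).continuous.continuousAt.comp (cxf_dir (hz0 h))).continuousWithinAt.congr
      (fun s hs => r3 f s (by simpa using hs)) (r3 f z (by simpa using hz))
  have r5 (y) (hy : y ∈ X0) : r y ∈ C.S1 := by
    by_cases h1 : y ∈ C.S1
    · rwa [r1 y h1]
    · obtain ⟨f, z, hz, rfl⟩ := ((C.cover y).resolve_left fun h => h1 (Or.inl h)).resolve_left
        fun h => h1 (Or.inr h)
      have h2 : ‖z / (‖z‖ : ℝ)‖ = 1 := by
        rw [norm_div, Complex.norm_real, norm_norm, div_self (norm_ne_zero_iff.2 (hz0 hy))]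
      rw [r2 f z hz]
      exact (C.fa_mem_S1_iff f h2.le).2 h2
  have r6 {O : Set Y} (hO : IsClosed (C.S1 \ O)) : IsOpen (X0 ∩ r ⁻¹' O) := by
    convert (continuousOn_of_forall_continuousAt r4).isOpen_inter_preimage hX hO.isOpen_compl
      using 1
    ext y
    refine and_congr_right fun hy => ?_
    simp [r5 y hy]
  choose τ hτ using cxf_surj
  choose D hD using fun f => C.exists_dev1 (FreeGroup.lift lab) (C.loop f) (C.loop_mem_S1 f)
  have hD1 (f) : D f 0 = D f 1 := inv_mul_eq_one.1 ((C.rel_spec _ f (hD f)).trans (h f))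
  obtain ⟨l, -, hl⟩ := C.cxf_cases (fun f z => D f (τ z)) fun _ => 1
  have face {O : Set Y} (hO : IsClosed (C.S1 \ O)) (k : Y → P)
      (hk : ∀ f, LC (C.loop f ⁻¹' O) fun t => D f t * (k (C.loop f t))⁻¹) :
      LC (C.S1ᶜ ∩ (X0 ∩ r ⁻¹' O)) fun y => l y * (k (r y))⁻¹ := by
    refine C.lc2 (C.isClosed_S1.isOpen_compl.inter (r6 hO)) _
      (fun e t ht h => (h.1 (C.ed_mem_S1 e ht)).elim) fun f z hz h => ?_
    have h1 : ‖z‖ ≤ 1 := by simpa using hz
    have h2 : ‖z‖ < 1 := h1.lt_of_ne fun e => h.1 ((C.fa_mem_S1_iff f h1).2 e)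
    have h3 := hz0 h.2.1
    have h4 := cxf_desc (ψ := fun t => D f t * (k (C.loop f t))⁻¹) (O := C.fa f ⁻¹' O)
      (by rw [hD1, cxf_inj (ψ := C.loop f) (t := 0) (s := 1) (by simp [loop]) (by simp)]) hτ (hk f)
      h3 (by rw [mem_preimage, ← r2 f z h2]; exact h.2.2)
    have h5 (s) (hs : ‖s‖ < 1) (hs0 : s ≠ 0) : l (C.fa f s) * (k (r (C.fa f s)))⁻¹ =
        D f (τ s) * (k (C.loop f (τ s)))⁻¹ := by
      rw [hl f s hs, r2 f s hs, ← hτ s hs0]; rfl
    refine mem_nhdsWithin_of_mem_nhds ?_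
    filter_upwards [h4, isOpen_ne.mem_nhds h3,
      (isOpen_lt continuous_norm continuous_const).mem_nhds h2] with s e1 e2 e3
    rw [h5 s e3 e2, h5 z h2 h3, e1]
  have sy {A B : Set Y} {a b : Y → P} (h : LC (A ∩ B) fun y => a y * (b y)⁻¹) :
      LC (B ∩ A) fun y => b y * (a y)⁻¹ := fun y hy =>
    (h y ⟨hy.2, hy.1⟩).mono fun s hs => by simpa using congrArg (·⁻¹) hs
  have tr {A : Set Y} {a : Y → P} : LC A fun y => a y * (a y)⁻¹ := fun y _ => by simp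
  have h20 := face C.isClosed_S1_diff_Us (fun _ => 1) fun f => by simpa using (hD f).1
  have h21 := face C.isClosed_S1_diff_Uo (fun y => FreeGroup.lift lab (C.lam y)) fun f => (hD f).2
  have h10 : LC ((X0 ∩ r ⁻¹' C.Uo) ∩ (X0 ∩ r ⁻¹' C.Us))
      fun y => FreeGroup.lift lab (C.lam (r y)) * (1 : P)⁻¹ := fun y hy => by
    have h1 : Tendsto r (𝓝 y) (𝓝[C.S1] (r y)) := tendsto_nhdsWithin_iff.2
      ⟨r4 y hy.1.1, mem_of_superset (hX.mem_nhds hy.1.1) r5⟩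
    filter_upwards [h1.eventually (C.cxf_lam _ ⟨r5 y hy.1.1, hy.2.2, hy.1.2⟩)] with s hs
    rw [hs]
  obtain ⟨Q, hQ⟩ := dev_simply (G := P) ![X0 ∩ r ⁻¹' C.Us, X0 ∩ r ⁻¹' C.Uo, C.S1ᶜ]
    ![fun _ => 1, fun y => FreeGroup.lift lab (C.lam (r y)), l]
    (fun i => by
      fin_cases i
      exacts [r6 C.isClosed_S1_diff_Us, r6 C.isClosed_S1_diff_Uo, C.isClosed_S1.isOpen_compl])
    (fun y => by
      by_cases h1 : y ∈ C.S1
      · have h2 : y ∈ X0 := fun f e => by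
          simpa using (C.fa_mem_S1_iff f (z := 0) (by simp)).1 (e ▸ h1)
        rcases (C.Us_union_Uo ▸ r5 y h2 : r y ∈ C.Us ∪ C.Uo) with h3 | h3
        exacts [⟨0, h2, h3⟩, ⟨1, h2, h3⟩]
      · exact ⟨2, h1⟩)
    (fun i j => by
      fin_cases i <;> fin_cases j
      exacts [tr, sy h10, sy h20, h10, tr, sy h21, h20, h21, tr])
  refine ⟨fun a => Q (C.vx a), fun e => ?_⟩
  obtain ⟨E, hE⟩ := C.exists_dev1 (FreeGroup.lift lab) (C.epath e) (C.epath_mem_S1 e)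
  have h1 (t) : r (C.epath e t) = C.epath e t := r1 _ (C.epath_mem_S1 e t)
  have h2 := hQ (C.epath e) E fun i => by
    fin_cases i
    · intro t ht
      simpa using hE.1 t (h1 t ▸ ht.2 : C.epath e t ∈ C.Us)
    · intro t ht
      simpa [h1] using hE.2 t (h1 t ▸ ht.2 : C.epath e t ∈ C.Uo)
    · exact fun t ht => (ht (C.epath_mem_S1 e t)).elim
  rw [C.epath_spec _ e hE, FreeGroup.lift_apply_of] at h2
  dsimp only
  rw [h2, ← C.ed_src, ← C.ed_tgt]
  simp [epath]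
  norm_num

end Vale.Agent.P173.Cx
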