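import Vale.Agent.P173.TDefs

/-! A CW complex of dimension at most two carries a cell structure. -/

universe u

open Set Topology

namespace Vale.Agent.P173

section
open Metric RelCWComplex

theorem cxo_param {X : Type u} [TopologicalSpace X] [T2Space X] [CWComplex (univ : Set X)]
    {W : Type} [NormedAddCommGroup W] [ProperSpace W] {n : ℕ} (H : W ≃ₜ (Fin n → ℝ))
    (h1 : ∀ z, ‖H z‖ < 1 ↔ ‖z‖ < 1) (h2 : ∀ z, ‖H z‖ ≤ 1 ↔ ‖z‖ ≤ 1) :
    ∃ c : cell (univ : Set X) n → C(W, X),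
      (∀ j y, y ∈ openCell n j ↔ ∃ z, ‖z‖ < 1 ∧ y = c j z) ∧
      (∀ j z, ‖z‖ = 1 → c j z ∈ cellFrontier n j) ∧
      (∀ j z z', ‖z‖ < 1 → ‖z'‖ < 1 → c j z = c j z' → z = z') ∧
      ∀ j A, IsClosed (c j ⁻¹' A ∩ closedBall 0 1) → IsClosed (A ∩ closedCell n j) := by
  let cl : (Fin n → ℝ) → Fin n → ℝ := fun x => (max 1 ‖x‖)⁻¹ • x
  have hpos : ∀ x : Fin n → ℝ, 0 < max 1 ‖x‖ := fun x => lt_max_of_lt_left one_pos
  have hc : Continuous cl :=
    ((continuous_const.max continuous_norm).inv₀ fun x => (hpos x).ne').smul continuous_id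
  have hm : ∀ x, cl x ∈ closedBall (0 : Fin n → ℝ) 1 := fun x => by
    rw [mem_closedBall_zero_iff, norm_smul, norm_inv, Real.norm_of_nonneg (hpos x).le,
      inv_mul_le_iff₀ (hpos x), mul_one]
    exact le_max_right _ _
  let c : cell (univ : Set X) n → C(W, X) := fun j =>
    ⟨fun z => map n j (cl (H z)),
      (continuousOn n j).comp_continuous (hc.comp H.continuous) fun z => hm _⟩
  have hv : ∀ j z, ‖z‖ ≤ 1 → c j z = map n j (H z) := fun j z hz => by
    change map n j ((max 1 ‖H z‖)⁻¹ • H z) = _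
    rw [max_eq_left ((h2 z).2 hz), inv_one, one_smul]
  refine ⟨c, fun j y => ⟨?_, ?_⟩, fun j z hz => ?_, fun j z z' hz hz' h => ?_, fun j A hA => ?_⟩
  · rintro ⟨x, hx, rfl⟩
    obtain ⟨z, rfl⟩ := H.surjective x
    have hz := (h1 z).1 (mem_ball_zero_iff.1 hx)
    exact ⟨z, hz, (hv j z hz.le).symm⟩
  · rintro ⟨z, hz, rfl⟩
    exact ⟨H z, mem_ball_zero_iff.2 ((h1 z).2 hz), (hv j z hz.le).symm⟩
  · refine ⟨H z, mem_sphere_zero_iff_norm.2 (le_antisymm ((h2 z).2 hz.le) ?_), (hv j z hz.le).symm⟩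
    exact not_lt.1 fun h => hz.not_lt ((h1 z).1 h)
  · rw [hv j z hz.le, hv j z' hz'.le] at h
    refine H.injective ((map n j).injOn ?_ ?_ h)
    · rw [source_eq]; exact mem_ball_zero_iff.2 ((h1 z).2 hz)
    · rw [source_eq]; exact mem_ball_zero_iff.2 ((h1 z').2 hz')
  · have e : A ∩ closedCell n j = c j '' (c j ⁻¹' A ∩ closedBall 0 1) := by
      ext y
      constructor
      · rintro ⟨hy, x, hx, rfl⟩
        obtain ⟨z, rfl⟩ := H.surjective x
        have hz := (h2 z).1 (mem_closedBall_zero_iff.1 hx)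
        exact ⟨z, ⟨by rwa [mem_preimage, hv j z hz], mem_closedBall_zero_iff.2 hz⟩, hv j z hz⟩
      · rintro ⟨z, ⟨hz, hz'⟩, rfl⟩
        have hz1 := mem_closedBall_zero_iff.1 hz'
        exact ⟨hz, H z, mem_closedBall_zero_iff.2 ((h2 z).2 hz1), (hv j z hz1).symm⟩
    rw [e]
    exact (((isCompact_closedBall 0 1).of_isClosed_subset hA inter_subset_right).image
      (c j).continuous).isClosed

theorem cxo_disc : ∃ H : ℂ ≃ₜ (Fin 2 → ℝ),
    (∀ z, ‖H z‖ < 1 ↔ ‖z‖ < 1) ∧ ∀ z, ‖H z‖ ≤ 1 ↔ ‖z‖ ≤ 1 := by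
  let L : ℂ ≃L[ℝ] (Fin 2 → ℝ) := Complex.basisOneI.equivFunL
  have hi : interior (L ⁻¹' closedBall 0 1) = L ⁻¹' ball 0 1 := by
    rw [← interior_closedBall (0 : Fin 2 → ℝ) one_ne_zero]
    exact (L.toHomeomorph.preimage_interior _).symm
  have hcl : closure (L ⁻¹' closedBall 0 1) = L ⁻¹' closedBall 0 1 :=
    (isClosed_closedBall.preimage L.continuous).closure_eq
  obtain ⟨h, h1, h2, -⟩ := exists_homeomorph_image_interior_closure_frontier_eq_unitBall
    (s := L ⁻¹' closedBall 0 1) ((convex_closedBall 0 1).linear_preimage L.toLinearEquiv.toLinearMap)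
    ⟨0, by rw [hi]; simp⟩ (L.antilipschitz.isBounded_preimage isBounded_closedBall)
  rw [hi] at h1
  rw [hcl] at h2
  refine ⟨h.symm.trans L.toHomeomorph, fun z => ?_, fun z => ?_⟩
  · rw [← mem_ball_zero_iff, ← mem_ball_zero_iff, ← h1, h.image_eq_preimage_symm]; rfl
  · rw [← mem_closedBall_zero_iff, ← mem_closedBall_zero_iff, ← h2, h.image_eq_preimage_symm]; rfl

end

theorem exists_cx (X : Type u) [TopologicalSpace X] [T2Space X] [CWComplex (univ : Set X)]
    [Nonempty X] (hdim : ∀ n, 2 < n → IsEmpty (RelCWComplex.cell (univ : Set X) n)) :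
    Nonempty (Cx.{u, u} X) := by
  obtain ⟨ed, e1, e2, e3, e4⟩ := cxo_param (X := X) (Homeomorph.funUnique (Fin 1) ℝ).symm
    (fun z => by simp [Pi.norm_def]) (fun z => by simp [Pi.norm_def])
  obtain ⟨H, h1, h2⟩ := cxo_disc
  obtain ⟨fa, f1, f2, f3, f4⟩ := cxo_param (X := X) H h1 h2
  let vx : RelCWComplex.cell (univ : Set X) 0 → X := fun a => RelCWComplex.map 0 a ![]
  have v1 : ∀ a y, y ∈ RelCWComplex.openCell 0 a ↔ y = vx a := fun a y => by
    rw [RelCWComplex.openCell_zero_eq_singleton]; rfl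
  have hfr : ∀ n (j : RelCWComplex.cell (univ : Set X) n) y, y ∈ RelCWComplex.cellFrontier n j →
      ∃ m < n, ∃ i : RelCWComplex.cell (univ : Set X) m, y ∈ RelCWComplex.openCell m i := by
    intro n j y hy
    obtain ⟨I, hI⟩ := CWComplex.cellFrontier_subset_finite_openCell (C := (univ : Set X)) n j
    have := hI hy
    simp only [mem_iUnion] at this
    obtain ⟨m, hm, i, -, hi⟩ := this
    exact ⟨m, hm, i, hi⟩
  have hall : ∀ y : X, ∃ m, ∃ i : RelCWComplex.cell (univ : Set X) m,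
      y ∈ RelCWComplex.openCell m i := fun y => by
    have : y ∈ (univ : Set X) := mem_univ y
    rw [← CWComplex.iUnion_openCell_eq_complex (C := (univ : Set X))] at this
    simpa only [mem_iUnion] using this
  have hend : ∀ e t, |t| = 1 → ∃ a, ed e t = vx a := fun e t ht => by
    obtain ⟨m, hm, i, hi⟩ := hfr 1 e _ (e2 e t ht)
    obtain rfl : m = 0 := by omega
    exact ⟨i, (v1 _ _).1 hi⟩
  choose src hsrc using fun e => hend e (-1) (by simp)
  choose tgt htgt using fun e => hend e 1 (by simp)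
  have hv0 : ∀ n, RelCWComplex.cell (univ : Set X) n → Nonempty (RelCWComplex.cell (univ : Set X) 0) := by
    intro n
    induction n using Nat.strong_induction_on with
    | _ n ih =>
      intro j
      rcases eq_or_ne n 0 with rfl | hn
      · exact ⟨j⟩
      · obtain ⟨y, hy⟩ := RelCWComplex.nonempty_cellFrontier hn j
        obtain ⟨m, hm, i, -⟩ := hfr n j y hy
        exact ih m hm i
  obtain ⟨m, i, -⟩ := hall (Classical.arbitrary X)
  obtain ⟨v0⟩ := hv0 m i
  have hdj : ∀ {m n} {i : RelCWComplex.cell (univ : Set X) m} {j : RelCWComplex.cell (univ : Set X) n}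
      {y}, y ∈ RelCWComplex.openCell m i → y ∈ RelCWComplex.openCell n j →
      (⟨m, i⟩ : Σ n, RelCWComplex.cell (univ : Set X) n) = ⟨n, j⟩ := fun hi hj =>
    RelCWComplex.eq_of_not_disjoint_openCell (not_disjoint_iff.2 ⟨_, hi, hj⟩)
  have hne : ∀ {m n} {i : RelCWComplex.cell (univ : Set X) m} {j : RelCWComplex.cell (univ : Set X) n}
      {y}, y ∈ RelCWComplex.openCell m i → y ∈ RelCWComplex.openCell n j → m = n :=
    fun hi hj => congrArg Sigma.fst (hdj hi hj)
  have heq : ∀ {n} {i j : RelCWComplex.cell (univ : Set X) n}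
      {y}, y ∈ RelCWComplex.openCell n i → y ∈ RelCWComplex.openCell n j → i = j :=
    fun hi hj => eq_of_heq (Sigma.mk.inj (hdj hi hj)).2
  have e4' : ∀ e A, IsClosed (ed e ⁻¹' A ∩ Icc (-1) 1) →
      IsClosed (A ∩ RelCWComplex.closedCell 1 e) := fun e A hA =>
    e4 e A (by simpa [Real.closedBall_eq_Icc] using hA)
  refine ⟨{ V := _, Ed := _, Fa := _, v0 := v0, vx := vx, ed := ed, fa := fa, src := src, tgt := tgt
            ed_src := hsrc, ed_tgt := htgt, cover := fun y => ?_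
            vx_inj := RelCWComplex.injective_map_zero _
            ed_inj := fun e e' t t' ht ht' h => ?_
            fa_inj := fun f f' z z' hz hz' h => ?_
            vx_ne_ed := fun a e t ht h => ?_
            vx_ne_fa := fun a f z hz h => ?_
            ed_ne_fa := fun e t f z ht hz h => ?_
            fa_bd := fun f z hz => ?_
            wt1 := fun A hA h => ?_
            wt2 := fun A h h' => ?_ }⟩
  · obtain ⟨m, i, hi⟩ := hall y
    rcases m with _ | _ | _ | m
    · exact Or.inl ⟨i, (v1 _ _).1 hi⟩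
    · exact Or.inr (Or.inl ⟨i, (e1 _ _).1 hi⟩)
    · exact Or.inr (Or.inr ⟨i, (f1 _ _).1 hi⟩)
    · exact (hdim _ (by omega)).elim i
  · obtain rfl : e = e' := heq ((e1 _ _).2 ⟨t, ht, rfl⟩) ((e1 _ _).2 ⟨t', ht', h⟩)
    exact ⟨rfl, e3 e t t' ht ht' h⟩
  · obtain rfl : f = f' := heq ((f1 _ _).2 ⟨z, hz, rfl⟩) ((f1 _ _).2 ⟨z', hz', h⟩)
    exact ⟨rfl, f3 f z z' hz hz' h⟩
  · exact absurd (hne ((v1 _ _).2 rfl) ((e1 _ _).2 ⟨t, ht, h⟩)) (by omega)
  · exact absurd (hne ((v1 _ _).2 rfl) ((f1 _ _).2 ⟨z, hz, h⟩)) (by omega)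
  · exact absurd (hne ((e1 _ _).2 ⟨t, ht, rfl⟩) ((f1 _ _).2 ⟨z, hz, h⟩)) (by omega)
  · obtain ⟨m, hm, i, hi⟩ := hfr 2 f _ (f2 f z hz)
    rcases m with _ | _ | m
    · exact Or.inl ⟨i, (v1 _ _).1 hi⟩
    · exact Or.inr ⟨i, (e1 _ _).1 hi⟩
    · omega
  · refine CWComplex.isClosed_of_disjoint_openCell_or_isClosed_inter_closedCell
      (C := (univ : Set X)) (subset_univ A) fun n hn j => ?_
    rcases eq_or_ne n 1 with rfl | hn1
    · exact Or.inr (e4' j A (h j))
    · refine Or.inl (disjoint_left.2 fun y hy hj => ?_)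
      rcases hA y hy with ⟨a, ha⟩ | ⟨e, he⟩
      · exact hn.ne (hne ((v1 _ _).2 ha) hj)
      · exact hn1 (hne hj ((e1 _ _).2 he))
  · refine CWComplex.isClosed_of_disjoint_openCell_or_isClosed_inter_closedCell
      (C := (univ : Set X)) (subset_univ A) fun n hn j => ?_
    rcases n with _ | _ | _ | n
    · omega
    · exact Or.inr (e4' j A (h j))
    · exact Or.inr (f4 j A (h' j))
    · exact (hdim _ (by omega)).elim j

end Vale.Agent.P173
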