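import Vale.Agent.P173.TDefs

/-! Existence and uniqueness of developing functions. -/

open Set Topology Filter unitInterval

namespace Vale.Agent.P173

theorem LC.eq_of_preconnected {B α : Type*} [TopologicalSpace B] [PreconnectedSpace B]
    {ψ : B → α} (h : LC univ ψ) (a b : B) : ψ a = ψ b :=
  ((IsLocallyConstant.iff_eventually_eq ψ).2 fun x => h x (mem_univ x)).apply_eq_of_preconnectedSpace
    a b

theorem dev_lc_comp {B B' α : Type*} [TopologicalSpace B] [TopologicalSpace B'] {O : Set B}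
    {ψ : B → α} (h : LC O ψ) {f : B' → B} (hf : Continuous f) : LC (f ⁻¹' O) fun b => ψ (f b) :=
  fun t ht => hf.continuousAt.eventually (h (f t) ht)

variable {B X ι G : Type*} [TopologicalSpace B] [TopologicalSpace X] [Group G]

theorem dev_unique [PreconnectedSpace B] {Z : Type*} (U : ι → Set Z) (lam : ι → Z → G) (f : B → Z)
    (hcov : ∀ b, ∃ i, f b ∈ U i) {D D' : B → G} (hD : IsDev U lam f D) (hD' : IsDev U lam f D')
    (a b : B) : (D a)⁻¹ * D b = (D' a)⁻¹ * D' b := by
  have h : LC univ fun b => D b * (D' b)⁻¹ := fun t _ => by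
    obtain ⟨i, hi⟩ := hcov t
    filter_upwards [hD i t hi, hD' i t hi] with s h1 h2
    calc D s * (D' s)⁻¹ = D s * (lam i (f s))⁻¹ * (D' s * (lam i (f s))⁻¹)⁻¹ := by group
      _ = D t * (D' t)⁻¹ := by rw [h1, h2]; group
  have h1 := h.eq_of_preconnected a b
  calc (D a)⁻¹ * D b = (D a)⁻¹ * (D b * (D' b)⁻¹) * D' b := by group
    _ = (D' a)⁻¹ * D' b := by rw [← h1]; group

theorem dev_cover.{u1, u2, u3} {X : Type u1} {ι : Type u2} {G : Type u3} [TopologicalSpace X]
    [Group G] (U : ι → Set X) (lam : ι → X → G) (hU : ∀ i, IsOpen (U i))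
    (hcov : ∀ b, ∃ i, b ∈ U i) (hc : ∀ i j, LC (U i ∩ U j) (fun b => lam i b * (lam j b)⁻¹)) :
    ∃ (T : Type (max u1 u3)) (_ : TopologicalSpace T) (p : T → X) (co : T → G),
      IsCoveringMap p ∧ Function.Surjective p ∧ IsDev U lam p co := by
  let _ : TopologicalSpace G := ⊥
  have : DiscreteTopology G := ⟨rfl⟩
  choose idx hidx using hcov
  let Z : FiberBundleCore ι X G :=
    { baseSet := U
      isOpen_baseSet := hU
      indexAt := idx
      mem_baseSet_at := hidx
      coordChange := fun i j x v => v * (lam i x * (lam j x)⁻¹)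
      coordChange_self := fun i x _ v => by simp
      continuousOn_coordChange := fun i j p hp => by
        refine ContinuousAt.continuousWithinAt ?_
        refine (continuousAt_const (y := p.2 * (lam i p.1 * (lam j p.1)⁻¹))).congr ?_
        have h1 := continuousAt_fst.eventually (hc i j p.1 hp.1)
        have h2 : ∀ᶠ q : X × G in 𝓝 p, q.2 = p.2 :=
          continuousAt_snd.eventually (p := fun v => v = p.2) (by simp)
        filter_upwards [h1, h2] with q e1 e2
        rw [e1, e2]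
      coordChange_comp := fun i j k x _ v => by group }
  refine ⟨Z.TotalSpace, inferInstance, Z.proj, fun t => (show G from t.2) * lam (idx t.1) t.1,
    IsFiberBundle.isCoveringMap fun x => ⟨Z.localTriv (idx x), hidx x⟩,
    fun x => ⟨⟨x, (1 : G)⟩, rfl⟩, fun i t ht => ?_⟩
  have h1 : ContinuousAt (fun s => (Z.localTriv i s).2) t :=
    continuousAt_snd.comp ((Z.localTriv i).continuousAt ht)
  have h2 := h1.eventually (p := fun v => v = (Z.localTriv i t).2) (by simp)
  filter_upwards [h2] with s hs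
  rw [mul_assoc, mul_assoc]
  exact hs

theorem dev_pull {T : Type*} [TopologicalSpace T] {Z : Type*} {U : ι → Set Z} {lam : ι → Z → G}
    {p : T → Z} {co : T → G} (h : IsDev U lam p co) {Γ : B → T} (hΓ : Continuous Γ) {f : B → Z}
    (hf : p ∘ Γ = f) : IsDev U lam f fun b => co (Γ b) := by
  subst hf
  exact fun i => dev_lc_comp (h i) hΓ

theorem dev_exists (U : ι → Set I) (lam : ι → I → G) (hU : ∀ i, IsOpen (U i))
    (hcov : ∀ b, ∃ i, b ∈ U i) (hc : ∀ i j, LC (U i ∩ U j) (fun b => lam i b * (lam j b)⁻¹)) :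
    ∃ D : I → G, IsDev U lam id D := by
  obtain ⟨T, _, p, co, hp, hs, hd⟩ := dev_cover U lam hU hcov hc
  obtain ⟨t, ht⟩ := hs 0
  obtain ⟨Γ, h1, -⟩ := hp.exists_path_lifts (ContinuousMap.id I) t ht.symm
  exact ⟨_, dev_pull hd Γ.continuous h1⟩

theorem dev_simply [SimplyConnectedSpace X] (U : ι → Set X) (lam : ι → X → G)
    (hU : ∀ i, IsOpen (U i)) (hcov : ∀ b, ∃ i, b ∈ U i)
    (hc : ∀ i j, LC (U i ∩ U j) (fun b => lam i b * (lam j b)⁻¹)) :
    ∃ P : X → G, ∀ (γ : C(I, X)) (D : I → G), IsDev U lam γ D →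
      (D 0)⁻¹ * D 1 = (P (γ 0))⁻¹ * P (γ 1) := by
  obtain ⟨T, _, p, co, hp, hs, hd⟩ := dev_cover U lam hU hcov hc
  obtain ⟨x₀⟩ : Nonempty X := inferInstance
  obtain ⟨t₀, ht₀⟩ := hs x₀
  let m : ∀ x, p ⁻¹' {x} := fun x =>
    hp.monodromy (.mk (PathConnectedSpace.somePath x₀ x)) ⟨t₀, ht₀⟩
  refine ⟨fun x => co (m x), fun γ D hD => ?_⟩
  let γ' : Path (γ 0) (γ 1) := ⟨γ, rfl, rfl⟩
  have h1 : m (γ 1) = hp.monodromy (.mk γ') (m (γ 0)) := by
    rw [← hp.monodromy_trans_apply]
    exact congrArg (fun q => hp.monodromy q ⟨t₀, ht₀⟩) (Subsingleton.elim _ _)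
  have h0 : γ 0 = p (m (γ 0)) := (m (γ 0)).2.symm
  have h2 := dev_unique U lam γ (fun b => hcov _) hD
    (dev_pull hd (hp.liftPath γ _ h0).continuous (hp.liftPath_lifts γ _ h0)) 0 1
  rw [hp.liftPath_zero] at h2
  rw [h2]
  beta_reduce
  rw [h1]
  rfl

end Vale.Agent.P173
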