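import Vale.Agent.P173.CxBasic
import Vale.Agent.P173.Dev

/-! Words of paths in the 1-skeleton. -/

universe u w

open Set Topology Filter unitInterval Metric

namespace Vale.Agent.P173

theorem IsPath.trans {V Ed : Type*} {src tgt : Ed → V} {a b c : V} {w w' : FreeGroup Ed}
    (h : IsPath src tgt a w b) (h' : IsPath src tgt b w' c) : IsPath src tgt a (w * w') c := by
  induction h' with
  | refl => rwa [mul_one]
  | fwd e _ ih => rw [← mul_assoc]; exact ih.fwd e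
  | bwd e _ ih => rw [← mul_assoc]; exact ih.bwd e

theorem IsPath.symm {V Ed : Type*} {src tgt : Ed → V} {a b : V} {w : FreeGroup Ed}
    (h : IsPath src tgt a w b) : IsPath src tgt b w⁻¹ a := by
  induction h with
  | refl => rw [inv_one]; exact .refl _
  | fwd e _ ih => simpa using ((IsPath.refl (tgt e)).bwd e).trans ih
  | bwd e _ ih => simpa using ((IsPath.refl (src e)).fwd e).trans ih

theorem cxw_map {B α β : Type*} [TopologicalSpace B] {O : Set B} {ψ : B → α} (h : LC O ψ)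
    (g : α → β) : LC O fun b => g (ψ b) :=
  fun t ht => (h t ht).mono fun _ hs => congrArg g hs

theorem cxw_neg {t : ℝ} (h : t < 0) : ∀ᶠ s in 𝓝[Icc (-1 : ℝ) 1] t, -1 ≤ s ∧ s < 0 := by
  filter_upwards [self_mem_nhdsWithin, nhdsWithin_le_nhds (Iio_mem_nhds h)] with s h1 h2
  exact ⟨h1.1, h2⟩

theorem cxw_pos {t : ℝ} (h : 0 < t) : ∀ᶠ s in 𝓝[Icc (-1 : ℝ) 1] t, 0 ≤ s ∧ s ≤ 1 := by
  filter_upwards [self_mem_nhdsWithin, nhdsWithin_le_nhds (Ioi_mem_nhds h)] with s h1 h2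
  exact ⟨le_of_lt h2, h1.2⟩

theorem cxw_abs {t : ℝ} (h : |t| < 1) : ∀ᶠ s in 𝓝[Icc (-1 : ℝ) 1] t, |s| < 1 :=
  nhdsWithin_le_nhds ((isOpen_lt continuous_abs continuous_const).mem_nhds h)

namespace Cx

variable {Y : Type u} [TopologicalSpace Y] (C : Cx.{u, w} Y) {G : Type*} [Group G]

/-- A function of a point of the 1-skeleton that is locally constant there stays locally
constant along a continuous map into the 1-skeleton. -/
theorem lc_comp {B α : Type*} [TopologicalSpace B] {γ : B → Y} (hγ : Continuous γ)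
    (hS : ∀ b, γ b ∈ C.S1) {O : Set Y} {ψ : Y → α}
    (h : ∀ y ∈ C.S1 ∩ O, ∀ᶠ y' in 𝓝[C.S1] y, ψ y' = ψ y) : LC (γ ⁻¹' O) (fun b => ψ (γ b)) :=
  fun t ht => (tendsto_nhdsWithin_iff.2 ⟨hγ.continuousAt, .of_forall hS⟩).eventually
    (h (γ t) ⟨hS t, ht⟩)

theorem cxw_iff {B : Type*} [TopologicalSpace B] (φ : FreeGroup C.Ed →* G) (γ : B → Y)
    (D : B → G) : C.Dev1 φ γ D ↔
      IsDev (fun b => cond b C.Us C.Uo) (fun b y => cond b 1 (φ (C.lam y))) γ D := by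
  simp only [Dev1, IsDev, Bool.forall_bool, cond_true, cond_false, inv_one, mul_one]
  exact and_comm

theorem cxw_cov {y : Y} (h : y ∈ C.S1) : ∃ b, y ∈ cond b C.Us C.Uo := by
  rw [← C.Us_union_Uo] at h
  exact h.elim (fun h => ⟨true, h⟩) fun h => ⟨false, h⟩

theorem cxw_open {B : Type*} [TopologicalSpace B] {γ : B → Y} (hγ : Continuous γ)
    (hS : ∀ b, γ b ∈ C.S1) {O : Set Y} (h : IsClosed (C.S1 \ O)) : IsOpen (γ ⁻¹' O) := by
  have : γ ⁻¹' O = (γ ⁻¹' (C.S1 \ O))ᶜ := by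
    ext b; simp [hS b]
  rw [this]
  exact (h.preimage hγ).isOpen_compl

theorem cxw_lam : ∀ y ∈ C.S1 ∩ (C.Us ∩ C.Uo), ∀ᶠ y' in 𝓝[C.S1] y, C.lam y' = C.lam y := by
  refine C.lc1 ?_ _ fun e t ht h => ?_
  · rw [sdiff_inter]
    exact C.isClosed_S1_diff_Us.union C.isClosed_S1_diff_Uo
  · have h1 := (C.ed_mem_Uo_iff e ht).1 h.2
    rcases ((C.ed_mem_Us_iff e ht).1 h.1).lt_or_gt with h2 | h2
    · filter_upwards [cxw_neg h2] with s hs
      rw [C.lam_ed_neg e hs.1 hs.2, C.lam_ed_neg e ht.1 h2]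
    · filter_upwards [cxw_pos h2, cxw_abs h1] with s hs hs'
      rw [C.lam_ed_pos e hs.1 (abs_lt.1 hs').2, C.lam_ed_pos e h2.le (abs_lt.1 h1).2]

theorem cxw_vert : ∀ y ∈ C.S1 ∩ C.Us, ∀ᶠ y' in 𝓝[C.S1] y, C.vert y' = C.vert y := by
  refine C.lc1 C.isClosed_S1_diff_Us _ fun e t ht h => ?_
  rcases ((C.ed_mem_Us_iff e ht).1 h).lt_or_gt with h2 | h2
  · filter_upwards [cxw_neg h2] with s hs
    rw [C.vert_ed_neg e hs.1 hs.2, C.vert_ed_neg e ht.1 h2]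
  · filter_upwards [cxw_pos h2] with s hs
    rw [C.vert_ed_pos e hs.1 hs.2, C.vert_ed_pos e h2.le ht.2]

open Classical in
/-- The source of the open edge containing a point. -/
noncomputable def cxwSrc (y : Y) : C.V :=
  if h : ∃ p : C.Ed × ℝ, |p.2| < 1 ∧ y = C.ed p.1 p.2 then C.src h.choose.1 else C.v0

theorem cxwSrc_ed (e : C.Ed) {t : ℝ} (h : |t| < 1) : C.cxwSrc (C.ed e t) = C.src e := by
  have h1 : ∃ p : C.Ed × ℝ, |p.2| < 1 ∧ C.ed e t = C.ed p.1 p.2 := ⟨(e, t), h, rfl⟩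
  rw [cxwSrc, dif_pos h1, ← (C.ed_inj _ _ _ _ h h1.choose_spec.1 h1.choose_spec.2).1]

theorem cxw_src : ∀ y ∈ C.S1 ∩ C.Uo, ∀ᶠ y' in 𝓝[C.S1] y, C.cxwSrc y' = C.cxwSrc y := by
  refine C.lc1 C.isClosed_S1_diff_Uo _ fun e t ht h => ?_
  have h1 := (C.ed_mem_Uo_iff e ht).1 h
  filter_upwards [cxw_abs h1] with s hs
  rw [C.cxwSrc_ed e hs, C.cxwSrc_ed e h1]

theorem cxw_switch {y : Y} (hy : y ∈ C.Uo) (a : C.V) (w : FreeGroup C.Ed) :
    IsPath C.src C.tgt a w (C.vert y) ↔ IsPath C.src C.tgt a (w * (C.lam y)⁻¹) (C.cxwSrc y) := by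
  obtain ⟨e, t, ht, rfl⟩ := hy
  rw [C.cxwSrc_ed e ht]
  rcases lt_or_ge t 0 with h | h
  · rw [C.vert_ed_neg e (abs_lt.1 ht).1.le h, C.lam_ed_neg e (abs_lt.1 ht).1.le h, inv_one, mul_one]
  · rw [C.vert_ed_pos e h (abs_lt.1 ht).2.le, C.lam_ed_pos e h (abs_lt.1 ht).2]
    exact ⟨fun h => h.bwd e, fun h => by simpa using h.fwd e⟩

theorem exists_dev1 (φ : FreeGroup C.Ed →* G) (γ : C(I, Y)) (hγ : ∀ t, γ t ∈ C.S1) :
    ∃ D : I → G, C.Dev1 φ γ D := by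
  have h1 := C.lc_comp γ.continuous hγ C.cxw_lam
  obtain ⟨D, hD⟩ := dev_exists (fun b => γ ⁻¹' cond b C.Us C.Uo)
    (fun b t => cond b 1 (φ (C.lam (γ t)))) (by
      rintro (_ | _)
      exacts [C.cxw_open γ.continuous hγ C.isClosed_S1_diff_Uo,
        C.cxw_open γ.continuous hγ C.isClosed_S1_diff_Us]) (fun t => C.cxw_cov (hγ t)) (by
      rintro (_ | _) (_ | _) t ht
      · simp
      · exact cxw_map h1 (fun x => φ x * (1 : G)⁻¹) t ⟨ht.2, ht.1⟩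
      · exact cxw_map h1 (fun x => 1 * (φ x)⁻¹) t ⟨ht.1, ht.2⟩
      · simp)
  exact ⟨D, (C.cxw_iff φ γ D).2 hD⟩

theorem dev1_unique {B : Type*} [TopologicalSpace B] [PreconnectedSpace B]
    (φ : FreeGroup C.Ed →* G) (γ : B → Y) (hγ : ∀ t, γ t ∈ C.S1) {D D' : B → G}
    (h : C.Dev1 φ γ D) (h' : C.Dev1 φ γ D') (a b : B) : (D a)⁻¹ * D b = (D' a)⁻¹ * D' b :=
  dev_unique _ _ γ (fun t => C.cxw_cov (hγ t)) ((C.cxw_iff φ γ D).1 h) ((C.cxw_iff φ γ D').1 h') a b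

theorem Dev1.map {B G' : Type*} [TopologicalSpace B] [Group G'] {φ : FreeGroup C.Ed →* G}
    {γ : B → Y} {D : B → G} (h : C.Dev1 φ γ D) (ψ : G →* G') :
    C.Dev1 (ψ.comp φ) γ (fun b => ψ (D b)) :=
  ⟨cxw_map h.1 ψ, by simpa using cxw_map h.2 ψ⟩

theorem rel_spec (φ : FreeGroup C.Ed →* G) (f : C.Fa) {D : I → G} (h : C.Dev1 φ (C.loop f) D) :
    (D 0)⁻¹ * D 1 = φ (C.rel f) := by
  have h1 := C.exists_dev1 (MonoidHom.id _) (C.loop f) (C.loop_mem_S1 f)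
  rw [rel, dif_pos h1, map_mul, map_inv]
  exact C.dev1_unique φ _ (C.loop_mem_S1 f) h (Dev1.map C h1.choose_spec φ) 0 1

theorem epath_spec (φ : FreeGroup C.Ed →* G) (e : C.Ed) {D : I → G}
    (h : C.Dev1 φ (C.epath e) D) : (D 0)⁻¹ * D 1 = φ (FreeGroup.of e) := by
  have hI : ∀ t : I, 2 * (t : ℝ) - 1 ∈ Icc (-1 : ℝ) 1 := fun t =>
    ⟨by linarith [t.2.1], by linarith [t.2.2]⟩
  have hc : Continuous fun t : I => 2 * (t : ℝ) - 1 := by fun_prop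
  have h1 : C.Dev1 φ (C.epath e) fun t : I =>
      if 2 * (t : ℝ) - 1 < 0 then 1 else φ (FreeGroup.of e) := by
    refine ⟨fun t ht => ?_, fun t ht => ?_⟩
    · rcases ((C.ed_mem_Us_iff e (hI t)).1 ht).lt_or_gt with h2 | h2
      · filter_upwards [(isOpen_lt hc continuous_const).mem_nhds h2] with s hs
        rw [if_pos hs, if_pos h2]
      · filter_upwards [(isOpen_lt continuous_const hc).mem_nhds h2] with s hs
        rw [if_neg (not_lt.2 (le_of_lt hs)), if_neg (not_lt.2 h2.le)]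
    · have k : ∀ s : I, |2 * (s : ℝ) - 1| < 1 →
          (if 2 * (s : ℝ) - 1 < 0 then 1 else φ (FreeGroup.of e)) *
            (φ (C.lam (C.ed e (2 * (s : ℝ) - 1))))⁻¹ = 1 := fun s hs => by
        split_ifs with h2
        · rw [C.lam_ed_neg e (hI s).1 h2]; simp
        · rw [C.lam_ed_pos e (not_lt.1 h2) (abs_lt.1 hs).2]; simp
      have h2 := (C.ed_mem_Uo_iff e (hI t)).1 ht
      filter_upwards [(isOpen_lt hc.abs continuous_const).mem_nhds h2] with s hs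
      exact (k s hs).trans (k t h2).symm
  rw [C.dev1_unique φ _ (C.epath_mem_S1 e) h h1 0 1]
  norm_num

theorem isPath_of_dev1 (γ : C(I, Y)) (hγ : ∀ t, γ t ∈ C.S1) {D : I → FreeGroup C.Ed}
    (h : C.Dev1 (MonoidHom.id _) γ D) (t : I) :
    IsPath C.src C.tgt (C.vert (γ 0)) ((D 0)⁻¹ * D t) (C.vert (γ t)) := by
  have h1 : LC univ fun t => IsPath C.src C.tgt (C.vert (γ 0)) ((D 0)⁻¹ * D t) (C.vert (γ t)) := by
    intro t _
    obtain ⟨_ | _, ht⟩ := C.cxw_cov (hγ t)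
    · filter_upwards [h.2 t ht, C.lc_comp γ.continuous hγ C.cxw_src t ht,
        (C.cxw_open γ.continuous hγ C.isClosed_S1_diff_Uo).mem_nhds ht] with s e1 e2 e3
      rw [C.cxw_switch e3, C.cxw_switch ht, mul_assoc, mul_assoc, e2]
      exact congrArg (fun x => IsPath C.src C.tgt _ ((D 0)⁻¹ * x) _) e1
    · filter_upwards [h.1 t ht, C.lc_comp γ.continuous hγ C.cxw_vert t ht] with s e1 e2
      rw [e1, e2]
  rw [h1.eq_of_preconnected t 0, inv_mul_cancel]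
  exact .refl _

theorem cxw_loop0 (f : C.Fa) : C.loop f 0 = C.fa f 1 := by simp [loop]

theorem cxw_loop1 (f : C.Fa) : C.loop f 1 = C.fa f 1 := by simp [loop]

theorem path_rel (f : C.Fa) : IsPath C.src C.tgt (C.bs f) (C.rel f) (C.bs f) := by
  obtain ⟨D, hD⟩ := C.exists_dev1 (MonoidHom.id _) (C.loop f) (C.loop_mem_S1 f)
  have h := C.isPath_of_dev1 _ (C.loop_mem_S1 f) hD 1
  rwa [C.rel_spec _ f hD, cxw_loop0, cxw_loop1] at h

theorem cxw_bd (f : C.Fa) {z : ℂ} (hz : ‖z‖ = 1) :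
    ∃ w, IsPath C.src C.tgt (C.bs f) w (C.vert (C.fa f z)) := by
  obtain ⟨θ, rfl⟩ := (Complex.norm_eq_one_iff z).1 hz
  obtain ⟨D, hD⟩ := C.exists_dev1 (MonoidHom.id _) (C.loop f) (C.loop_mem_S1 f)
  have h := C.isPath_of_dev1 _ (C.loop_mem_S1 f) hD
    ⟨Int.fract (θ / (2 * Real.pi)), Int.fract_nonneg _, (Int.fract_lt_one _).le⟩
  have e : Complex.exp (2 * Real.pi * (Int.fract (θ / (2 * Real.pi)) : ℝ) * Complex.I)
      = Complex.exp (θ * Complex.I) := by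
    refine Complex.exp_eq_exp_iff_exists_int.2 ⟨-⌊θ / (2 * Real.pi)⌋, ?_⟩
    have : (Real.pi : ℂ) ≠ 0 := by exact_mod_cast Real.pi_ne_zero
    rw [Int.fract]
    push_cast
    field_simp
    ring
  rw [cxw_loop0] at h
  rw [← e]
  exact ⟨_, h⟩

open Classical in
/-- A vertex joined to a point. -/
noncomputable def cxwNear (y : Y) : C.V :=
  if h : ∃ p : C.Fa × ℂ, ‖p.2‖ < 1 ∧ y = C.fa p.1 p.2 then C.bs h.choose.1 else C.vert y

theorem cxwNear_S1 {y : Y} (h : y ∈ C.S1) : C.cxwNear y = C.vert y := by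
  refine dif_neg ?_
  rintro ⟨p, h1, rfl⟩
  exact h1.ne ((C.fa_mem_S1_iff p.1 h1.le).1 h)

theorem cxwNear_fa (f : C.Fa) {z : ℂ} (h : ‖z‖ < 1) : C.cxwNear (C.fa f z) = C.bs f := by
  have h1 : ∃ p : C.Fa × ℂ, ‖p.2‖ < 1 ∧ C.fa f z = C.fa p.1 p.2 := ⟨(f, z), h, rfl⟩
  rw [cxwNear, dif_pos h1, ← (C.fa_inj _ _ _ _ h h1.choose_spec.1 h1.choose_spec.2).1]

theorem conn [PreconnectedSpace Y] (a b : C.V) : ∃ w, IsPath C.src C.tgt a w b := by
  have k : ∀ {x y : C.V}, (∃ w, IsPath C.src C.tgt x w y) →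
      (∃ w, IsPath C.src C.tgt a w y) = ∃ w, IsPath C.src C.tgt a w x := by
    rintro x y ⟨w, hw⟩
    exact propext ⟨fun ⟨_, h⟩ => ⟨_, h.trans hw.symm⟩, fun ⟨_, h⟩ => ⟨_, h.trans hw⟩⟩
  have h1 : ∀ e, ∀ t ∈ Icc (-1 : ℝ) 1, ∃ w, IsPath C.src C.tgt (C.src e) w
      (C.cxwNear (C.ed e t)) := fun e t ht => by
    rw [C.cxwNear_S1 (C.ed_mem_S1 e ht)]
    rcases lt_or_ge t 0 with h | h
    · rw [C.vert_ed_neg e ht.1 h]; exact ⟨_, .refl _⟩
    · rw [C.vert_ed_pos e h ht.2]; exact ⟨_, (IsPath.refl _).fwd e⟩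
  have h2 : ∀ f, ∀ z ∈ closedBall (0 : ℂ) 1, ∃ w, IsPath C.src C.tgt (C.bs f) w
      (C.cxwNear (C.fa f z)) := fun f z hz => by
    rcases (mem_closedBall_zero_iff.1 hz).lt_or_eq with h | h
    · rw [C.cxwNear_fa f h]; exact ⟨_, .refl _⟩
    · rw [C.cxwNear_S1 ((C.fa_mem_S1_iff f h.le).2 h)]; exact C.cxw_bd f h
  have h3 := C.lc2 isOpen_univ (fun y => ∃ w, IsPath C.src C.tgt a w (C.cxwNear y))
    (fun e t ht _ => by
      filter_upwards [self_mem_nhdsWithin] with s hs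
      rw [k (h1 e s hs), k (h1 e t ht)])
    (fun f z hz _ => by
      filter_upwards [self_mem_nhdsWithin] with s hs
      rw [k (h2 f s hs), k (h2 f z hz)])
  have h4 := h3.eq_of_preconnected (C.vx b) (C.vx a)
  have h5 : ∀ x, C.cxwNear (C.vx x) = x := fun x => by
    rw [C.cxwNear_S1 (Or.inl ⟨x, rfl⟩), C.vert_vx]
  simp only [h5] at h4
  rw [h4]
  exact ⟨_, .refl _⟩

end Cx

end Vale.Agent.P173
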