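import Vale.Agent.P173.Build
import Vale.Agent.P173.Zig

/-! Basic facts on the setup; the selected triples imply flatness. -/

universe u

namespace Vale.Agent.P173.Setup

variable {V : Type} [Fintype V] [DecidableEq V] {G : SimpleGraph V} {A : V → Type}
  [∀ v, AddCommGroup (A v)] (S : Setup.{u} G A)

theorem vr_eq_iff {c c' : GP G A} {τ₀ τ₁ τ₀' τ₁' : Finset V} :
    S.vr c τ₀ τ₁ = S.vr c' τ₀' τ₁' ↔ τ₀ = τ₀' ∧ τ₁ = τ₁' ∧ c⁻¹ * c' ∈ Par G A (τ₀ : Set V) := by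
  constructor
  · intro h
    have h1 := Sum.inl_injective h
    have h2 : (τ₀, τ₁) = (τ₀', τ₁') := congrArg Sigma.fst h1
    obtain ⟨rfl, rfl⟩ := Prod.mk.inj h2
    exact ⟨rfl, rfl, QuotientGroup.eq.1 (eq_of_heq (Sigma.mk.inj h1).2)⟩
  · rintro ⟨rfl, rfl, h⟩
    unfold vr
    rw [QuotientGroup.eq.2 h]

theorem InB.mono {i : V} {c : GP G A} {τ τ' : Finset V} (h : S.InB i c τ) (hτ : τ ⊆ τ') :
    S.InB i c τ' := fun v hv => h v fun h' => hv (hτ h')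

theorem flat_pos_mul (c g : GP G A) (v : V) : S.pos (c * g) v = S.pos c v + crd G g v := by
  simp [pos, add_assoc]

theorem InB.of_mem_Par {i : V} {c c' : GP G A} {τ : Finset V} (h : S.InB i c τ)
    (hc : c⁻¹ * c' ∈ Par G A (τ : Set V)) : S.InB i c' τ := by
  intro v hv
  have e : c' = c * (c⁻¹ * c') := by group
  rw [e, flat_pos_mul, crd_of_mem_Par G hc (by simpa using hv), add_zero]
  exact h v hv

theorem InB.mul_of_mem_Sub {i : V} {c g : GP G A} {τ : Finset V} (h : S.InB i c τ)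
    (hg : g ∈ Sub G (S.B i)) : S.InB i (c * g) τ := by
  intro v hv
  rw [flat_pos_mul]
  exact add_mem (h v hv) (crd_of_mem_Sub G hg v)

theorem inB_one_iff {i : V} {τ : Finset V} : S.InB i 1 τ ↔ i ∈ τ := by
  have e : ∀ v, S.pos 1 v = S.s v := fun v => by simp [pos]
  constructor
  · intro h
    by_contra hi
    have := h i hi
    rw [e, S.hs] at this
    exact this rfl
  · intro hi v hv
    rw [e, S.hs]
    rintro rfl
    exact hv hi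

theorem pos_t_mul (g : KK G A) : S.pos (S.t * g) = 0 := by
  have h : crd G (g : GP G A) = 0 := (mem_KK G).1 g.2
  simp [pos, t, h]

theorem inB_t_mul (i : V) (g : KK G A) (τ : Finset V) : S.InB i (S.t * g) τ := by
  intro v _
  rw [pos_t_mul]
  exact zero_mem _

theorem triw_map {H H' : Type*} [Group H] [Group H'] (φ : H →* H') (x : S.X → H) (c : GP G A)
    (τ₀ τ₁ τ₂ : Finset V) : φ (S.triw x c τ₀ τ₁ τ₂) = S.triw (fun y => φ (x y)) c τ₀ τ₁ τ₂ := by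
  simp [triw]

theorem flat_gal_map {H H' : Type*} [Group H] [Group H'] (φ : H →* H') (x : S.X → H)
    (l : List (Σ v, A v)) (c : GP G A) : φ (S.gal x c l) = S.gal (fun y => φ (x y)) c l := by
  induction l generalizing c with
  | nil => simp [gal]
  | cons y l ih => simp [gal, step, ih]

theorem lab_map {H H' : Type*} [Group H] [Group H'] (φ : H →* H') (x : S.X → H) (g : KK G A)
    (e : S.D.Ed) : φ (S.lab x g e) = S.lab (fun y => φ (x y)) g e := by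
  unfold lab
  split_ifs
  · exact S.flat_gal_map φ x _ _
  · rfl

theorem flat_triw_congr {H : Type*} [Group H] (x : S.X → H) {c c' : GP G A} {τ₀ τ₁ : Finset V}
    (τ₂ : Finset V) (h : c⁻¹ * c' ∈ Par G A (τ₀ : Set V)) (h01 : τ₀ ⊆ τ₁) :
    S.triw x c τ₀ τ₁ τ₂ = S.triw x c' τ₀ τ₁ τ₂ := by
  unfold triw
  rw [S.vr_eq_iff.2 ⟨rfl, rfl, h⟩, (S.vr_eq_iff (τ₁ := τ₂)).2 ⟨rfl, rfl, h⟩,
    (S.vr_eq_iff (τ₁ := τ₂)).2 ⟨rfl, rfl, Par_mono G (Finset.coe_subset.2 h01) h⟩]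

theorem flat_of {H : Type*} [Group H] (x : S.X → H)
    (hT : ∀ c τ₀ τ₁ τ₂, S.IsT c τ₀ τ₁ τ₂ → S.triw x c τ₀ τ₁ τ₂ = 1)
    (hC : ∀ τ₀ τ₁ τ₂, τ₀.Nonempty → Tri G τ₀ τ₁ τ₂ → S.triw x 1 τ₀ τ₁ τ₂ = 1) : S.Flat x := by
  intro c
  induction hn : len G c using Nat.strong_induction_on generalizing c with
  | _ n ih =>
  subst hn
  have hA : ∀ τ₀ τ₁ τ₂, ¬ Disjoint τ₀ (Desc G c) → Tri G τ₀ τ₁ τ₂ → S.InW c τ₀ →
      S.triw x c τ₀ τ₁ τ₂ = 1 := by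
    rintro τ₀ τ₁ τ₂ hd ht ⟨i, hi⟩
    have hc0 : Clq G τ₀ := ht.2.2.mono (ht.1.1.trans ht.2.1.1)
    rw [S.flat_triw_congr x τ₂ (first_mem G c τ₀) ht.1.1]
    exact ih _ (len_first_lt G hc0 hd) _ rfl τ₀ τ₁ τ₂ ht ⟨i, hi.of_mem_Par S (first_mem G c τ₀)⟩
  intro τ₀ τ₁ τ₂ ht hW
  by_cases hd : Disjoint τ₀ (Desc G c)
  swap
  · exact hA τ₀ τ₁ τ₂ hd ht hW
  by_cases hc : c = 1
  · subst hc
    obtain ⟨i, hi⟩ := hW
    exact hC τ₀ τ₁ τ₂ ⟨i, S.inB_one_iff.1 hi⟩ ht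
  by_cases hE : S.InW c ∅
  swap
  · exact hT c τ₀ τ₁ τ₂ ⟨hc, ht, hd, hW, fun h => absurd h hE⟩
  have hsel : ∀ τ τ', τ.Nonempty → τ ⊂ τ' → Clq G τ' →
      (Disjoint τ (Desc G c) ∨ τ = τ' ∩ Desc G c ∨ τ' = Desc G c) →
      x (S.vr c ∅ τ) * x (S.vr c τ τ') = x (S.vr c ∅ τ') := by
    intro τ τ' h1 h2 h3 h4
    exact mul_inv_eq_one.1 (hT c ∅ τ τ' ⟨hc, ⟨Finset.empty_ssubset.2 h1, h2, h3⟩,
      Finset.disjoint_empty_left _, hE, fun _ => ⟨rfl, h4⟩⟩)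
  have hK : ∀ τ τ', τ.Nonempty → τ ⊂ τ' → Clq G τ' →
      x (S.vr c ∅ τ) * x (S.vr c τ τ') = x (S.vr c ∅ τ') := by
    intro τ τ' h1 h2 h3
    by_cases h4 : Disjoint τ (Desc G c)
    · exact hsel τ τ' h1 h2 h3 (Or.inl h4)
    refine zig_pot (clq_desc G c) (fun a b => x (S.vr c a b)) (fun a b d h5 h6 => ?_)
      (fun a => x (S.vr c ∅ a)) (fun a h5 h6 h7 => ?_) (fun a h5 h6 => ?_) τ τ' h4 h2 h3
    · obtain ⟨i, hi⟩ := hE
      exact mul_inv_eq_one.1 (hA a b d h5 h6 ⟨i, hi.mono S (Finset.empty_subset _)⟩)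
    · exact hsel _ _ (Finset.not_disjoint_iff_nonempty_inter.1 h5) h6 h7 (Or.inr (Or.inl rfl))
    · exact hsel _ _ h5 h6 (clq_desc G c) (Or.inr (Or.inr rfl))
  unfold triw
  rw [mul_inv_eq_one]
  rcases τ₀.eq_empty_or_nonempty with rfl | h0
  · exact hK τ₁ τ₂ (Finset.empty_ssubset.1 ht.1) ht.2.1 ht.2.2
  · have e1 := hK τ₀ τ₁ h0 ht.1 (ht.2.2.mono ht.2.1.1)
    have e2 := hK τ₁ τ₂ (h0.mono ht.1.1) ht.2.1 ht.2.2
    have e3 := hK τ₀ τ₂ h0 (ht.1.trans ht.2.1) ht.2.2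
    apply mul_left_cancel (a := x (S.vr c ∅ τ₀))
    rw [← mul_assoc, e1, e2, e3]

end Vale.Agent.P173.Setup
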