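import Vale.Agent.P173.Defs

/-! Graph products of abelian groups: definition, walls, length, descent sets. -/

namespace Vale.Agent.P173

variable {V : Type} (G : SimpleGraph V) (A : V → Type) [∀ v, AddCommGroup (A v)]

/-- Relators of the graph product. -/
def rels : Set (FreeGroup (Σ v, A v)) :=
  {w | (∃ v a b, w = FreeGroup.of ⟨v, a⟩ * FreeGroup.of ⟨v, b⟩ * (FreeGroup.of ⟨v, a + b⟩)⁻¹) ∨
    ∃ u v a b, G.Adj u v ∧ w = FreeGroup.of ⟨u, a⟩ * FreeGroup.of ⟨v, b⟩ *
      (FreeGroup.of ⟨v, b⟩ * FreeGroup.of ⟨u, a⟩)⁻¹}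

/-- The graph product. -/
def GP : Type := PresentedGroup (rels G A)

instance : Group (GP G A) := inferInstanceAs (Group (PresentedGroup (rels G A)))

variable {A}

/-- The generator attached to `a : A v`. -/
def gen (v : V) (a : A v) : GP G A := (PresentedGroup.of ⟨v, a⟩ : PresentedGroup (rels G A))

theorem gen_add (v : V) (a b : A v) : gen G v (a + b) = gen G v a * gen G v b := by
  have h : (PresentedGroup.mk (rels G A)) (FreeGroup.of ⟨v, a⟩ * FreeGroup.of ⟨v, b⟩ *
      (FreeGroup.of ⟨v, a + b⟩)⁻¹) = 1 := PresentedGroup.one_of_mem (Or.inl ⟨v, a, b, rfl⟩)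
  rw [map_mul, map_mul, map_inv, mul_inv_eq_one] at h
  exact h.symm

theorem gen_comm {u v : V} (h : G.Adj u v) (a : A u) (b : A v) :
    gen G u a * gen G v b = gen G v b * gen G u a := by
  have h : (PresentedGroup.mk (rels G A)) (FreeGroup.of ⟨u, a⟩ * FreeGroup.of ⟨v, b⟩ *
      (FreeGroup.of ⟨v, b⟩ * FreeGroup.of ⟨u, a⟩)⁻¹) = 1 :=
    PresentedGroup.one_of_mem (Or.inr ⟨u, v, a, b, h, rfl⟩)
  rw [map_mul, map_mul, map_inv, mul_inv_eq_one, map_mul] at h
  exact h

@[simp] theorem gen_zero (v : V) : gen G v (0 : A v) = 1 := by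
  have := gen_add G v (0 : A v) 0
  rw [add_zero] at this
  exact left_eq_mul.1 this

theorem gen_neg (v : V) (a : A v) : gen G v (-a) = (gen G v a)⁻¹ := by
  rw [eq_inv_iff_mul_eq_one, ← gen_add, neg_add_cancel, gen_zero]

/-- Universal property. -/
def lift {H : Type*} [Group H] (f : ∀ v, A v → H) (hadd : ∀ v a b, f v (a + b) = f v a * f v b)
    (hcomm : ∀ u v a b, G.Adj u v → f u a * f v b = f v b * f u a) : GP G A →* H :=
  PresentedGroup.toGroup (f := fun x : Σ v, A v => f x.1 x.2) (by
    rintro r (⟨v, a, b, rfl⟩ | ⟨u, v, a, b, h, rfl⟩)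
    · simp [hadd]
    · simp [hcomm u v a b h])

@[simp] theorem lift_gen {H : Type*} [Group H] (f : ∀ v, A v → H)
    (hadd : ∀ v a b, f v (a + b) = f v a * f v b)
    (hcomm : ∀ u v a b, G.Adj u v → f u a * f v b = f v b * f u a) (v : V) (a : A v) :
    lift G f hadd hcomm (gen G v a) = f v a :=
  PresentedGroup.toGroup.of _

theorem hom_ext {H : Type*} [Group H] {f g : GP G A →* H}
    (h : ∀ v a, f (gen G v a) = g (gen G v a)) : f = g :=
  PresentedGroup.ext (fun x => h x.1 x.2)

/-- Product of a list of letters. -/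
def wprod (l : List (Σ v, A v)) : GP G A := (l.map fun x => gen G x.1 x.2).prod

@[simp] theorem wprod_nil : wprod G ([] : List (Σ v, A v)) = 1 := rfl

@[simp] theorem wprod_cons (x : Σ v, A v) (l : List (Σ v, A v)) :
    wprod G (x :: l) = gen G x.1 x.2 * wprod G l := by simp [wprod]

@[simp] theorem wprod_append (l l' : List (Σ v, A v)) :
    wprod G (l ++ l') = wprod G l * wprod G l' := by simp [wprod]

theorem closure_gen : Subgroup.closure {g : GP G A | ∃ v a, g = gen G v a} = ⊤ := by
  have h := PresentedGroup.closure_range_of (rels G A)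
  rw [eq_top_iff] at h ⊢
  refine h.trans (Subgroup.closure_mono ?_)
  rintro _ ⟨x, rfl⟩
  exact ⟨x.1, x.2, rfl⟩

theorem exists_wprod (g : GP G A) : ∃ l, wprod G l = g := by
  have hg : g ∈ Subgroup.closure {g : GP G A | ∃ v a, g = gen G v a} := by
    rw [closure_gen]; trivial
  induction hg using Subgroup.closure_induction'' with
  | mem x hx => obtain ⟨v, a, rfl⟩ := hx; exact ⟨[⟨v, a⟩], by simp⟩
  | inv_mem x hx => obtain ⟨v, a, rfl⟩ := hx; exact ⟨[⟨v, -a⟩], by simp [gen_neg]⟩
  | one => exact ⟨[], rfl⟩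
  | mul x y _ _ hx hy =>
    obtain ⟨l, rfl⟩ := hx; obtain ⟨l', rfl⟩ := hy; exact ⟨l ++ l', by simp⟩

/-- Subgroup generated by the letters in the subgroups `B v`. -/
def Sub (B : ∀ v, AddSubgroup (A v)) : Subgroup (GP G A) :=
  Subgroup.closure {g | ∃ v a, a ∈ B v ∧ g = gen G v a}

variable (A) in
/-- Standard parabolic subgroup. -/
def Par (τ : Set V) : Subgroup (GP G A) := Subgroup.closure {g | ∃ v ∈ τ, ∃ a, g = gen G v a}

theorem gen_mem_Par {τ : Set V} {v : V} (h : v ∈ τ) (a : A v) : gen G v a ∈ Par G A τ :=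
  Subgroup.subset_closure ⟨v, h, a, rfl⟩

theorem gen_mem_Sub {B : ∀ v, AddSubgroup (A v)} {v : V} {a : A v} (h : a ∈ B v) :
    gen G v a ∈ Sub G B :=
  Subgroup.subset_closure ⟨v, a, h, rfl⟩

theorem Par_mono {τ τ' : Set V} (h : τ ⊆ τ') : Par G A τ ≤ Par G A τ' :=
  Subgroup.closure_mono fun _ ⟨v, hv, a, e⟩ => ⟨v, h hv, a, e⟩

variable (A) in
/-- The stabiliser of the standard wall of type `v`. -/
def St (v : V) : Subgroup (GP G A) := Par G A {u | u = v ∨ G.Adj v u}

variable (A) in
/-- Walls. -/
abbrev Wall : Type := Σ v, GP G A ⧸ St G A v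

/-- The wall of type `v` through the chamber `c`. -/
abbrev wall (c : GP G A) (v : V) : Wall G A := ⟨v, (c : GP G A ⧸ St G A v)⟩

theorem mk_mul_gen (c : GP G A) {u v : V} (h : u = v ∨ G.Adj v u) (a : A u) :
    ((c * gen G u a : GP G A) : GP G A ⧸ St G A v) = (c : GP G A ⧸ St G A v) :=
  QuotientGroup.mk_mul_of_mem c (gen_mem_Par G (τ := {u | u = v ∨ G.Adj v u}) h a)

open Classical in
/-- The function on walls supported at one wall. -/
noncomputable def sgl (v : V) (q : GP G A ⧸ St G A v) (a : A v) : ∀ w : Wall G A, A w.1 :=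
  Pi.single (M := fun w : Wall G A => A w.1) ⟨v, q⟩ a

theorem sgl_add (v : V) (q : GP G A ⧸ St G A v) (a b : A v) :
    sgl G v q (a + b) = sgl G v q a + sgl G v q b := by
  classical
  unfold sgl
  exact Pi.single_add (f := fun w : Wall G A => A w.1) ⟨v, q⟩ a b

@[simp] theorem sgl_self (v : V) (q : GP G A ⧸ St G A v) (a : A v) : sgl G v q a ⟨v, q⟩ = a := by
  classical
  unfold sgl
  exact Pi.single_eq_same _ _

theorem sgl_ne (v : V) (q : GP G A ⧸ St G A v) (a : A v) {w : Wall G A} (h : w ≠ ⟨v, q⟩) :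
    sgl G v q a w = 0 := by
  classical
  unfold sgl
  exact Pi.single_eq_of_ne h _

/-- The wall cocycle as a homomorphism to a wreath product. -/
noncomputable def wallHom : GP G A →* Wr (GP G A) (Multiplicative (∀ w : Wall G A, A w.1)) :=
  lift G (fun v a => ⟨fun c => Multiplicative.ofAdd (sgl G v c a), gen G v a⟩)
    (fun v a b => by
      refine Wr.ext (funext fun c => ?_) (gen_add G v a b)
      simp only [Wr.mul_fn]
      rw [mk_mul_gen G c (Or.inl rfl) a, sgl_add, ofAdd_add])
    (fun u v a b h => by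
      refine Wr.ext (funext fun c => ?_) (gen_comm G h a b)
      simp only [Wr.mul_fn]
      rw [mk_mul_gen G c (Or.inr h.symm) a, mk_mul_gen G c (Or.inr h) b]
      exact mul_comm _ _)

/-- Change of the wall coordinates along `g`, starting from the chamber `c`. -/
noncomputable def NN (c g : GP G A) : ∀ w : Wall G A, A w.1 :=
  Multiplicative.toAdd ((wallHom G g).fn c)

theorem wallHom_el (g : GP G A) : (wallHom G g).el = g := by
  have : (Wr.elHom).comp (wallHom G (A := A)) = MonoidHom.id _ :=
    hom_ext G fun v a => by simp [wallHom, Wr.elHom]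
  exact DFunLike.congr_fun this g

@[simp] theorem NN_one (c : GP G A) : NN G c 1 = 0 := by simp [NN]

theorem NN_mul (c g h : GP G A) : NN G c (g * h) = NN G c g + NN G (c * g) h := by
  simp [NN, wallHom_el]

theorem NN_gen (c : GP G A) (v : V) (a : A v) : NN G c (gen G v a) = sgl G v c a := by
  simp [NN, wallHom]

/-- Number of walls separating `g` from `1`. -/
noncomputable def len (g : GP G A) : ℕ := {w | NN G 1 g w ≠ 0}.ncard

/-- The coordinate of `g` at its own wall of type `v`. -/
noncomputable def nv (g : GP G A) (v : V) : A v := NN G 1 g (wall G g v)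

variable [DecidableEq V]

/-- The map to the direct product. -/
def piHom : GP G A →* Multiplicative (∀ v, A v) :=
  lift G (fun v a => Multiplicative.ofAdd (Pi.single v a))
    (fun v a b => by rw [Pi.single_add, ofAdd_add]) (fun _ _ _ _ _ => mul_comm _ _)

/-- Coordinates of an element in the direct product. -/
def crd (g : GP G A) : ∀ v, A v := Multiplicative.toAdd (piHom G g)

@[simp] theorem crd_one : crd G (1 : GP G A) = 0 := by simp [crd]
@[simp] theorem crd_mul (g h : GP G A) : crd G (g * h) = crd G g + crd G h := by simp [crd]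
@[simp] theorem crd_inv (g : GP G A) : crd G g⁻¹ = -crd G g := by simp [crd]
@[simp] theorem crd_gen (v : V) (a : A v) : crd G (gen G v a) = Pi.single v a := by
  simp [crd, piHom]

variable (A) in
/-- The cartesian subgroup: kernel of the map to the direct product. -/
def KK : Subgroup (GP G A) := (piHom G).ker

theorem mem_KK {g : GP G A} : g ∈ KK G A ↔ crd G g = 0 := by
  rw [KK, MonoidHom.mem_ker, crd]; rfl

variable [Fintype V]

open Classical in
/-- Descent set. -/
noncomputable def Desc (g : GP G A) : Finset V := Finset.univ.filter fun v => nv G g v ≠ 0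

/-- A section of `crd`. -/
noncomputable def sec (x : ∀ v, A v) : GP G A :=
  wprod G ((Finset.univ : Finset V).toList.map fun v => ⟨v, x v⟩)

/-- The first chamber of the face of type `τ` of the chamber `c`. -/
noncomputable def first (c : GP G A) (τ : Finset V) : GP G A :=
  c * sec G (fun v => if v ∈ τ then -nv G c v else 0)

end Vale.Agent.P173
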