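import Vale.Agent.P173.Defs

/-! From the clique complex to its barycentric subdivision. -/

namespace Vale.Agent.P173

/-- The finite facts about the clique complex of a graph on a linear order. -/
structure GoodL {V : Type} [LinearOrder V] (G : SimpleGraph V) : Prop where
  no4 : ∀ a b c d, G.Adj a b → G.Adj a c → G.Adj a d → G.Adj b c → G.Adj b d → ¬ G.Adj c d
  conn : ∀ {α : Type} (β : V → α), (∀ u v, G.Adj u v → β u = β v) → ∀ u v, β u = β v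
  h1 : ∀ (A : Type) [AddCommGroup A] (η : V → V → A),
    (∀ u v, G.Adj u v → η v u = -η u v) →
    (∀ u v w, G.Adj u v → G.Adj v w → G.Adj u w → η u v + η v w = η u w) →
    ∃ β : V → A, ∀ u v, G.Adj u v → η u v = β v - β u
  h2 : ∀ a b c, a < b → b < c → G.Adj a b → G.Adj b c → G.Adj a c → ∃ η : V → V → ℤ,
    ∀ x y z, x < y → y < z → G.Adj x y → G.Adj y z → G.Adj x z →
      η x y + η y z - η x z = if x = a ∧ y = b ∧ z = c then 1 else 0
  rep : ∃ η : V → V → PH, (∀ u, η u u = 1) ∧ (∀ u v, G.Adj u v → η u v * η v u = 1) ∧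
    (∀ u v w, G.Adj u v → G.Adj v w → G.Adj u w → η u v * η v w = η u w) ∧
    ¬ ∃ U : V → PH, ∀ u v, G.Adj u v → η u v = (U u)⁻¹ * U v
  sq : ∃ u₁ u₂ v₁ v₂ : V, u₁ ≠ u₂ ∧ ¬ G.Adj u₁ u₂ ∧ v₁ ≠ v₂ ∧ ¬ G.Adj v₁ v₂ ∧
    G.Adj u₁ v₁ ∧ G.Adj u₁ v₂ ∧ G.Adj u₂ v₁ ∧ G.Adj u₂ v₂

section

variable {V : Type} [LinearOrder V] {G : SimpleGraph V}

omit [LinearOrder V] in
theorem gq_adj {τ : Finset V} (h : Clq G τ) {u v : V} (hu : u ∈ τ) (hv : v ∈ τ) (huv : u ≠ v) :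
    G.Adj u v := h (Finset.mem_coe.mpr hu) (Finset.mem_coe.mpr hv) huv

theorem gq_clq2 {u v : V} (h : G.Adj u v) : Clq G {u, v} := by
  intro a ha b hb hab
  simp only [Finset.coe_insert, Finset.coe_singleton, Set.mem_insert_iff,
    Set.mem_singleton_iff] at ha hb
  rcases ha with rfl | rfl <;> rcases hb with rfl | rfl
  exacts [absurd rfl hab, h, h.symm, absurd rfl hab]

theorem gq_clq3 {u v w : V} (h1 : G.Adj u v) (h2 : G.Adj v w) (h3 : G.Adj u w) :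
    Clq G {u, v, w} := by
  intro a ha b hb hab
  simp only [Finset.coe_insert, Finset.coe_singleton, Set.mem_insert_iff,
    Set.mem_singleton_iff] at ha hb
  rcases ha with rfl | rfl | rfl <;> rcases hb with rfl | rfl | rfl
  exacts [absurd rfl hab, h1, h3, h1.symm, absurd rfl hab, h2, h3.symm, h2.symm, absurd rfl hab]

theorem gq_pr {u v : V} (h : G.Adj u v) : Pr G {u} {u, v} ∧ Pr G {v} {u, v} := by
  refine ⟨⟨Finset.singleton_nonempty _, ?_, gq_clq2 h⟩, Finset.singleton_nonempty _, ?_, gq_clq2 h⟩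
  · exact Finset.ssubset_iff_subset_ne.mpr ⟨by simp, fun e => h.ne' (by
      have : v ∈ ({u} : Finset V) := by rw [e]; simp
      simpa using this)⟩
  · exact Finset.ssubset_iff_subset_ne.mpr ⟨by simp, fun e => h.ne (by
      have : u ∈ ({v} : Finset V) := by rw [e]; simp
      simpa using this)⟩

theorem gq_conn (h : GoodL G) {α : Type} (β : Finset V → α)
    (hβ : ∀ τ τ', Pr G τ τ' → β τ = β τ') :
    ∀ τ τ', τ.Nonempty → Clq G τ → τ'.Nonempty → Clq G τ' → β τ = β τ' := by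
  have h1 : ∀ τ u, u ∈ τ → Clq G τ → β {u} = β τ := by
    intro τ u hu hc
    rcases (Finset.singleton_subset_iff.mpr hu).eq_or_ssubset with e | e
    · rw [e]
    · exact hβ _ _ ⟨Finset.singleton_nonempty _, e, hc⟩
  rintro τ τ' ⟨u, hu⟩ hc ⟨v, hv⟩ hc'
  rw [← h1 τ u hu hc, ← h1 τ' v hv hc']
  exact h.conn (fun u => β {u})
    (fun u v huv => (hβ _ _ (gq_pr huv).1).trans (hβ _ _ (gq_pr huv).2).symm) u v

theorem gq_h1 (h : GoodL G) (A : Type) [AddCommGroup A] (φ : Finset V → Finset V → A)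
    (hφ : ∀ τ₀ τ₁ τ₂, τ₀.Nonempty → Tri G τ₀ τ₁ τ₂ → φ τ₀ τ₁ + φ τ₁ τ₂ = φ τ₀ τ₂) :
    ∃ β : Finset V → A, ∀ τ τ', Pr G τ τ' → φ τ τ' = β τ' - β τ := by
  obtain ⟨ψ, hψ⟩ : ∃ ψ : Finset V → Finset V → A, ψ = fun a b => if a = b then 0 else φ a b :=
    ⟨_, rfl⟩
  have p0 : ∀ a, ψ a a = 0 := fun a => by simp [hψ]
  have p1 : ∀ a b, a ⊂ b → ψ a b = φ a b := fun a b hab => by simp [hψ, hab.ne]
  have p2 : ∀ a b c, a.Nonempty → a ⊆ b → b ⊆ c → Clq G c → ψ a b + ψ b c = ψ a c := by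
    intro a b c h0 h1 h2 hc
    rcases h1.eq_or_ssubset with rfl | h1
    · rw [p0, zero_add]
    rcases h2.eq_or_ssubset with rfl | h2
    · rw [p0, add_zero]
    rw [p1 _ _ h1, p1 _ _ h2, p1 _ _ (h1.trans h2), hφ _ _ _ h0 ⟨h1, h2, hc⟩]
  have p3 : ∀ u v t, u ∈ t → v ∈ t → Clq G t →
      ψ {u} {u, v} - ψ {v} {u, v} = ψ {u} t - ψ {v} t := by
    intro u v t hu hv hc
    have hs : ({u, v} : Finset V) ⊆ t := by
      rw [Finset.insert_subset_iff, Finset.singleton_subset_iff]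
      exact ⟨hu, hv⟩
    rw [← p2 {u} {u, v} t (by simp) (by simp) hs hc, ← p2 {v} {u, v} t (by simp) (by simp) hs hc]
    abel
  obtain ⟨β, hβ⟩ := h.h1 A (fun u v => ψ {u} {u, v} - ψ {v} {u, v})
    (fun u v _ => by
      simp only [Finset.pair_comm v u]
      abel)
    (fun u v w h1 h2 h3 => by
      have hc := gq_clq3 h1 h2 h3
      rw [p3 u v _ (by simp) (by simp) hc, p3 v w _ (by simp) (by simp) hc,
        p3 u w _ (by simp) (by simp) hc]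
      abel)
  have p4 : ∀ u v t, u ∈ t → v ∈ t → Clq G t → β u + ψ {u} t = β v + ψ {v} t := by
    intro u v t hu hv hc
    by_cases e : u = v
    · rw [e]
    · have := hβ u v (gq_adj hc hu hv e)
      rw [p3 u v t hu hv hc, sub_eq_sub_iff_add_eq_add] at this
      rw [add_comm, this]
  refine ⟨fun t => if ht : t.Nonempty then β (t.min' ht) + ψ {t.min' ht} t else 0, ?_⟩
  rintro τ τ' ⟨h0, h1, hc⟩
  have h0' : τ'.Nonempty := h0.mono h1.subset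
  simp only [dif_pos h0, dif_pos h0']
  rw [p4 _ (τ.min' h0) τ' (τ'.min'_mem h0') (h1.subset (τ.min'_mem h0)) hc,
    ← p2 {τ.min' h0} τ τ' (by simp) (Finset.singleton_subset_iff.mpr (τ.min'_mem h0)) h1.subset hc,
    p1 _ _ h1]
  abel

theorem gq_flag (h : GoodL G) {τ₀ τ₁ τ₂ : Finset V} (h0 : τ₀.Nonempty) (ht : Tri G τ₀ τ₁ τ₂) :
    ∃ x y z, G.Adj x y ∧ G.Adj y z ∧ G.Adj x z ∧ τ₀ = {x} ∧ τ₁ = {x, y} ∧ τ₂ = {x, y, z} := by
  obtain ⟨x, hx⟩ := h0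
  obtain ⟨h1, h2, hc⟩ := ht
  obtain ⟨y, hy, hy'⟩ := Finset.exists_of_ssubset h1
  obtain ⟨z, hz, hz'⟩ := Finset.exists_of_ssubset h2
  have hx1 := h1.subset hx
  have hx2 := h2.subset hx1
  have hy2 := h2.subset hy
  have hxy : G.Adj x y := gq_adj hc hx2 hy2 (fun e => hy' (e ▸ hx))
  have hyz : G.Adj y z := gq_adj hc hy2 hz (fun e => hz' (e ▸ hy))
  have hxz : G.Adj x z := gq_adj hc hx2 hz (fun e => hz' (e ▸ hx1))
  have hw : ∀ w ∈ τ₂, w = x ∨ w = y ∨ w = z := by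
    intro w hw
    by_contra hn
    simp only [not_or] at hn
    exact h.no4 x y z w hxy hxz (gq_adj hc hx2 hw (Ne.symm hn.1)) hyz
      (gq_adj hc hy2 hw (Ne.symm hn.2.1)) (gq_adj hc hz hw (Ne.symm hn.2.2))
  refine ⟨x, y, z, hxy, hyz, hxz, ?_, ?_, ?_⟩
  · ext w
    simp only [Finset.mem_singleton]
    refine ⟨fun hw0 => ?_, fun e => e ▸ hx⟩
    rcases hw w (h2.subset (h1.subset hw0)) with rfl | rfl | rfl
    exacts [rfl, absurd hw0 hy', absurd (h1.subset hw0) hz']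
  · ext w
    simp only [Finset.mem_insert, Finset.mem_singleton]
    refine ⟨fun hw0 => ?_, by rintro (rfl | rfl); exacts [hx1, hy]⟩
    rcases hw w (h2.subset hw0) with rfl | rfl | rfl
    exacts [Or.inl rfl, Or.inr rfl, absurd hw0 hz']
  · ext w
    simp only [Finset.mem_insert, Finset.mem_singleton]
    exact ⟨hw w, by rintro (rfl | rfl | rfl); exacts [hx2, hy2, hz]⟩

variable (G) in
/-- The flag given by `a, b, c` is dual to a cochain. -/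
def GqGood (a b c : V) : Prop :=
  ∃ ψ : Finset V → Finset V → ℤ, ∀ x y z, G.Adj x y → G.Adj y z → G.Adj x z →
    ψ {x} {x, y} + ψ {x, y} {x, y, z} - ψ {x} {x, y, z} = if x = a ∧ y = b ∧ z = c then 1 else 0

theorem gq_base (h : GoodL G) {a b c : V} (hab : a < b) (hbc : b < c) (h1 : G.Adj a b)
    (h2 : G.Adj b c) (h3 : G.Adj a c) : GqGood G a b c := by
  obtain ⟨η, hη⟩ := h.h2 a b c hab hbc h1 h2 h3
  obtain ⟨m, m1, m2, m3⟩ : ∃ m : Finset V → V, (∀ x, m {x} = x) ∧ (∀ x y, m {x, y} = max x y) ∧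
      ∀ x y z, m {x, y, z} = max x (max y z) := by
    refine ⟨fun s => s.max.unbotD a, fun x => by simp, fun x y => ?_, fun x y z => ?_⟩
    · simp only [Finset.max_insert, Finset.max_singleton, ← WithBot.coe_max, WithBot.unbotD_coe]
    · simp only [Finset.max_insert, Finset.max_singleton, ← WithBot.coe_max, WithBot.unbotD_coe]
  refine ⟨fun s t => if m s = m t then 0 else η (m s) (m t), fun x y z k1 k2 k3 => ?_⟩
  simp only [m1, m2, m3, ← max_assoc]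
  rcases lt_or_gt_of_ne k1.ne with e1 | e1
  · rw [max_eq_right e1.le]
    rcases lt_or_gt_of_ne k2.ne with e2 | e2
    · rw [max_eq_right e2.le, if_neg e1.ne, if_neg e2.ne, if_neg k3.ne, hη x y z e1 e2 k1 k2 k3]
    · rw [max_eq_left e2.le, if_pos rfl, if_neg (c := x = a ∧ y = b ∧ z = c)
        (by rintro ⟨-, rfl, rfl⟩; exact lt_asymm hbc e2)]
      ring
  · rw [max_eq_left e1.le, if_pos rfl, if_neg (c := x = a ∧ y = b ∧ z = c)
      (by rintro ⟨rfl, rfl, -⟩; exact lt_asymm hab e1)]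
    ring

theorem gq_swap1 {a b c : V} (hab : a ≠ b) (hac : a ≠ c) (hbc : b ≠ c) (h : GqGood G a b c) :
    GqGood G b a c := by
  obtain ⟨ψ, hψ⟩ := h
  refine ⟨fun s t => (if a ∈ s ∧ b ∈ s ∧ c ∉ s ∧ c ∈ t then 1 else 0) - ψ s t,
    fun x y z k1 k2 k3 => ?_⟩
  have := hψ x y z k1 k2 k3
  have e1 := k1.ne
  have e2 := k2.ne
  have e3 := k3.ne
  simp only [Finset.mem_insert, Finset.mem_singleton]
  grind

theorem gq_swap2 {a b c : V} (hab : a ≠ b) (hac : a ≠ c) (hbc : b ≠ c) (h : GqGood G a b c) :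
    GqGood G a c b := by
  obtain ⟨ψ, hψ⟩ := h
  refine ⟨fun s t => -(if a ∈ s ∧ b ∉ s ∧ c ∉ s ∧ b ∈ t ∧ c ∈ t then 1 else 0) - ψ s t,
    fun x y z k1 k2 k3 => ?_⟩
  have := hψ x y z k1 k2 k3
  have e1 := k1.ne
  have e2 := k2.ne
  have e3 := k3.ne
  simp only [Finset.mem_insert, Finset.mem_singleton]
  grind

theorem gq_good (h : GoodL G) {a b c : V} (h1 : G.Adj a b) (h2 : G.Adj b c) (h3 : G.Adj a c) :
    GqGood G a b c := by
  have e1 := h1.ne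
  have e2 := h2.ne
  have e3 := h3.ne
  rcases lt_or_gt_of_ne e1 with l1 | l1 <;> rcases lt_or_gt_of_ne e2 with l2 | l2 <;>
    rcases lt_or_gt_of_ne e3 with l3 | l3
  · exact gq_base h l1 l2 h1 h2 h3
  · exact absurd (l1.trans l2) (lt_asymm l3)
  · exact gq_swap2 e3 e1 e2.symm (gq_base h l3 l2 h3 h2.symm h1)
  · exact gq_swap2 e3 e1 e2.symm (gq_swap1 e3.symm e2.symm e1 (gq_base h l3 l1 h3.symm h1 h2.symm))
  · exact gq_swap1 e1.symm e2 e3 (gq_base h l1 l3 h1.symm h3 h2)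
  · exact gq_swap1 e1.symm e2 e3 (gq_swap2 e2 e1.symm e3.symm (gq_base h l2 l3 h2 h3.symm h1.symm))
  · exact absurd (l2.trans l1) (lt_asymm l3)
  · exact gq_swap1 e1.symm e2 e3 (gq_swap2 e2 e1.symm e3.symm
      (gq_swap1 e2.symm e3.symm e1.symm (gq_base h l2 l1 h2.symm h1.symm h3.symm)))

theorem gq_h2 (h : GoodL G) (σ₀ σ₁ σ₂ : Finset V) (h0 : σ₀.Nonempty) (ht : Tri G σ₀ σ₁ σ₂) :
    ∃ ψ : Finset V → Finset V → ℤ, ∀ τ₀ τ₁ τ₂, τ₀.Nonempty → Tri G τ₀ τ₁ τ₂ →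
      ψ τ₀ τ₁ + ψ τ₁ τ₂ - ψ τ₀ τ₂ = if τ₀ = σ₀ ∧ τ₁ = σ₁ ∧ τ₂ = σ₂ then 1 else 0 := by
  obtain ⟨a, b, c, h1, h2, h3, rfl, rfl, rfl⟩ := gq_flag h h0 ht
  obtain ⟨ψ, hψ⟩ := gq_good h h1 h2 h3
  refine ⟨ψ, fun τ₀ τ₁ τ₂ k0 kt => ?_⟩
  obtain ⟨x, y, z, k1, k2, k3, rfl, rfl, rfl⟩ := gq_flag h k0 kt
  rw [hψ x y z k1 k2 k3]
  refine if_congr ⟨by rintro ⟨rfl, rfl, rfl⟩; exact ⟨rfl, rfl, rfl⟩, ?_⟩ rfl rfl
  rintro ⟨e0, e1, e2⟩
  have f0 : x = a := Finset.singleton_injective e0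
  have f1 : y ∈ ({a, b} : Finset V) := by rw [← e1]; simp
  have f2 : z ∈ ({a, b, c} : Finset V) := by rw [← e2]; simp
  have g1 := k1.ne
  have g2 := k2.ne
  have g3 := k3.ne
  simp only [Finset.mem_insert, Finset.mem_singleton] at f1 f2
  grind

theorem gq_rep (h : GoodL G) : ∃ q : Finset V → Finset V → PH,
    (∀ τ₀ τ₁ τ₂, τ₀.Nonempty → Tri G τ₀ τ₁ τ₂ → q τ₀ τ₁ * q τ₁ τ₂ = q τ₀ τ₂) ∧
    ¬ ∃ U : Finset V → PH, ∀ τ τ', Pr G τ τ' → q τ τ' = (U τ)⁻¹ * U τ' := by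
  obtain ⟨η, r1, r2, r3, r4⟩ := h.rep
  obtain ⟨a, -⟩ := h.sq
  obtain ⟨m, hm⟩ : ∃ m : Finset V → V, ∀ s, s.Nonempty → m s ∈ s :=
    ⟨fun s => if hs : s.Nonempty then s.min' hs else a, fun s hs => by
      simp only [dif_pos hs]
      exact s.min'_mem hs⟩
  have r5 : ∀ t u v w, Clq G t → u ∈ t → v ∈ t → w ∈ t → η u v * η v w = η u w := by
    intro t u v w hc hu hv hw
    by_cases e1 : u = v
    · rw [e1, r1, one_mul]
    by_cases e2 : v = w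
    · rw [e2, r1, mul_one]
    by_cases e3 : u = w
    · rw [← e3, r1, r2 u v (gq_adj hc hu hv e1)]
    exact r3 u v w (gq_adj hc hu hv e1) (gq_adj hc hv hw e2) (gq_adj hc hu hw e3)
  refine ⟨fun s t => η (m s) (m t), ?_, ?_⟩
  · rintro τ₀ τ₁ τ₂ h0 ⟨h1, h2, hc⟩
    exact r5 τ₂ _ _ _ hc (h2.subset (h1.subset (hm _ h0))) (h2.subset (hm _ (h0.mono h1.subset)))
      (hm _ ((h0.mono h1.subset).mono h2.subset))
  · rintro ⟨U, hU⟩
    refine r4 ⟨fun u => U {u}, fun u v huv => ?_⟩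
    have m1 : ∀ x, m {x} = x := fun x => Finset.mem_singleton.mp (hm _ (Finset.singleton_nonempty x))
    have e1 := hU _ _ (gq_pr huv).1
    have e2 := hU _ _ (gq_pr huv).2
    have e3 := r5 {u, v} u v (m {u, v}) (gq_clq2 huv) (by simp) (by simp) (hm _ (by simp))
    simp only [m1] at e1 e2
    rw [e1, e2] at e3
    simp only
    rw [eq_mul_inv_of_mul_eq e3]
    group

end

theorem GoodL.good {V : Type} [LinearOrder V] {G : SimpleGraph V} (h : GoodL G) : Good G :=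
  ⟨gq_conn h, gq_h1 h, gq_h2 h, gq_rep h, h.sq⟩

end Vale.Agent.P173
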