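import Vale.Agent.P173.Flat

/-! A solution of all equations makes the connection on the base chamber trivial. -/

universe u

namespace Vale.Agent.P173.Setup

variable {V : Type} [Fintype V] [DecidableEq V] {G : SimpleGraph V} {A : V → Type}
  [∀ v, AddCommGroup (A v)] (S : Setup.{u} G A)

section

variable {H : Type*} [Group H] (x : S.X → H)

omit [Fintype V] in
theorem hol_tri (hF : S.Flat x) {c : GP G A} (hc : S.InW c ∅) {τ τ' : Finset V}
    (h : Pr G τ τ') : x (S.vr c ∅ τ) * x (S.vr c τ τ') = x (S.vr c ∅ τ') := by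
  have h1 := hF c ∅ τ τ' ⟨Finset.empty_ssubset.2 h.1, h.2.1, h.2.2⟩ hc
  rwa [triw, mul_inv_eq_one] at h1

theorem hol_step (hF : S.Flat x) {i : V} {c : GP G A} (hc : S.InB i c ∅) {τ : Finset V}
    (hτ : Clq G τ) {v : V} (hv : v ∈ τ) {a : A v} (ha : a ∈ S.B i v) :
    S.step x c v a = x (S.vr c ∅ τ) * (x (S.vr (c * gen G v a) ∅ τ))⁻¹ := by
  by_cases h : τ = {v}
  · rw [h, step]
  · have hp : Pr G {v} τ := ⟨Finset.singleton_nonempty v,
      Finset.ssubset_iff_subset_ne.2 ⟨Finset.singleton_subset_iff.2 hv, fun e => h e.symm⟩, hτ⟩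
    have hc' : S.InB i (c * gen G v a) ∅ := InB.mul_of_mem_Sub S hc (gen_mem_Sub G ha)
    have h1 := S.hol_tri x hF ⟨i, hc⟩ hp
    have h2 := S.hol_tri x hF ⟨i, hc'⟩ hp
    have h3 : S.vr c {v} τ = S.vr (c * gen G v a) {v} τ := by
      refine S.vr_eq_iff.2 ⟨rfl, rfl, ?_⟩
      rw [inv_mul_cancel_left]
      exact gen_mem_Par G (by simp) a
    rw [← h1, ← h2, h3, step]
    group

theorem hol_inB_iff {i : V} {c g : GP G A} (hg : g ∈ Sub G (S.B i)) :
    S.InB i (c * g) ∅ ↔ S.InB i c ∅ := by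
  refine ⟨fun h => ?_, fun h => InB.mul_of_mem_Sub S h hg⟩
  have h1 := InB.mul_of_mem_Sub S h (inv_mem hg)
  rwa [mul_inv_cancel_right] at h1

open Classical in
/-- The holonomy inside the `i`-th box as a homomorphism to a wreath product. -/
noncomputable def holHom (hF : S.Flat x) (i : V) : GP G A →* Wr (GP G A) H :=
  lift G (fun v a => ⟨fun c => if S.InB i c ∅ then S.step x c v (S.r i v a) else 1,
      gen G v (S.r i v a)⟩)
    (fun v a b => by
      refine Wr.ext (funext fun c => ?_) (by simp [gen_add])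
      simp only [Wr.mul_fn]
      rw [S.hol_inB_iff (gen_mem_Sub G (S.r_mem i v a))]
      split_ifs with h
      · simp only [step, map_add, gen_add, mul_assoc, inv_mul_cancel_left]
      · simp)
    (fun u v a b h => by
      refine Wr.ext (funext fun c => ?_) (gen_comm G h _ _)
      simp only [Wr.mul_fn]
      rw [S.hol_inB_iff (gen_mem_Sub G (S.r_mem i v b)),
        S.hol_inB_iff (gen_mem_Sub G (S.r_mem i u a))]
      split_ifs with hc
      · have hτ : Clq G {u, v} := by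
          rw [Clq, Finset.coe_pair]
          exact SimpleGraph.isClique_pair.2 fun _ => h
        have hu : u ∈ ({u, v} : Finset V) := by simp
        have hv : v ∈ ({u, v} : Finset V) := by simp
        rw [S.hol_step x hF hc hτ hu (S.r_mem i u a), S.hol_step x hF hc hτ hv (S.r_mem i v b),
          S.hol_step x hF (InB.mul_of_mem_Sub S hc (gen_mem_Sub G (S.r_mem i u a))) hτ hv
            (S.r_mem i v b),
          S.hol_step x hF (InB.mul_of_mem_Sub S hc (gen_mem_Sub G (S.r_mem i v b))) hτ hu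
            (S.r_mem i u a), mul_assoc c, mul_assoc c, gen_comm G h]
        group
      · simp)

theorem holHom_el (hF : S.Flat x) (i : V) {g : GP G A} (hg : g ∈ Sub G (S.B i)) :
    (S.holHom x hF i g).el = g := by
  induction hg using Subgroup.closure_induction with
  | mem y hy =>
    obtain ⟨v, a, ha, rfl⟩ := hy
    simp [holHom, S.r_id i v a ha]
  | one => simp
  | mul y z _ _ hy hz => rw [map_mul, Wr.mul_el, hy, hz]
  | inv y _ hy => rw [map_inv, Wr.inv_el, hy]

theorem holHom_gen (hF : S.Flat x) {i : V} {c : GP G A} (hc : S.InB i c ∅) {v : V} {a : A v}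
    (ha : a ∈ S.B i v) : (S.holHom x hF i (gen G v a)).fn c = S.step x c v a := by
  simp [holHom, S.r_id i v a ha, hc]

theorem hol_gal (hF : S.Flat x) {i : V} (l : List (Σ v, A v)) (hl : ∀ y ∈ l, y.2 ∈ S.B i y.1)
    {c : GP G A} (hc : S.InB i c ∅) : S.gal x c l = (S.holHom x hF i (wprod G l)).fn c := by
  induction l generalizing c with
  | nil => simp [gal]
  | cons y l ih =>
    have hy := hl y (by simp)
    rw [gal, wprod_cons, map_mul, Wr.mul_fn, S.holHom_gen x hF hc hy,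
      S.holHom_el x hF i (gen_mem_Sub G hy),
      ih (fun z hz => hl z (by simp [hz])) (InB.mul_of_mem_Sub S hc (gen_mem_Sub G hy))]

/-- Holonomy along the chosen word. -/
noncomputable def hol (c g : GP G A) : H := S.gal x c (word G A g)

theorem hol_eq (hF : S.Flat x) {i : V} {c g : GP G A} (hc : S.InB i c ∅)
    (hg : g ∈ Sub G (S.B i)) : S.hol x c g = (S.holHom x hF i g).fn c := by
  rw [hol, S.hol_gal x hF _ ((word_spec G g).2 _ hg) hc, (word_spec G g).1]

theorem hol_mul (hF : S.Flat x) {i : V} {c g h : GP G A} (hc : S.InB i c ∅)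
    (hg : g ∈ Sub G (S.B i)) (hh : h ∈ Sub G (S.B i)) :
    S.hol x c (g * h) = S.hol x c g * S.hol x (c * g) h := by
  rw [S.hol_eq x hF hc (mul_mem hg hh), S.hol_eq x hF hc hg,
    S.hol_eq x hF (InB.mul_of_mem_Sub S hc hg) hh, map_mul, Wr.mul_fn, S.holHom_el x hF i hg]

theorem hol_one (hF : S.Flat x) {i : V} {c : GP G A} (hc : S.InB i c ∅) : S.hol x c 1 = 1 := by
  rw [S.hol_eq x hF hc (one_mem _), map_one, Wr.one_fn]

theorem hol_gen (hF : S.Flat x) {i : V} {c : GP G A} (hc : S.InB i c ∅) {v : V} {a : A v}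
    (ha : a ∈ S.B i v) : S.hol x c (gen G v a) = S.step x c v a := by
  rw [S.hol_eq x hF hc (gen_mem_Sub G ha), S.holHom_gen x hF hc ha]

omit [Fintype V] in
theorem hol_mu_mem {i : V} {w : FreeGroup S.D.Ed} (hw : w ∈ FM (S.M i)) :
    ((FreeGroup.lift S.D.μ w : KK G A) : GP G A) ∈ Sub G (S.B i) := by
  induction hw using Subgroup.closure_induction with
  | mem y hy =>
    obtain ⟨e, he, rfl⟩ := hy
    rw [FreeGroup.lift_apply_of]
    exact S.c2 i e he
  | one => rw [map_one]; exact one_mem _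
  | mul y z _ _ hy hz => rw [map_mul]; exact mul_mem hy hz
  | inv y _ hy => rw [map_inv]; exact inv_mem hy

theorem hol_ev (hF : S.Flat x) {i : V} {w : FreeGroup S.D.Ed} (hw : w ∈ FM (S.M i))
    (g : KK G A) : ev S.D.μ (S.lab x) g w =
      S.hol x (S.t * g) ((FreeGroup.lift S.D.μ w : KK G A) : GP G A) := by
  induction hw using Subgroup.closure_induction generalizing g with
  | mem y hy =>
    obtain ⟨e, he, rfl⟩ := hy
    rw [ev_of, FreeGroup.lift_apply_of, lab, if_pos ⟨i, he⟩, hol]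
  | one =>
    rw [ev_one, map_one]
    exact (S.hol_one x hF (S.inB_t_mul i g ∅)).symm
  | mul y z hy' hz' hy hz =>
    rw [ev_mul, hy, hz, map_mul, Subgroup.coe_mul, Subgroup.coe_mul,
      S.hol_mul x hF (S.inB_t_mul i g ∅) (S.hol_mu_mem hy') (S.hol_mu_mem hz'), mul_assoc]
  | inv y hy' hy =>
    rw [ev_inv, hy, map_inv, inv_eq_iff_mul_eq_one, mul_eq_one_comm, Subgroup.coe_mul,
      ← mul_assoc, ← S.hol_mul x hF (S.inB_t_mul i g ∅)
        (by rw [Subgroup.coe_inv]; exact inv_mem (S.hol_mu_mem hy')) (S.hol_mu_mem hy'),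
      ← Subgroup.coe_mul, inv_mul_cancel]
    exact S.hol_one x hF (S.inB_t_mul i g ∅)

theorem hol_pot0 (hall : ∀ g f, ev S.D.μ (S.lab x) g (S.D.rel f) = 1) :
    ∃ U : KK G A → H, ∀ g e, S.lab x g e = (U g)⁻¹ * U (g * S.D.μ e) := by
  have hker : ∀ w, FreeGroup.lift S.D.μ w = 1 → ∀ g, ev S.D.μ (S.lab x) g w = 1 := by
    intro w hw g
    have h1 : Subgroup.normalClosure (Set.range S.D.rel) ≤ (FreeGroup.lift
        (fun e => (⟨fun c => S.lab x c e, S.D.μ e⟩ : Wr (KK G A) H))).ker := by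
      refine Subgroup.normalClosure_le_normal ?_
      rintro _ ⟨f, rfl⟩
      refine Wr.ext (funext fun c => hall c f) ?_
      rw [ev_el]
      exact (S.D.ker _).2 (Subgroup.subset_normalClosure ⟨f, rfl⟩)
    have h2 := h1 ((S.D.ker w).1 hw)
    rw [MonoidHom.mem_ker] at h2
    rw [ev, h2, Wr.one_fn]
  choose w hw using S.D.surj
  refine ⟨fun g => ev S.D.μ (S.lab x) 1 (w g), fun g e => ?_⟩
  have h1 : w (g * S.D.μ e) = (w (g * S.D.μ e) * (w g * FreeGroup.of e)⁻¹) *
      (w g * FreeGroup.of e) := by group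
  have h2 : FreeGroup.lift S.D.μ (w (g * S.D.μ e) * (w g * FreeGroup.of e)⁻¹) = 1 := by
    rw [map_mul, map_inv, map_mul, hw, hw, FreeGroup.lift_apply_of, mul_inv_cancel]
  simp only []
  rw [h1, ev_mul, hker _ h2, h2, ev_mul, hw, ev_of]
  simp

theorem hol_crd_z (c : GP G A) : S.t⁻¹ * c * (sec G (S.pos c))⁻¹ ∈ KK G A := by
  rw [mem_KK]
  simp [t, pos]

omit [Fintype V] in
theorem hol_pos_mul (c h : GP G A) : S.pos (c * h) = S.pos c + crd G h := by
  simp [pos, add_assoc]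

theorem hol_pot1 (hF : S.Flat x) (U : KK G A → H)
    (hU : ∀ g e, S.lab x g e = (U g)⁻¹ * U (g * S.D.μ e)) :
    ∃ Up : GP G A → H, ∀ i c h, S.InB i c ∅ → h ∈ Sub G (S.B i) →
      Up (c * h) = Up c * S.hol x c h := by
  have key : ∀ (i : V) (g k : KK G A), (k : GP G A) ∈ Sub G (S.B i) →
      U (g * k) = U g * S.hol x (S.t * g) k := by
    intro i g k hk
    obtain ⟨w, hw, rfl⟩ := S.c3 i i k hk hk
    rw [Set.inter_self] at hw
    rw [← S.hol_ev x hF hw, ev_pot S.D.μ (S.lab x) (S.M i) U (fun g e _ => hU g e) hw]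
    group
  refine ⟨fun c => U ⟨_, S.hol_crd_z c⟩ *
    S.hol x (c * (sec G (S.pos c))⁻¹) (sec G (S.pos c)), fun i c h hc hh => ?_⟩
  have hs : ∀ c', S.InB i c' ∅ → sec G (S.pos c') ∈ Sub G (S.B i) := fun c' hc' =>
    sec_mem_Sub G fun v => hc' v (Finset.notMem_empty v)
  have h1 := hs c hc
  have h2 := hs (c * h) (InB.mul_of_mem_Sub S hc hh)
  have hk : sec G (S.pos c) * h * (sec G (S.pos (c * h)))⁻¹ ∈ KK G A := by
    rw [mem_KK]
    simp [hol_pos_mul]
  have hk' : sec G (S.pos c) * h * (sec G (S.pos (c * h)))⁻¹ ∈ Sub G (S.B i) :=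
    mul_mem (mul_mem h1 hh) (inv_mem h2)
  have h3 : (⟨_, S.hol_crd_z (c * h)⟩ : KK G A) = ⟨_, S.hol_crd_z c⟩ * ⟨_, hk⟩ := by
    apply Subtype.ext
    simp only [Subgroup.coe_mul]
    group
  have h4 : S.t * (S.t⁻¹ * c * (sec G (S.pos c))⁻¹) = c * (sec G (S.pos c))⁻¹ := by group
  have hc0 : S.InB i (c * (sec G (S.pos c))⁻¹) ∅ := InB.mul_of_mem_Sub S hc (inv_mem h1)
  have h5 := S.hol_mul x hF hc0 hk' h2
  have h6 := S.hol_mul x hF hc0 h1 hh
  have h7 : c * (sec G (S.pos c))⁻¹ * (sec G (S.pos c) * h * (sec G (S.pos (c * h)))⁻¹) =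
      c * h * (sec G (S.pos (c * h)))⁻¹ := by group
  rw [inv_mul_cancel_right, h7] at h5
  rw [inv_mul_cancel_right] at h6
  simp only []
  rw [h3, key i _ _ hk']
  simp only [h4]
  rw [mul_assoc, ← h5, h6]
  exact (mul_assoc _ _ _).symm

omit [Fintype V] in
theorem hol_inB_y (i : V) : S.InB i (gen G i (-S.s i)) ∅ := by
  intro v _
  by_cases h : v = i
  · subst h
    simp [pos]
  · simp only [pos, crd_gen, Pi.add_apply, Pi.single_eq_of_ne h, add_zero]
    exact (S.hs i v).2 h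

end

theorem pot_of {H : Type*} [Group H] (x : S.X → H) (hF : S.Flat x)
    (hY : ∀ g f, S.IsY f → ev S.D.μ (S.lab x) g (S.D.rel f) = 1) :
    ∃ U : Finset V → H, ∀ τ τ', Pr G τ τ' → x (S.vr 1 τ τ') = (U τ)⁻¹ * U τ' := by
  classical
  have hall : ∀ g f, ev S.D.μ (S.lab x) g (S.D.rel f) = 1 := by
    intro g f
    by_cases h : S.IsY f
    · exact hY g f h
    · obtain ⟨i, hi⟩ : ∃ i, S.D.rel f ∈ FM (S.M i) := by
        by_contra h'
        exact h fun i hi => h' ⟨i, hi⟩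
      rw [S.hol_ev x hF hi, (S.D.ker _).2 (Subgroup.subset_normalClosure ⟨f, rfl⟩)]
      exact S.hol_one x hF (S.inB_t_mul i g ∅)
  obtain ⟨U0, hU0⟩ := S.hol_pot0 x hall
  obtain ⟨Up, hUp⟩ := S.hol_pot1 x hF U0 hU0
  have h1 : ∀ (τ : Finset V) (i j : V), Clq G τ → j ∈ τ → j ≠ i →
      Up (gen G i (-S.s i)) * x (S.vr (gen G i (-S.s i)) ∅ τ) =
        Up (gen G i (-S.s i) * gen G j (-S.s j)) *
          x (S.vr (gen G i (-S.s i) * gen G j (-S.s j)) ∅ τ) := by
    intro τ i j hτ hj hji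
    have ha : -S.s j ∈ S.B i j := neg_mem ((S.hs i j).2 hji)
    rw [hUp i _ _ (S.hol_inB_y i) (gen_mem_Sub G ha), S.hol_gen x hF (S.hol_inB_y i) ha,
      S.hol_step x hF (S.hol_inB_y i) hτ hj ha]
    group
  have h2 : ∀ (τ : Finset V) (i j : V), Clq G τ → i ∈ τ → j ∈ τ →
      Up (gen G i (-S.s i)) * x (S.vr (gen G i (-S.s i)) ∅ τ) =
        Up (gen G j (-S.s j)) * x (S.vr (gen G j (-S.s j)) ∅ τ) := by
    intro τ i j hτ hi hj
    by_cases hij : i = j
    · rw [hij]
    · have hadj : G.Adj i j := hτ (Finset.mem_coe.2 hi) (Finset.mem_coe.2 hj) hij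
      rw [h1 τ i j hτ hj (Ne.symm hij), h1 τ j i hτ hi hij, gen_comm G hadj]
  refine ⟨fun τ => if h : τ.Nonempty then Up (gen G h.choose (-S.s h.choose)) *
    x (S.vr (gen G h.choose (-S.s h.choose)) ∅ τ) else 1, fun τ τ' h => ?_⟩
  have hne' : τ'.Nonempty := h.1.mono h.2.1.subset
  have hi := h.1.choose_spec
  simp only [dif_pos h.1, dif_pos hne']
  rw [h2 τ' _ _ h.2.2 hne'.choose_spec (h.2.1.subset hi),
    ← S.hol_tri x hF ⟨_, S.hol_inB_y h.1.choose⟩ h]
  have h3 : S.vr 1 τ τ' = S.vr (gen G h.1.choose (-S.s h.1.choose)) τ τ' := by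
    refine S.vr_eq_iff.2 ⟨rfl, rfl, ?_⟩
    rw [inv_one, one_mul]
    exact gen_mem_Par G (Finset.mem_coe.2 hi) _
  rw [h3]
  group

end Vale.Agent.P173.Setup
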