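import Vale.Agent.P173.Defs

/-! From complexes with several vertices to presentations. -/

universe u v v'

namespace Vale.Agent.P173

section

variable {Γ Ed P W : Type*} [Group Γ] [Group P]

/-- Gauge transformations along an edge path. -/
theorem po_gauge (src tgt : Ed → W) (μ : Ed → Γ) (lab : Γ → Ed → P) (U : Γ → W → P)
    {a b : W} {w : FreeGroup Ed} (h : IsPath src tgt a w b) (g : Γ) :
    ev μ (fun g e => U g (src e) * lab g e * (U (g * μ e) (tgt e))⁻¹) g w =
      U g a * ev μ lab g w * (U (g * FreeGroup.lift μ w) b)⁻¹ := by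
  induction h with
  | refl => simp
  | fwd e _ ih => rw [ev_mul, ev_mul, ih]; simp [mul_assoc]
  | bwd e _ ih => rw [ev_mul, ev_mul, ih, ev_inv, ev_inv]; simp [mul_assoc]

theorem po_triv (μ : Ed → Γ) (g : Γ) (w : FreeGroup Ed) :
    ev μ (fun _ _ => (1 : P)) g w = 1 := by
  have h := ev_pot μ (fun _ _ => (1 : P)) Set.univ (fun _ => 1) (fun _ _ _ => by simp)
    (mem_FM_univ w) g
  simpa using h

theorem po_const (μ : Ed → Γ) (φ : FreeGroup Ed →* P) (g : Γ) (w : FreeGroup Ed) :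
    ev μ (fun _ e => φ (FreeGroup.of e)) g w = φ w := by
  induction w using FreeGroup.induction_on generalizing g with
  | C1 => simp
  | of e => simp
  | inv_of e h => rw [ev_inv, h, map_inv]
  | mul x y hx hy => rw [ev_mul, hx, hy, map_mul]

theorem po_pot (src tgt : Ed → W) (μ : Ed → Γ) (U : Γ → W → P)
    {a b : W} {w : FreeGroup Ed} (h : IsPath src tgt a w b) (g : Γ) :
    ev μ (fun g e => (U g (src e))⁻¹ * U (g * μ e) (tgt e)) g w =
      (U g a)⁻¹ * U (g * FreeGroup.lift μ w) b := by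
  have h1 := po_gauge src tgt μ (fun _ _ => (1 : P)) (fun g a => (U g a)⁻¹) h g
  rw [po_triv] at h1
  simpa using h1

/-- The chain in the universal cover traced out by a word. -/
noncomputable def poFox (μ : Ed → Γ) (g : Γ) (w : FreeGroup Ed) : Γ × Ed →₀ ZMod 2 :=
  Multiplicative.toAdd
    (ev μ (fun g e => Multiplicative.ofAdd (Finsupp.single (g, e) (1 : ZMod 2))) g w)

theorem po_fox (μ : Ed → Γ) (L : (Γ × Ed →₀ ZMod 2) →ₗ[ZMod 2] ZMod 2) (g : Γ)
    (w : FreeGroup Ed) :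
    ev μ (fun g e => Multiplicative.ofAdd (L (Finsupp.single (g, e) 1))) g w =
      Multiplicative.ofAdd (L (poFox μ g w)) :=
  (ev_map μ (fun g e => Multiplicative.ofAdd (Finsupp.single (g, e) (1 : ZMod 2)))
    (AddMonoidHom.toMultiplicative L.toAddMonoidHom) g w).symm

end

theorem po_dual {Γ : Type v} [Group Γ] (D : Cov.{u, v} Γ) (y₀ : Γ × D.Fa) :
    ∃ c : Γ → D.Ed → Multiplicative (ZMod 2),
      ∀ y : Γ × D.Fa, ev D.μ c y.1 (D.rel y.2) = 1 ↔ y ≠ y₀ := by
  classical
  have : Fact (Nat.Prime 2) := Nat.fact_prime_two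
  have hli : LinearIndependent (ZMod 2) fun y : Γ × D.Fa => poFox D.μ y.1 (D.rel y.2) := by
    rw [linearIndependent_iff']
    intro s a hs y hy
    obtain ⟨c, hc⟩ := D.dual s y hy
    set L : (Γ × D.Ed →₀ ZMod 2) →ₗ[ZMod 2] ZMod 2 :=
      Finsupp.linearCombination (ZMod 2) fun p => Multiplicative.toAdd (c p.1 p.2) with hL
    have hc' : c = fun g e => Multiplicative.ofAdd (L (Finsupp.single (g, e) 1)) := by
      funext g e
      simp [hL]
    have hv : ∀ z ∈ s, L (poFox D.μ z.1 (D.rel z.2)) = 0 ↔ z ≠ y := fun z hz => by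
      rw [← hc z hz, hc', po_fox]
      rfl
    have h1 := congrArg L hs
    rw [map_sum, map_zero, Finset.sum_eq_single_of_mem y hy, map_smul, smul_eq_mul,
      mul_eq_zero] at h1
    · exact h1.resolve_right fun h => (hv y hy).1 h rfl
    · intro z hz hne
      rw [map_smul, (hv z hz).2 hne, smul_zero]
  obtain ⟨ℓ, hℓ⟩ := LinearMap.exists_leftInverse_of_injective _
    (LinearMap.ker_eq_bot.2 hli)
  refine ⟨fun g e => Multiplicative.ofAdd
    (((Finsupp.lapply y₀).comp ℓ) (Finsupp.single (g, e) 1)), fun y => ?_⟩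
  rw [po_fox]
  have h1 : ℓ (poFox D.μ y.1 (D.rel y.2)) = Finsupp.single y 1 := by
    have := DFunLike.congr_fun hℓ (Finsupp.single y 1)
    simpa using this
  change (ℓ (poFox D.μ y.1 (D.rel y.2))) y₀ = 0 ↔ _
  rw [h1, Finsupp.single_apply]
  by_cases h : y = y₀ <;> simp [h]

theorem Cov.pres {Γ : Type v} [Group Γ] (D : Cov.{u, v} Γ) : Nonempty (Pres.{u, v} Γ) := by
  classical
  have hπ : ∀ a : D.V, ∃ w, IsPath D.src D.tgt D.v0 w a ∧ FreeGroup.lift D.μ w = 1 ∧
      (a = D.v0 → w = 1) := fun a => by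
    by_cases h : a = D.v0
    · exact ⟨1, h ▸ IsPath.refl _, map_one _, fun _ => rfl⟩
    · obtain ⟨w, h1, h2⟩ := D.conn 1 a
      exact ⟨w, h1, h2, fun h' => absurd h' h⟩
  choose π hπ1 hπ2 hπ3 using hπ
  refine ⟨⟨D.Ed, D.Fa ⊕ {a : D.V // a ≠ D.v0}, D.μ, Sum.elim D.rel fun a => π a.1,
    fun g => ?_, fun w => ⟨fun hw => ?_, fun hw => ?_⟩, fun g₀ f₀ => ?_⟩⟩
  · obtain ⟨w, _, h⟩ := D.conn g D.v0
    exact ⟨w, h⟩
  · set N : Subgroup (FreeGroup D.Ed) := Subgroup.normalClosure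
      (Set.range (Sum.elim D.rel fun a : {a : D.V // a ≠ D.v0} => π a.1)) with hN
    have : N.Normal := Subgroup.normalClosure_normal
    have hker : ∀ r, QuotientGroup.mk' N r = 1 ↔ r ∈ N := fun r => QuotientGroup.eq_one_iff r
    obtain ⟨U, hU⟩ := D.flat (FreeGroup D.Ed ⧸ N)
      (fun _ e => QuotientGroup.mk' N (FreeGroup.of e)) fun g f => by
        rw [po_const, hker]
        exact Subgroup.subset_normalClosure ⟨Sum.inl f, rfl⟩
    have hU' : (fun (_ : Γ) e => QuotientGroup.mk' N (FreeGroup.of e)) =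
        fun g e => (U g (D.src e))⁻¹ * U (g * D.μ e) (D.tgt e) := by
      funext g e
      exact hU g e
    have h1 : ∀ g a, U g a = U g D.v0 := fun g a => by
      by_cases h : a = D.v0
      · rw [h]
      · have h2 := po_pot D.src D.tgt D.μ U (hπ1 a) g
        rw [← hU', po_const, (hker (π a)).2
          (Subgroup.subset_normalClosure ⟨Sum.inr ⟨a, h⟩, rfl⟩),
          hπ2, mul_one, eq_comm, inv_mul_eq_one] at h2
        exact h2.symm
    have h2 := ev_pot D.μ (fun (_ : Γ) e => QuotientGroup.mk' N (FreeGroup.of e)) Set.univ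
      (fun g => U g D.v0) (fun g e _ => by rw [hU g e, h1 g, h1 (g * D.μ e)]) (mem_FM_univ w) 1
    rw [po_const, hw, mul_one, inv_mul_cancel] at h2
    exact (hker w).1 h2
  · refine Subgroup.normalClosure_le_normal (N := (FreeGroup.lift D.μ).ker) ?_ hw
    rintro _ ⟨f | a, rfl⟩
    · exact D.mu_rel f
    · exact hπ2 a.1
  · rcases f₀ with f₀ | a₀
    · obtain ⟨c, hc⟩ := po_dual D (g₀, f₀)
      refine ⟨fun g e => ev D.μ c g (π (D.src e)) * c g e *
        (ev D.μ c (g * D.μ e) (π (D.tgt e)))⁻¹, ?_⟩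
      rintro g (f | a)
      · have h := po_gauge D.src D.tgt D.μ c (fun g a => ev D.μ c g (π a)) (D.path_rel f) g
        rw [D.mu_rel, mul_one] at h
        rw [Sum.elim_inl, h, mul_inv_eq_one, mul_eq_left, hc (g, f)]
        simp
      · have h := po_gauge D.src D.tgt D.μ c (fun g a => ev D.μ c g (π a)) (hπ1 a.1) g
        rw [hπ2, mul_one, hπ3 _ rfl, ev_one, one_mul, mul_inv_cancel] at h
        rw [Sum.elim_inr, h]
        simp
    · set U : Γ → D.V → Multiplicative (ZMod 2) :=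
        fun g a => if g = g₀ ∧ a = a₀.1 then Multiplicative.ofAdd 1 else 1 with hU
      refine ⟨fun g e => (U g (D.src e))⁻¹ * U (g * D.μ e) (D.tgt e), ?_⟩
      rintro g (f | a)
      · rw [Sum.elim_inl, po_pot D.src D.tgt D.μ U (D.path_rel f) g, D.mu_rel, mul_one,
          inv_mul_cancel]
        simp
      · rw [Sum.elim_inr, po_pot D.src D.tgt D.μ U (hπ1 a.1) g, hπ2, mul_one]
        have h0 : U g D.v0 = 1 := if_neg fun h => a₀.2 h.2.symm
        rw [h0, inv_one, one_mul]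
        by_cases h : g = g₀ ∧ a.1 = a₀.1
        · have h1 : U g a.1 = Multiplicative.ofAdd 1 := if_pos h
          rw [h1]
          refine ⟨fun h2 => absurd h2 (by decide), fun h2 => absurd ⟨h.1, ?_⟩ h2⟩
          rw [Subtype.ext h.2]
        · have h1 : U g a.1 = 1 := if_neg h
          rw [h1]
          refine ⟨fun _ h2 => h ⟨h2.1, ?_⟩, fun _ => rfl⟩
          rw [Sum.inr.inj h2.2]

theorem po_transport {Γ Γ' Ed P : Type*} [Group Γ] [Group Γ'] [Group P] (e : Γ ≃* Γ')
    (μ : Ed → Γ) (c : Γ → Ed → P) (g : Γ') (w : FreeGroup Ed) :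
    FreeGroup.lift (fun x => e (μ x)) w = e (FreeGroup.lift μ w) ∧
      ev (fun x => e (μ x)) (fun g => c (e.symm g)) g w = ev μ c (e.symm g) w := by
  induction w using FreeGroup.induction_on generalizing g with
  | C1 => simp
  | of x => simp
  | inv_of x h => rw [ev_inv, ev_inv]; simp
  | mul x y hx hy =>
    rw [ev_mul, ev_mul, map_mul, map_mul, map_mul, (hx g).1, (hx g).2, (hy g).1, (hy _).2]
    simp

theorem Pres.transport {Γ : Type v} {Γ' : Type v'} [Group Γ] [Group Γ'] (e : Γ ≃* Γ')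
    (D : Pres.{u, v} Γ) : Nonempty (Pres.{u, v'} Γ') := by
  have h0 : ∀ w, FreeGroup.lift (fun x => e (D.μ x)) w = e (FreeGroup.lift D.μ w) := fun w =>
    (po_transport e D.μ (fun _ _ => (1 : Γ)) 1 w).1
  refine ⟨⟨D.Ed, D.Fa, fun x => e (D.μ x), D.rel, fun g => ?_, fun w => ?_, fun g₀ f₀ => ?_⟩⟩
  · obtain ⟨w, hw⟩ := D.surj (e.symm g)
    exact ⟨w, by rw [h0, hw, e.apply_symm_apply]⟩
  · rw [h0, ← D.ker, map_eq_one_iff e e.injective]
  · obtain ⟨c, hc⟩ := D.dual (e.symm g₀) f₀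
    refine ⟨fun g => c (e.symm g), fun g f => ?_⟩
    rw [(po_transport e D.μ c g _).2, hc, e.symm.injective.eq_iff]

end Vale.Agent.P173
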