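import Vale.Agent.P173.Core
import Vale.Agent.P173.CdUp
import Vale.Agent.P173.Closure
import Vale.Agent.P173.Graph21
import Vale.Agent.P173.PresOf
import Vale.Agent.P173.CxOfCW
import Vale.Agent.P173.CxCover
import Vale.Agent.P173.CoverComb

/-! Assembly. -/

universe u v

open Set Topology CategoryTheory Cardinal

namespace Vale.Agent.P173

theorem pres_of_cw {Γ : Type} [Group Γ] (X : Type u) [TopologicalSpace X] [T2Space X]
    [CWComplex (univ : Set X)] (hdim : ∀ n, 2 < n → IsEmpty (RelCWComplex.cell (univ : Set X) n))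
    (x : X) (e : FundamentalGroup X x ≃* Γ) (E : Type v) [TopologicalSpace E] (p : E → X)
    (hp : IsCoveringMap p) (hs : Function.Surjective p) [ContractibleSpace E] :
    Nonempty (Pres.{u, 0} Γ) := by
  haveI : Nonempty X := ⟨x⟩
  obtain ⟨C⟩ := exists_cx X hdim
  obtain ⟨C', ⟨cc⟩⟩ := exists_cellCov C hp hs
  obtain ⟨D⟩ := exists_cov hp hs cc
  obtain ⟨D'⟩ := D.pres
  haveI : PathConnectedSpace X := hs.pathConnectedSpace hp.continuous
  exact D'.transport ((MulEquiv.inv' _).symm.trans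
    ((FundamentalGroup.fundamentalGroupMulEquivOfPathConnected _ _).trans e))

theorem main : ∃ (Γ : Type) (_ : Group Γ),
    projectiveDimension
      (ModuleCat.of (MonoidAlgebra ℤ Γ) (Representation.trivial ℤ Γ ℤ).asModule) = 2 ∧
    IsEmpty (Pres.{u, 0} Γ) := by
  obtain ⟨G, hG⟩ := exists_goodL
  let J : Fin 21 → Type := fun v => (ℵ_ ((v : ℕ) + 1 : ℕ)).out
  have hJ : ∀ v, Cardinal.mk (J v) = ℵ_ ((v : ℕ) + 1 : ℕ) := fun v => mk_out _
  have h0 : ∀ v, ℵ₀ < Cardinal.mk (J v) := fun v => by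
    rw [hJ, ← aleph_zero, aleph_lt_aleph]
    exact_mod_cast Nat.succ_pos _
  have hlt : ∀ a b, a < b → Cardinal.mk (J a) < Cardinal.mk (J b) := fun a b h => by
    rw [hJ, hJ, aleph_lt_aleph]
    exact_mod_cast Nat.succ_lt_succ h
  refine ⟨KK G (fun v => J v →₀ ZMod 2), inferInstance, cd_eq hG.good fun v => ?_, ⟨fun D => ?_⟩⟩
  · obtain ⟨i⟩ : Nonempty (J v) := mk_ne_zero_iff.1 (aleph0_pos.trans (h0 v)).ne'
    exact ⟨Finsupp.applyAddHom i, Finsupp.single i 1, by simp⟩
  · obtain ⟨S⟩ := exists_setup G J h0 hlt D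
    exact core hG.good S

end Vale.Agent.P173
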