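import Vale.Agent.P173.GP

/-! The data of the main contradiction and the system of equations attached to it. -/

universe u

namespace Vale.Agent.P173

variable {V : Type} [Fintype V] [DecidableEq V] (G : SimpleGraph V) (A : V → Type)
  [∀ v, AddCommGroup (A v)]

/-- A presentation of the cartesian subgroup with a free family of closed boxes. -/
structure Setup : Type (u + 1) where
  D : Pres.{u, 0} (KK G A)
  B : V → ∀ v, AddSubgroup (A v)
  r : V → ∀ v, A v →+ A v
  r_mem : ∀ i v a, r i v a ∈ B i v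
  r_id : ∀ i v a, a ∈ B i v → r i v a = a
  s : ∀ v, A v
  hs : ∀ i v, s v ∈ B i v ↔ v ≠ i
  M : V → Set D.Ed
  c2 : ∀ i e, e ∈ M i → (D.μ e : GP G A) ∈ Sub G (B i)
  c3 : ∀ i j (h : KK G A), (h : GP G A) ∈ Sub G (B i) → (h : GP G A) ∈ Sub G (B j) →
    ∃ w ∈ FM (M i ∩ M j), FreeGroup.lift D.μ w = h
  c4 : ∀ i, ∀ w ∈ FM (M i), FreeGroup.lift D.μ w = 1 → w ∈ Subgroup.closure
    {x | ∃ u f, u ∈ FM (M i) ∧ D.rel f ∈ FM (M i) ∧ x = u * D.rel f * u⁻¹}

open Classical in
/-- A word for `g` all of whose letters lie in every box subgroup containing `g`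
(see `word_spec` in `Build.lean`). -/
noncomputable def word (g : GP G A) : List (Σ v, A v) :=
  if h : ∃ l, wprod G l = g ∧ ∀ B : ∀ v, AddSubgroup (A v), g ∈ Sub G B → ∀ x ∈ l, x.2 ∈ B x.1
  then h.choose else []

namespace Setup

variable {G A} (S : Setup.{u} G A)

/-- Unknowns: pairs of faces of the building, and edges of the universal cover. -/
abbrev X : Type u :=
  (Σ p : Finset V × Finset V, GP G A ⧸ Par G A (p.1 : Set V)) ⊕ (KK G A × S.D.Ed)

/-- The unknown attached to the faces of types `τ ⊂ τ'` of the chamber `c`. -/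
def vr (c : GP G A) (τ τ' : Finset V) : S.X := Sum.inl ⟨(τ, τ'), (c : GP G A ⧸ Par G A (τ : Set V))⟩

/-- The position of a chamber. -/
def pos (c : GP G A) : ∀ v, A v := S.s + crd G c

/-- The face of type `τ` of `c` meets the `i`-th box. -/
def InB (i : V) (c : GP G A) (τ : Finset V) : Prop := ∀ v, v ∉ τ → S.pos c v ∈ S.B i v

/-- The face of type `τ` of `c` meets one of the boxes. -/
def InW (c : GP G A) (τ : Finset V) : Prop := ∃ i, S.InB i c τ

/-- The chamber attached to `1 : KK`. -/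
noncomputable def t : GP G A := (sec G S.s)⁻¹

section

variable {H : Type*} [Group H] (x : S.X → H)

/-- Holonomy of one step of a gallery. -/
def step (c : GP G A) (v : V) (a : A v) : H :=
  x (S.vr c ∅ {v}) * (x (S.vr (c * gen G v a) ∅ {v}))⁻¹

/-- Holonomy of a gallery. -/
def gal : GP G A → List (Σ v, A v) → H
  | _, [] => 1
  | c, y :: l => S.step x c y.1 y.2 * gal (c * gen G y.1 y.2) l

open Classical in
/-- The label of an edge of the universal cover. -/
noncomputable def lab (g : KK G A) (e : S.D.Ed) : H :=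
  if ∃ i, e ∈ S.M i then S.gal x (S.t * g) (word G A (S.D.μ e : GP G A)) else x (Sum.inr (g, e))

/-- The curvature on a triple of faces. -/
def triw (c : GP G A) (τ₀ τ₁ τ₂ : Finset V) : H :=
  x (S.vr c τ₀ τ₁) * x (S.vr c τ₁ τ₂) * (x (S.vr c τ₀ τ₂))⁻¹

/-- Flatness on the union of the boxes. -/
def Flat : Prop := ∀ c τ₀ τ₁ τ₂, Tri G τ₀ τ₁ τ₂ → S.InW c τ₀ → S.triw x c τ₀ τ₁ τ₂ = 1

end

/-- The selected triples. -/
def IsT (c : GP G A) (τ₀ τ₁ τ₂ : Finset V) : Prop :=
  c ≠ 1 ∧ Tri G τ₀ τ₁ τ₂ ∧ Disjoint τ₀ (Desc G c) ∧ S.InW c τ₀ ∧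
    (S.InW c ∅ → τ₀ = ∅ ∧ (Disjoint τ₁ (Desc G c) ∨ τ₁ = τ₂ ∩ Desc G c ∨ τ₂ = Desc G c))

/-- The faces outside the boxes. -/
def IsY (f : S.D.Fa) : Prop := ∀ i, S.D.rel f ∉ FM (S.M i)

/-- The constants: pairs of nonempty faces of the base chamber. -/
def IsC (y : S.X) : Prop := ∃ τ τ', Pr G τ τ' ∧ y = S.vr 1 τ τ'

end Setup

end Vale.Agent.P173
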