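import Vale.Agent.P173.Defs

/-! Topological definitions for P173: developing functions and 2-dimensional cell complexes. -/

universe u v w w'

open Set Topology Filter unitInterval Metric

namespace Vale.Agent.P173

/-- `ψ` is constant near every point of `O`. -/
def LC {B α : Type*} [TopologicalSpace B] (O : Set B) (ψ : B → α) : Prop :=
  ∀ t ∈ O, ∀ᶠ s in 𝓝 t, ψ s = ψ t

/-- `D` is a developing function along `f` for the local potentials `lam i` on `U i`. -/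
def IsDev {B X ι G : Type*} [TopologicalSpace B] [Group G] (U : ι → Set X) (lam : ι → X → G)
    (f : B → X) (D : B → G) : Prop :=
  ∀ i, LC (f ⁻¹' U i) (fun b => D b * (lam i (f b))⁻¹)

/-- A cell structure of dimension at most two with the weak topology. -/
structure Cx (Y : Type u) [TopologicalSpace Y] : Type (max u (w + 1)) where
  V : Type w
  Ed : Type w
  Fa : Type w
  v0 : V
  vx : V → Y
  ed : Ed → C(ℝ, Y)
  fa : Fa → C(ℂ, Y)
  src : Ed → V
  tgt : Ed → V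
  ed_src : ∀ e, ed e (-1) = vx (src e)
  ed_tgt : ∀ e, ed e 1 = vx (tgt e)
  cover : ∀ y, (∃ a, y = vx a) ∨ (∃ e t, |t| < 1 ∧ y = ed e t) ∨ ∃ f z, ‖z‖ < 1 ∧ y = fa f z
  vx_inj : Function.Injective vx
  ed_inj : ∀ e e' t t', |t| < 1 → |t'| < 1 → ed e t = ed e' t' → e = e' ∧ t = t'
  fa_inj : ∀ f f' z z', ‖z‖ < 1 → ‖z'‖ < 1 → fa f z = fa f' z' → f = f' ∧ z = z'
  vx_ne_ed : ∀ a e t, |t| < 1 → vx a ≠ ed e t
  vx_ne_fa : ∀ a f z, ‖z‖ < 1 → vx a ≠ fa f z
  ed_ne_fa : ∀ e t f z, |t| < 1 → ‖z‖ < 1 → ed e t ≠ fa f z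
  fa_bd : ∀ f z, ‖z‖ = 1 → (∃ a, fa f z = vx a) ∨ ∃ e t, |t| < 1 ∧ fa f z = ed e t
  wt1 : ∀ A : Set Y, (∀ y ∈ A, (∃ a, y = vx a) ∨ ∃ e t, |t| < 1 ∧ y = ed e t) →
    (∀ e, IsClosed (ed e ⁻¹' A ∩ Icc (-1) 1)) → IsClosed A
  wt2 : ∀ A : Set Y, (∀ e, IsClosed (ed e ⁻¹' A ∩ Icc (-1) 1)) →
    (∀ f, IsClosed (fa f ⁻¹' A ∩ closedBall 0 1)) → IsClosed A

namespace Cx

variable {Y : Type u} [TopologicalSpace Y] (C : Cx.{u, w} Y)

/-- The 1-skeleton. -/
def S1 : Set Y := {y | (∃ a, y = C.vx a) ∨ ∃ e t, |t| < 1 ∧ y = C.ed e t}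

/-- The 1-skeleton minus the midpoints of the edges. -/
def Us : Set Y := {y | (∃ a, y = C.vx a) ∨ ∃ e t, |t| < 1 ∧ t ≠ 0 ∧ y = C.ed e t}

/-- The union of the open edges. -/
def Uo : Set Y := {y | ∃ e t, |t| < 1 ∧ y = C.ed e t}

open Classical in
/-- The local potential on the open edges. -/
noncomputable def lam (y : Y) : FreeGroup C.Ed :=
  if h : ∃ p : C.Ed × ℝ, 0 ≤ p.2 ∧ p.2 < 1 ∧ y = C.ed p.1 p.2 then FreeGroup.of h.choose.1 else 1

open Classical in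
/-- The nearest vertex. -/
noncomputable def vert (y : Y) : C.V :=
  if h : ∃ a, y = C.vx a then h.choose
  else if h : ∃ p : C.Ed × ℝ, |p.2| < 1 ∧ y = C.ed p.1 p.2 then
    (if h.choose.2 < 0 then C.src h.choose.1 else C.tgt h.choose.1)
  else C.v0

/-- Developing function along a map into the 1-skeleton. -/
def Dev1 {B G : Type*} [TopologicalSpace B] [Group G] (φ : FreeGroup C.Ed →* G) (γ : B → Y)
    (D : B → G) : Prop :=
  LC (γ ⁻¹' C.Us) D ∧ LC (γ ⁻¹' C.Uo) (fun b => D b * (φ (C.lam (γ b)))⁻¹)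

/-- The attaching loop of a face. -/
noncomputable def loop (f : C.Fa) : C(I, Y) :=
  ⟨fun t => C.fa f (Complex.exp (2 * Real.pi * (t : ℝ) * Complex.I)), by fun_prop⟩

/-- The characteristic path of an edge. -/
noncomputable def epath (e : C.Ed) : C(I, Y) := ⟨fun t => C.ed e (2 * (t : ℝ) - 1), by fun_prop⟩

open Classical in
/-- The boundary word of a face. -/
noncomputable def rel (f : C.Fa) : FreeGroup C.Ed :=
  if h : ∃ D : I → FreeGroup C.Ed, C.Dev1 (MonoidHom.id _) (C.loop f) D then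
    (h.choose 0)⁻¹ * h.choose 1 else 1

/-- The base vertex of the boundary word of a face. -/
noncomputable def bs (f : C.Fa) : C.V := C.vert (C.fa f 1)

end Cx

/-- A cellular covering. -/
structure CellCov {X : Type u} {E : Type v} [TopologicalSpace X] [TopologicalSpace E]
    (C : Cx.{u, w} X) (C' : Cx.{v, w'} E) (p : E → X) : Type (max w w') where
  pV : C'.V → C.V
  pE : C'.Ed → C.Ed
  pF : C'.Fa → C.Fa
  hv : ∀ a, p (C'.vx a) = C.vx (pV a)
  he : ∀ e t, p (C'.ed e t) = C.ed (pE e) t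
  hf : ∀ f z, p (C'.fa f z) = C.fa (pF f) z
  h0 : pV C'.v0 = C.v0
  liftV : ∀ x a, p x = C.vx a → ∃ a', C'.vx a' = x
  liftE : ∀ x e t, p x = C.ed e t → ∃ e', pE e' = e ∧ C'.ed e' t = x
  uniqE : ∀ e₁ e₂ t, pE e₁ = pE e₂ → C'.ed e₁ t = C'.ed e₂ t → e₁ = e₂
  liftF : ∀ x f z, p x = C.fa f z → ∃ f', pF f' = f ∧ C'.fa f' z = x

end Vale.Agent.P173
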